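import Mathlib

/-!
# Row 298, paradox block.  Abstract Burali-Forti argument.
Sorts: `T` (codes of trees), `W` (sets of codes), `P` (points = sets of codes), `S` (sets of points), `F` (families of such sets).
`acc t G`: the tree `t` maps into the strictly descending chains of `G`.  Comprehension holds for definable extensional predicates.

Recipe (all quantifiers relativised to `el`).  `eqv a b := ∀ G, acc a G ↔ acc b G`; `le b a := ∀ G, acc a G → acc b G`;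
`lt b a := ∀ G, acc a G → ∃ S, inF S G ∧ acc b (res G S)`;
`Ord t := ∀ W, (∀ a b, eqv a b → inW a W → inW b W) → (∀ V, (∀ a, inW a V → inW a W) → inW (sup V) W) → inW t W`.
First prove `DT.wk` (weakening) and closure of `DF` under `or`, `imp`, `iff`, `all`, and `DF` of `eqv`, `le`, `lt`, `Ord`, `sub`, `Is` at
`DT` arguments.  `Ord` is invariant and closed under `sup`; induction for definable invariant `φ` (strong form: apply it to `φ ∧ Ord`);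
inversion `Ord a → ∃ V ⊆ Ord, eqv a (sup V)`.  `b ∈ V → lt b (sup V)`; `(∀ b ∈ V, lt b c) → le (sup V) c`; `le`/`lt` mix transitively.
Mono: `Ord a → G ⊆ G' → acc a G → acc a G'` (induction), so `lt b a → le b a` for `Ord b`.
Linearity `L a b := le a b ∨ lt b a` for ordinals: induct on `a` with `∀ b, Ord b → L a b ∧ L b a` (first `L (sup V) b` from `L b a'`,
then `L b (sup V)` by inversion of `b`).
`Is S c := ∀ w, inS w S ↔ ∃ c', Ord c' ∧ lt c' c ∧ ∀ x, inP x w ↔ le x c'` (exists by `cS`; the points by `cP`).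
K1: `Ord c', lt c' c, ¬ lt c' c', Is S' c', Is S c → ssub S' S`.
K2 (induction on `c`): `∀ G, (∀ c', Ord c' → lt c' c → ¬ lt c' c' ∧ ∀ S, Is S c' → inF S G) → acc c G`.
Descent, for a fixed `a` with `lt a a` (induction on `c`, uses linearity and `le c c' → Is S c → Is S' c' → sub S S'`):
`∀ G S, Is S c → (∀ S', inF S' G → ssub S' S ∧ ∃ c', Ord c' ∧ Is S' c') → ¬ acc a G`.
Good (induction on `a = sup V`): `∀ c, Ord c → le c a → ¬ lt c c`: if `c` is below no `b ∈ V` then `le a c`, so `lt a a`; take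
`G = {S | ∃ c, Ord c ∧ (∃ b ∈ V, le c b) ∧ Is S c}` (`cF`), `acc a G` by K1, K2, contradiction with the descent.
Finally `Ω = sup {t | Ord t}` has `lt Ω Ω`.
-/

set_option autoImplicit false
set_option linter.unusedVariables false

namespace Crest.Agent.R298

inductive Sr : Type
  | T | W | P | S | F

structure BFS (C : Type) where
  el : Sr → C → Prop
  acc : C → C → Prop
  inW : C → C → Prop
  inP : C → C → Prop
  inS : C → C → Prop
  inF : C → C → Prop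
  sup : C → C
  res : C → C → C

variable {C : Type}

def ncons (x : C) (ρ : ℕ → C) : ℕ → C
  | 0 => x
  | i + 1 => ρ i

/-- definable terms -/
inductive DT (B : BFS C) (Γ : List Sr) : Sr → ((ℕ → C) → C) → Prop
  | var {σ : Sr} (i : ℕ) : Γ[i]? = some σ → DT B Γ σ fun ρ => ρ i
  | cst {σ : Sr} (c : C) : B.el σ c → DT B Γ σ fun _ => c
  | sup {f : (ℕ → C) → C} : DT B Γ .W f → DT B Γ .T fun ρ => B.sup (f ρ)
  | res {f g : (ℕ → C) → C} : DT B Γ .F f → DT B Γ .S g → DT B Γ .F fun ρ => B.res (f ρ) (g ρ)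

/-- definable predicates -/
inductive DF (B : BFS C) : List Sr → ((ℕ → C) → Prop) → Prop
  | acc {Γ : List Sr} {f g : (ℕ → C) → C} : DT B Γ .T f → DT B Γ .F g → DF B Γ fun ρ => B.acc (f ρ) (g ρ)
  | inW {Γ : List Sr} {f g : (ℕ → C) → C} : DT B Γ .T f → DT B Γ .W g → DF B Γ fun ρ => B.inW (f ρ) (g ρ)
  | inP {Γ : List Sr} {f g : (ℕ → C) → C} : DT B Γ .T f → DT B Γ .P g → DF B Γ fun ρ => B.inP (f ρ) (g ρ)
  | inS {Γ : List Sr} {f g : (ℕ → C) → C} : DT B Γ .P f → DT B Γ .S g → DF B Γ fun ρ => B.inS (f ρ) (g ρ)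
  | inF {Γ : List Sr} {f g : (ℕ → C) → C} : DT B Γ .S f → DT B Γ .F g → DF B Γ fun ρ => B.inF (f ρ) (g ρ)
  | neg {Γ : List Sr} {φ : (ℕ → C) → Prop} : DF B Γ φ → DF B Γ fun ρ => ¬ φ ρ
  | and {Γ : List Sr} {φ ψ : (ℕ → C) → Prop} : DF B Γ φ → DF B Γ ψ → DF B Γ fun ρ => φ ρ ∧ ψ ρ
  | ex {Γ : List Sr} (σ : Sr) {φ : (ℕ → C) → Prop} : DF B (σ :: Γ) φ → DF B Γ fun ρ => ∃ x, B.el σ x ∧ φ (ncons x ρ)
  | congr {Γ : List Sr} {φ ψ : (ℕ → C) → Prop} : DF B Γ φ → (∀ ρ, φ ρ ↔ ψ ρ) → DF B Γ ψ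

namespace BFS

variable (B : BFS C)

def eqv (a b : C) : Prop := ∀ G, B.el .F G → (B.acc a G ↔ B.acc b G)
def sub (X Y : C) : Prop := ∀ w, B.el .P w → B.inS w X → B.inS w Y
def ssub (X Y : C) : Prop := B.sub X Y ∧ ¬ B.sub Y X
def Def (σ : Sr) (φ : C → Prop) : Prop := DF B [σ] fun ρ => φ (ρ 0)

structure Laws : Prop where
  el_sup : ∀ V, B.el .W V → B.el .T (B.sup V)
  el_res : ∀ G X, B.el .F G → B.el .S X → B.el .F (B.res G X)
  acc_sup : ∀ V G, B.el .W V → B.el .F G →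
    (B.acc (B.sup V) G ↔ ∀ t, B.el .T t → B.inW t V → ∃ X, B.el .S X ∧ B.inF X G ∧ B.acc t (B.res G X))
  inF_res : ∀ G X Y, B.el .F G → B.el .S X → B.el .S Y → (B.inF Y (B.res G X) ↔ B.inF Y G ∧ B.ssub Y X)
  cW : ∀ φ, B.Def .T φ → (∀ a b, B.el .T a → B.el .T b → B.eqv a b → φ a → φ b) →
    ∃ V, B.el .W V ∧ ∀ t, B.el .T t → (B.inW t V ↔ φ t)
  cP : ∀ φ, B.Def .T φ → (∀ a b, B.el .T a → B.el .T b → B.eqv a b → φ a → φ b) →
    ∃ w, B.el .P w ∧ ∀ t, B.el .T t → (B.inP t w ↔ φ t)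
  cS : ∀ φ, B.Def .P φ → (∀ w w', B.el .P w → B.el .P w' → (∀ t, B.el .T t → (B.inP t w ↔ B.inP t w')) → φ w → φ w') →
    ∃ X, B.el .S X ∧ ∀ w, B.el .P w → (B.inS w X ↔ φ w)
  cF : ∀ φ, B.Def .S φ → (∀ X Y, B.el .S X → B.el .S Y → (∀ w, B.el .P w → (B.inS w X ↔ B.inS w Y)) → φ X → φ Y) →
    ∃ G, B.el .F G ∧ ∀ X, B.el .S X → (B.inF X G ↔ φ X)

end BFS

section bf
variable {B : BFS C} {Γ : List Sr}

theorem DT.wk {σ : Sr} (τ : Sr) {f : (ℕ → C) → C} (h : DT B Γ σ f) :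
    DT B (τ :: Γ) σ fun ρ => f fun i => ρ (i + 1) := by
  induction h with
  | var i hi => exact .var (i + 1) hi
  | cst c hc => exact .cst c hc
  | sup _ ih => exact .sup ih
  | res _ _ ih1 ih2 => exact .res ih1 ih2

theorem DT.v0 {σ : Sr} : DT B (σ :: Γ) σ fun ρ => ρ 0 := .var 0 rfl
theorem DT.v1 {σ τ : Sr} : DT B (τ :: σ :: Γ) σ fun ρ => ρ 1 := .var 1 rfl
theorem DT.v2 {σ τ τ' : Sr} : DT B (τ' :: τ :: σ :: Γ) σ fun ρ => ρ 2 := .var 2 rfl
theorem DT.v3 {σ τ τ' τ'' : Sr} : DT B (τ'' :: τ' :: τ :: σ :: Γ) σ fun ρ => ρ 3 := .var 3 rfl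
theorem DT.v4 {σ τ τ' τ'' τ''' : Sr} : DT B (τ''' :: τ'' :: τ' :: τ :: σ :: Γ) σ fun ρ => ρ 4 := .var 4 rfl

theorem DF.imp {φ ψ : (ℕ → C) → Prop} (h : DF B Γ φ) (h' : DF B Γ ψ) : DF B Γ fun ρ => φ ρ → ψ ρ :=
  (h.and h'.neg).neg.congr fun ρ => by tauto

theorem DF.or {φ ψ : (ℕ → C) → Prop} (h : DF B Γ φ) (h' : DF B Γ ψ) : DF B Γ fun ρ => φ ρ ∨ ψ ρ :=
  (h.neg.and h'.neg).neg.congr fun ρ => by tauto

theorem DF.iff {φ ψ : (ℕ → C) → Prop} (h : DF B Γ φ) (h' : DF B Γ ψ) : DF B Γ fun ρ => φ ρ ↔ ψ ρ :=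
  ((h.imp h').and (h'.imp h)).congr fun ρ => iff_iff_implies_and_implies.symm

theorem DF.all (σ : Sr) {φ : (ℕ → C) → Prop} (h : DF B (σ :: Γ) φ) :
    DF B Γ fun ρ => ∀ x, B.el σ x → φ (ncons x ρ) :=
  (h.neg.ex σ).neg.congr fun ρ => by simp

namespace BFS
variable (B)
/-- `b ≤ a` -/
def le (b a : C) : Prop := ∀ G, B.el .F G → B.acc a G → B.acc b G
/-- `b < a` -/
def lt (b a : C) : Prop := ∀ G, B.el .F G → B.acc a G → ∃ X, B.el .S X ∧ B.inF X G ∧ B.acc b (B.res G X)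
/-- ordinals -/
def Od (t : C) : Prop := ∀ W, B.el .W W →
  (∀ a, B.el .T a → ∀ b, B.el .T b → B.eqv a b → B.inW a W → B.inW b W) →
  (∀ V, B.el .W V → (∀ a, B.el .T a → B.inW a V → B.inW a W) → B.inW (B.sup V) W) → B.inW t W
/-- the set of the points below `c` -/
def Is (X c : C) : Prop := ∀ w, B.el .P w → (B.inS w X ↔
  ∃ c', B.el .T c' ∧ B.Od c' ∧ B.lt c' c ∧ ∀ x, B.el .T x → (B.inP x w ↔ B.le x c'))
/-- comparison -/
def L (a b : C) : Prop := B.le a b ∨ B.lt b a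
end BFS

variable {f g : (ℕ → C) → C}

theorem DF.eqv (hf : DT B Γ .T f) (hg : DT B Γ .T g) : DF B Γ fun ρ => B.eqv (f ρ) (g ρ) :=
  have := ((DF.acc (hf.wk _) .v0).iff (.acc (hg.wk _) .v0)).all .F
  this

theorem DF.le (hf : DT B Γ .T f) (hg : DT B Γ .T g) : DF B Γ fun ρ => B.le (f ρ) (g ρ) :=
  have := ((DF.acc (hg.wk _) .v0).imp (.acc (hf.wk _) .v0)).all .F
  this

theorem DF.lt (hf : DT B Γ .T f) (hg : DT B Γ .T g) : DF B Γ fun ρ => B.lt (f ρ) (g ρ) :=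
  have := ((DF.acc (hg.wk _) .v0).imp
    (((DF.inF .v0 .v1).and (.acc ((hf.wk _).wk _) (.res .v1 .v0))).ex .S)).all .F
  this

theorem DF.Od (hf : DT B Γ .T f) : DF B Γ fun ρ => B.Od (f ρ) :=
  have := (((((DF.eqv .v1 .v0).imp ((DF.inW .v1 .v2).imp (.inW .v0 .v2))).all .T).all .T).imp
    (((((((DF.inW .v0 .v1).imp (.inW .v0 .v2)).all .T).imp (.inW (.sup .v0) .v1)).all .W)).imp
      (.inW (hf.wk _) .v0))).all .W
  this

theorem DF.sub (hf : DT B Γ .S f) (hg : DT B Γ .S g) : DF B Γ fun ρ => B.sub (f ρ) (g ρ) :=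
  have := ((DF.inS .v0 (hf.wk _)).imp (.inS .v0 (hg.wk _))).all .P
  this

theorem DF.ssub (hf : DT B Γ .S f) (hg : DT B Γ .S g) : DF B Γ fun ρ => B.ssub (f ρ) (g ρ) :=
  (DF.sub hf hg).and (DF.sub hg hf).neg

theorem DF.pts (hf : DT B Γ .P f) (hg : DT B Γ .T g) : DF B Γ fun ρ =>
    ∃ c', B.el .T c' ∧ B.Od c' ∧ B.lt c' (g ρ) ∧ ∀ x, B.el .T x → (B.inP x (f ρ) ↔ B.le x c') :=
  have := ((DF.Od .v0).and ((DF.lt .v0 (hg.wk _)).and
    (((DF.inP .v0 ((hf.wk _).wk _)).iff (.le .v0 .v1)).all .T))).ex .T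
  this

theorem DF.Is (hf : DT B Γ .S f) (hg : DT B Γ .T g) : DF B Γ fun ρ => B.Is (f ρ) (g ρ) :=
  have := ((DF.inS .v0 (hf.wk _)).iff (.pts .v0 (hg.wk _))).all .P
  this

theorem DF.L (hf : DT B Γ .T f) (hg : DT B Γ .T g) : DF B Γ fun ρ => B.L (f ρ) (g ρ) :=
  (DF.le hf hg).or (.lt hg hf)

namespace BFS

theorem eqv.le {a b : C} (h : B.eqv a b) : B.le a b := fun G hG => (h G hG).2
theorem eqv.ge {a b : C} (h : B.eqv a b) : B.le b a := fun G hG => (h G hG).1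
theorem le_rfl {a : C} : B.le a a := fun G hG h => h
theorem le.trans {a b c : C} (h : B.le a b) (h' : B.le b c) : B.le a c := fun G hG x => h G hG (h' G hG x)
theorem lt.trans_le {a b c : C} (h : B.lt a b) (h' : B.le b c) : B.lt a c := fun G hG x => h G hG (h' G hG x)
theorem Od.inv {a b : C} (ha : B.el .T a) (hb : B.el .T b) (e : B.eqv a b) (h : B.Od a) : B.Od b :=
  fun W hW i c => i a ha b hb e (h W hW i c)
theorem Od.sup {V : C} (hV : B.el .W V) (h : ∀ a, B.el .T a → B.inW a V → B.Od a) : B.Od (B.sup V) :=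
  fun W hW i c => c V hV fun a ha x => h a ha x W hW i c
theorem Is.sub {X Y c c' : C} (h : B.le c c') (hX : B.Is X c) (hY : B.Is Y c') : B.sub X Y := by
  intro w hw x
  obtain ⟨d, h1, h2, h3, h4⟩ := (hX w hw).1 x
  exact (hY w hw).2 ⟨d, h1, h2, h3.trans_le h, h4⟩
theorem Is.inv {X a b : C} (e : B.eqv a b) (hX : B.Is X b) : B.Is X a := fun w hw =>
  (hX w hw).trans ⟨fun ⟨d, h1, h2, h3, h4⟩ => ⟨d, h1, h2, h3.trans_le e.ge, h4⟩,
    fun ⟨d, h1, h2, h3, h4⟩ => ⟨d, h1, h2, h3.trans_le e.le, h4⟩⟩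

namespace Laws
variable (h : B.Laws)
include h

theorem le_lt {a b c : C} (h1 : B.le a b) (h2 : B.lt b c) : B.lt a c := by
  intro G hG x
  obtain ⟨X, hX, y, z⟩ := h2 G hG x
  exact ⟨X, hX, y, h1 _ (h.el_res G X hG hX) z⟩

theorem ind {φ : C → Prop} (hd : B.Def .T φ) (hi : ∀ a b, B.el .T a → B.el .T b → B.eqv a b → φ a → φ b)
    (hs : ∀ V, B.el .W V → (∀ a, B.el .T a → B.inW a V → φ a ∧ B.Od a) → φ (B.sup V)) {t : C}
    (ht : B.el .T t) (ho : B.Od t) : φ t := by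
  obtain ⟨W, hW, e⟩ := h.cW (fun a => φ a ∧ B.Od a) (DF.and hd (.Od .v0))
    fun a b ha hb e x => ⟨hi a b ha hb e x.1, x.2.inv ha hb e⟩
  refine ((e t ht).1 (ho W hW (fun a ha b hb ab x => ?_) fun V hV x => ?_)).1
  · have := (e a ha).1 x
    exact (e b hb).2 ⟨hi a b ha hb ab this.1, this.2.inv ha hb ab⟩
  · have y : ∀ a, B.el .T a → B.inW a V → φ a ∧ B.Od a := fun a ha z => (e a ha).1 (x a ha z)
    exact (e _ (h.el_sup V hV)).2 ⟨hs V hV y, Od.sup hV fun a ha z => (y a ha z).2⟩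

theorem inversion {t : C} (ht : B.el .T t) (ho : B.Od t) :
    ∃ V, B.el .W V ∧ (∀ b, B.el .T b → B.inW b V → B.Od b) ∧ B.eqv t (B.sup V) := by
  refine h.ind (φ := fun t => ∃ V, B.el .W V ∧ (∀ b, B.el .T b → B.inW b V → B.Od b) ∧ B.eqv t (B.sup V))
    ?_ ?_ ?_ ht ho
  · have := (((((DF.inW (B := B) .v0 .v1).imp (.Od .v0)).all .T).and (.eqv .v1 (.sup .v0))).ex .W :
      DF B [.T] _)
    exact this
  · rintro a b ha hb e ⟨V, hV, x, y⟩
    exact ⟨V, hV, x, fun G hG => (e G hG).symm.trans (y G hG)⟩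
  · exact fun V hV x => ⟨V, hV, fun b hb y => (x b hb y).2, fun G hG => Iff.rfl⟩

theorem mem_lt {V b : C} (hV : B.el .W V) (hb : B.el .T b) (x : B.inW b V) : B.lt b (B.sup V) :=
  fun G hG y => (h.acc_sup V G hV hG).1 y b hb x

theorem sup_le {V c : C} (hV : B.el .W V) (x : ∀ b, B.el .T b → B.inW b V → B.lt b c) : B.le (B.sup V) c :=
  fun G hG y => (h.acc_sup V G hV hG).2 fun t ht z => x t ht z G hG y

theorem mono {t : C} (ht : B.el .T t) (ho : B.Od t) : ∀ G, B.el .F G → ∀ G', B.el .F G' →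
    (∀ X, B.el .S X → B.inF X G → B.inF X G') → B.acc t G → B.acc t G' := by
  refine h.ind (φ := fun t => ∀ G, B.el .F G → ∀ G', B.el .F G' →
    (∀ X, B.el .S X → B.inF X G → B.inF X G') → B.acc t G → B.acc t G') ?_ ?_ ?_ ht ho
  · have := (((((((DF.inF (B := B) .v0 .v2).imp (.inF .v0 .v1)).all .S).imp
      ((DF.acc .v2 .v1).imp (.acc .v2 .v0))).all .F).all .F) : DF B [.T] _)
    exact this
  · exact fun a b ha hb e x G hG G' hG' y z => (e G' hG').1 (x G hG G' hG' y ((e G hG).2 z))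
  · intro V hV x G hG G' hG' y z
    refine (h.acc_sup V G' hV hG').2 fun t ht tv => ?_
    obtain ⟨X, hX, u, v⟩ := (h.acc_sup V G hV hG).1 z t ht tv
    refine ⟨X, hX, y X hX u, (x t ht tv).1 _ (h.el_res G X hG hX) _ (h.el_res G' X hG' hX) (fun Y hY w => ?_) v⟩
    have := (h.inF_res G X Y hG hX hY).1 w
    exact (h.inF_res G' X Y hG' hX hY).2 ⟨y Y hY this.1, this.2⟩

theorem lt_le {a b : C} (hb : B.el .T b) (ho : B.Od b) (x : B.lt b a) : B.le b a := by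
  intro G hG y
  obtain ⟨X, hX, u, v⟩ := x G hG y
  exact h.mono hb ho _ (h.el_res G X hG hX) G hG (fun Y hY w => ((h.inF_res G X Y hG hX hY).1 w).1) v

theorem lin {a : C} (ha : B.el .T a) (ho : B.Od a) : ∀ b, B.el .T b → B.Od b → B.L a b ∧ B.L b a := by
  refine h.ind (φ := fun a => ∀ b, B.el .T b → B.Od b → B.L a b ∧ B.L b a) ?_ ?_ ?_ ha ho
  · have := ((((DF.Od (B := B) .v0).imp ((DF.L .v1 .v0).and (.L .v0 .v1))).all .T) : DF B [.T] _)
    exact this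
  · intro a a' ha ha' e x b hb ob
    obtain ⟨y, z⟩ := x b hb ob
    exact ⟨y.imp e.ge.trans fun u => u.trans_le e.le, z.imp (fun u => u.trans e.le) fun u => h.le_lt e.ge u⟩
  · intro V hV x
    have h1 : ∀ b, B.el .T b → B.Od b → B.L (B.sup V) b := by
      intro b hb ob
      by_cases y : ∀ a', B.el .T a' → B.inW a' V → B.lt a' b
      · exact Or.inl (h.sup_le hV y)
      · push Not at y
        obtain ⟨a', ha', u, v⟩ := y
        exact Or.inr (h.le_lt (((x a' ha' u).1 b hb ob).2.resolve_right v) (h.mem_lt hV ha' u))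
    refine fun b hb ob => ⟨h1 b hb ob, ?_⟩
    obtain ⟨U, hU, y, e⟩ := h.inversion hb ob
    by_cases z : ∀ b', B.el .T b' → B.inW b' U → B.lt b' (B.sup V)
    · exact Or.inl (e.le.trans (h.sup_le hU z))
    · push Not at z
      obtain ⟨b', hb', u, v⟩ := z
      exact Or.inr ((h.le_lt ((h1 b' hb' (y b' hb' u)).resolve_right v) (h.mem_lt hU hb' u)).trans_le e.ge)

theorem sup_le_of_not {V c : C} (hV : B.el .W V) (x : ∀ b, B.el .T b → B.inW b V → B.Od b) (hc : B.el .T c)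
    (oc : B.Od c) (y : ¬ ∃ b, B.el .T b ∧ B.inW b V ∧ B.le c b) : B.le (B.sup V) c :=
  h.sup_le hV fun b hb u => (h.lin hc oc b hb (x b hb u)).1.resolve_left fun v => y ⟨b, hb, u, v⟩

theorem exists_is {c : C} (hc : B.el .T c) : ∃ X, B.el .S X ∧ B.Is X c :=
  h.cS (fun w => ∃ c', B.el .T c' ∧ B.Od c' ∧ B.lt c' c ∧ ∀ x, B.el .T x → (B.inP x w ↔ B.le x c'))
    (DF.pts .v0 (.cst c hc)) fun w w' _ _ e ⟨d, h1, h2, h3, h4⟩ =>
      ⟨d, h1, h2, h3, fun x hx => (e x hx).symm.trans (h4 x hx)⟩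

theorem k1 {c c' X X' : C} (hc' : B.el .T c') (oc' : B.Od c') (x : B.lt c' c) (y : ¬ B.lt c' c')
    (hX' : B.Is X' c') (hX : B.Is X c) : B.ssub X' X := by
  refine ⟨Is.sub (h.lt_le hc' oc' x) hX' hX, fun z => ?_⟩
  obtain ⟨w, hw, e⟩ := h.cP (fun x => B.le x c') (DF.le .v0 (.cst c' hc')) fun a b _ _ e u => e.ge.trans u
  obtain ⟨d, h1, h2, h3, h4⟩ := (hX' w hw).1 (z w hw ((hX w hw).2 ⟨c', hc', oc', x, e⟩))
  exact y (h.le_lt ((h4 c' hc').1 ((e c' hc').2 le_rfl)) h3)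

theorem k2 {c : C} (hc : B.el .T c) (oc : B.Od c) : ∀ G, B.el .F G →
    (∀ c', B.el .T c' → B.Od c' → B.lt c' c → ¬ B.lt c' c' ∧ ∀ X, B.el .S X → B.Is X c' → B.inF X G) →
    B.acc c G := by
  refine h.ind (φ := fun c => ∀ G, B.el .F G →
    (∀ c', B.el .T c' → B.Od c' → B.lt c' c → ¬ B.lt c' c' ∧ ∀ X, B.el .S X → B.Is X c' → B.inF X G) →
    B.acc c G) ?_ ?_ ?_ hc oc
  · have := ((((((DF.Od (B := B) .v0).imp ((DF.lt .v0 .v2).imp ((DF.lt .v0 .v0).neg.and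
      (((DF.Is .v0 .v1).imp (.inF .v0 .v2)).all .S)))).all .T).imp (.acc .v1 .v0)).all .F) : DF B [.T] _)
    exact this
  · exact fun a b ha hb e x G hG y => (e G hG).1 (x G hG fun c' h1 h2 h3 => y c' h1 h2 (h3.trans_le e.le))
  · intro V hV x G hG y
    refine (h.acc_sup V G hV hG).2 fun t ht tv => ?_
    obtain ⟨X, hX, u⟩ := h.exists_is ht
    have v := h.mem_lt hV ht tv
    refine ⟨X, hX, (y t ht (x t ht tv).2 v).2 X hX u, (x t ht tv).1 _ (h.el_res G X hG hX) fun c' h1 h2 h3 => ?_⟩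
    have w := y c' h1 h2 (h3.trans_le (h.lt_le ht (x t ht tv).2 v))
    exact ⟨w.1, fun Y hY z => (h.inF_res G X Y hG hX hY).2 ⟨w.2 Y hY z, h.k1 h1 h2 h3 w.1 z u⟩⟩

theorem descent {a : C} (ha : B.el .T a) (aa : B.lt a a) {c : C} (hc : B.el .T c) (oc : B.Od c) :
    ∀ G, B.el .F G → ∀ X, B.el .S X → B.Is X c →
      (∀ Y, B.el .S Y → B.inF Y G → B.ssub Y X ∧ ∃ c', B.el .T c' ∧ B.Od c' ∧ B.Is Y c') → ¬ B.acc a G := by
  refine h.ind (φ := fun c => ∀ G, B.el .F G → ∀ X, B.el .S X → B.Is X c →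
      (∀ Y, B.el .S Y → B.inF Y G → B.ssub Y X ∧ ∃ c', B.el .T c' ∧ B.Od c' ∧ B.Is Y c') → ¬ B.acc a G)
    ?_ ?_ ?_ hc oc
  · have := (((((DF.Is (B := B) .v0 .v2).imp ((((DF.inF .v0 .v2).imp ((DF.ssub .v0 .v1).and
      (((DF.Od .v0).and (.Is .v1 .v0)).ex .T))).all .S).imp (DF.acc (.cst a ha) .v1).neg)).all .S).all .F) :
      DF B [.T] _)
    exact this
  · exact fun a b ha hb e x G hG X hX y => x G hG X hX (y.inv e)
  · intro V hV x G hG X hX u y z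
    obtain ⟨X₁, hX₁, m, z₁⟩ := aa G hG z
    obtain ⟨s, c₁, h1, h2, h3⟩ := y X₁ hX₁ m
    by_cases w : ∃ b, B.el .T b ∧ B.inW b V ∧ B.le c₁ b
    · obtain ⟨b, hb, bv, cb⟩ := w
      obtain ⟨Z, hZ, v⟩ := h.exists_is hb
      have s₁ := Is.sub cb h3 v
      refine (x b hb bv).1 _ (h.el_res G X₁ hG hX₁) Z hZ v (fun Y hY m' => ?_) z₁
      obtain ⟨m₁, m₂⟩ := (h.inF_res G X₁ Y hG hX₁ hY).1 m'
      exact ⟨⟨fun w hw t => s₁ w hw (m₂.1 w hw t), fun t => m₂.2 fun w hw t' => t w hw (s₁ w hw t')⟩,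
        (y Y hY m₁).2⟩
    · exact s.2 (Is.sub (h.sup_le_of_not hV (fun b hb bv => (x b hb bv).2) h1 h2 w) u h3)

theorem good {a : C} (ha : B.el .T a) (oa : B.Od a) : ∀ c, B.el .T c → B.Od c → B.le c a → ¬ B.lt c c := by
  refine h.ind (φ := fun a => ∀ c, B.el .T c → B.Od c → B.le c a → ¬ B.lt c c) ?_ ?_ ?_ ha oa
  · have := ((((DF.Od (B := B) .v0).imp ((DF.le .v0 .v1).imp (DF.lt .v0 .v0).neg)).all .T) : DF B [.T] _)
    exact this
  · exact fun a b ha hb e x c hc oc y => x c hc oc (y.trans e.ge)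
  · intro V hV x c hc oc ca cc
    by_cases w : ∃ b, B.el .T b ∧ B.inW b V ∧ B.le c b
    · obtain ⟨b, hb, bv, cb⟩ := w
      exact (x b hb bv).1 c hc oc cb cc
    have ov : ∀ b, B.el .T b → B.inW b V → B.Od b := fun b hb bv => (x b hb bv).2
    have aa : B.lt (B.sup V) (B.sup V) := (h.le_lt (h.sup_le_of_not hV ov hc oc w) cc).trans_le ca
    obtain ⟨G, hG, e⟩ := h.cF (fun X => ∃ c', B.el .T c' ∧ B.Od c' ∧
        (∃ b, B.el .T b ∧ B.inW b V ∧ B.le c' b) ∧ B.Is X c')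
      (by
        have := ((((DF.Od (B := B) .v0).and ((((DF.inW .v0 (.cst V hV)).and (.le .v1 .v0)).ex .T).and
          (.Is .v1 .v0))).ex .T) : DF B [.S] _)
        exact this)
      fun X Y _ _ e ⟨d, h1, h2, h3, h4⟩ => ⟨d, h1, h2, h3, fun w hw => (e w hw).symm.trans (h4 w hw)⟩
    have hs := h.el_sup V hV
    obtain ⟨Z, hZ, z⟩ := h.exists_is hs
    refine h.descent hs aa hs (Od.sup hV ov) G hG Z hZ z (fun Y hY m => ?_) ?_
    · obtain ⟨d, h1, h2, ⟨b, hb, bv, db⟩, h4⟩ := (e Y hY).1 m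
      exact ⟨h.k1 h1 h2 (h.le_lt db (h.mem_lt hV hb bv)) ((x b hb bv).1 d h1 h2 db) h4 z, d, h1, h2, h4⟩
    · refine (h.acc_sup V G hV hG).2 fun t ht tv => ?_
      obtain ⟨X, hX, u⟩ := h.exists_is ht
      refine ⟨X, hX, (e X hX).2 ⟨t, ht, ov t ht tv, ⟨t, ht, tv, le_rfl⟩, u⟩,
        h.k2 ht (ov t ht tv) _ (h.el_res G X hG hX) fun d h1 h2 h3 => ?_⟩
      have dt := h.lt_le h1 h2 h3
      have dd := (x t ht tv).1 d h1 h2 dt
      exact ⟨dd, fun Y hY y => (h.inF_res G X Y hG hX hY).2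
        ⟨(e Y hY).2 ⟨d, h1, h2, ⟨t, ht, tv, dt⟩, y⟩, h.k1 h1 h2 h3 dd y u⟩⟩

end Laws
end BFS
end bf

theorem burali_forti (B : BFS C) (h : B.Laws) : False := by
  obtain ⟨V, hV, e⟩ := h.cW B.Od (DF.Od .v0) fun a b ha hb e x => x.inv ha hb e
  have hs := h.el_sup V hV
  have o : B.Od (B.sup V) := BFS.Od.sup hV fun a ha x => (e a ha).1 x
  exact h.good hs o _ hs o BFS.le_rfl (h.mem_lt hV hs ((e _ hs).2 o))

end Crest.Agent.R298
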