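import Crest.Agent.R298.X.Enc
import Crest.Agent.R298.X.BF

/-!
# Row 298, paradox block.  The term model satisfies the laws of the abstract Burali-Forti argument.
Elements of the model live in some stage `M.Γ n`; finitely many live in a common one (`M.mono`, `Ty.ext`).
-/

set_option autoImplicit false
set_option linter.unusedSectionVars false
set_option linter.unusedVariables false

namespace Crest.Agent.R298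

open scoped Classical
open Tm
open Crest.LogicCS.PTS (Spec)

variable {S : Type} {P : Spec S} {d : Set (Set S)} {M : Mdl P d}

namespace Kit

variable (k : Kit M)

def kd : Sr → CT S
  | .T => k.TT
  | .W => k.Ws
  | .P => k.Pt k.x0
  | .S => k.St k.x0
  | .F => k.Fm k.x0

def lq : Sr → Set S
  | .T => k.q5
  | .W => k.qc
  | .P => k.q1
  | .S => k.q2
  | .F => k.q3

def bfs : BFS (CT S) where
  el σ c := M.El c (k.kd σ)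
  acc t G := M.Tr (k.acc t G)
  inW t V := M.Tr (k.inW t V)
  inP t w := M.Tr (k.inP t w)
  inS w X := M.Tr (k.inS k.x0 w X)
  inF X G := M.Tr (k.inF k.x0 X G)
  sup := k.sup
  res := k.res

variable {u t z w X X' G V : CT S}

/-! ### part a: truth laws -/

theorem ra_two {A B K L : CT S} (h : M.El A K) (h' : M.El B L) :
    ∃ n, Ty (colP P) (M.Γ n) A K ∧ Ty (colP P) (M.Γ n) B L := by
  obtain ⟨a, ha⟩ := h
  obtain ⟨b, hb⟩ := h'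
  exact ⟨max a b, ha.ext (M.mono _ _ (le_max_left _ _)), hb.ext (M.mono _ _ (le_max_right _ _))⟩

theorem tr_sb (h : M.El X (k.St k.x0)) (h' : M.El X' (k.St k.x0)) : M.Tr (k.sb k.x0 X X') ↔ k.bfs.sub X X' := by
  obtain ⟨n, hX, hX'⟩ := ra_two h h'
  have hΔ := M.ex_n n
  have hx := (k.ty_closed hΔ).2.2.2.2
  have ei : ∀ N : CT S, inst N (M.cnj (k.inS (lift k.x0) (bv 0) (lift X)) (M.neg (k.inS (lift k.x0) (bv 0) (lift X')))) =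
      M.cnj (k.inS k.x0 N X) (M.neg (k.inS k.x0 N X')) := fun N => by
    rw [inst, M.cnj_nat _ _ _ (bs_vcons N), M.neg_nat _ _ (bs_vcons N), ← inst, ← inst, encb_inst' k.nat3.1,
      encb_inst' k.nat3.1]
  have key : ∀ N, M.El N (k.Pt k.x0) →
      (M.Tr (M.cnj (k.inS k.x0 N X) (M.neg (k.inS k.x0 N X'))) ↔ M.Tr (k.inS k.x0 N X) ∧ ¬ M.Tr (k.inS k.x0 N X')) := by
    intro N hN
    obtain ⟨m, hN, hx'⟩ := ra_two hN (show M.El k.x0 k.Kt from ⟨n, hx⟩)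
    obtain ⟨a, h1, h2⟩ := ra_two h h'
    have e1 := M.mono _ _ (le_max_left m a)
    have e2 := M.mono _ _ (le_max_right m a)
    have e := M.ex_n (max m a)
    have p1 := k.ty_inS e (hx'.ext e1) (hN.ext e1) (h1.ext e2)
    have p2 := k.ty_inS e (hx'.ext e1) (hN.ext e1) (h2.ext e2)
    exact (M.cnj_tr _ _ _ p1 (M.neg_ty _ _ e p2)).trans (and_congr Iff.rfl (M.neg_tr _ _ p2))
  refine (M.nex_tr k.q1 n _ _ k.hq1 (k.ty_kinds hΔ hx).2.2.2.2.2.1 fun Δ' N hE hN => ?_).trans ?_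
  · have e := hΔ.trans hE
    rw [ei]
    exact M.cnj_ty _ _ _ e (k.ty_inS e (hx.ext hE) hN (hX.ext hE)) (M.neg_ty _ _ e (k.ty_inS e (hx.ext hE) hN (hX'.ext hE)))
  · constructor
    · intro hn w hw h1
      by_contra h2
      exact hn ⟨w, hw, by rw [ei]; exact (key w hw).2 ⟨h1, h2⟩⟩
    · rintro hs ⟨w, hw, h1⟩
      rw [ei] at h1
      obtain ⟨h2, h3⟩ := (key w hw).1 h1
      exact h3 (hs w hw h2)

theorem tr_ssb (h : M.El X (k.St k.x0)) (h' : M.El X' (k.St k.x0)) : M.Tr (k.ssb k.x0 X X') ↔ k.bfs.ssub X X' := by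
  obtain ⟨n, hX, hX'⟩ := ra_two h h'
  have hΔ := M.ex_n n
  have hx := (k.ty_closed hΔ).2.2.2.2
  have p1 := k.ty_sb hΔ hx hX hX'
  have p2 := k.ty_sb hΔ hx hX' hX
  exact (M.cnj_tr _ _ _ p1 (M.neg_ty _ _ hΔ p2)).trans
    (and_congr (k.tr_sb h h') ((M.neg_tr _ _ p2).trans (not_congr (k.tr_sb h' h))))

/-- `cvt_tr` twice -/
theorem inS_dS (h : M.El X (k.St k.x0)) (hw : M.El w (k.Pt k.x0)) :
    M.Tr (k.inS k.x0 w (k.dS k.x0 (k.cS k.x0 X))) ↔ M.Tr (k.inS k.x0 w X) := by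
  obtain ⟨n, hX, hw⟩ := ra_two h hw
  have hΔ := M.ex_n n
  have hx := (k.ty_closed hΔ).2.2.2.2
  have hK := (k.ty_kinds hΔ hx).2.1
  have hN := k.ty_cY hΔ hx hw
  exact (cvt_tr k.hP2 k.hO2 hK (k.ty_cS hΔ hx hX) hN).trans (cvt_tr k.hO2 k.hP2 hK hX hN)

theorem inF_dF (h : M.El G (k.Fm k.x0)) (hX : M.El X (k.St k.x0)) :
    M.Tr (k.inF k.x0 X (k.dF k.x0 (k.cF k.x0 G))) ↔ M.Tr (k.inF k.x0 X G) := by
  obtain ⟨n, hG, hX⟩ := ra_two h hX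
  have hΔ := M.ex_n n
  have hx := (k.ty_closed hΔ).2.2.2.2
  have hK := (k.ty_kinds hΔ hx).2.2.1
  have hN := k.ty_cS hΔ hx hX
  exact (cvt_tr k.hP3 k.hO3 hK (k.ty_cF hΔ hx hG) hN).trans (cvt_tr k.hO3 k.hP3 hK hG hN)

theorem inP_dY (h : M.El w (k.Pt k.x0)) (ht : M.El t k.TT) :
    M.Tr (k.inP t (k.dY k.x0 (k.cY k.x0 w))) ↔ M.Tr (k.inP t w) := by
  obtain ⟨n, hw, ht⟩ := ra_two h ht
  have hΔ := M.ex_n n
  have hx := (k.ty_closed hΔ).2.2.2.2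
  have hK := (k.ty_kinds hΔ hx).1
  have hN := (k.ty_conv hΔ).2 (k.hE.ti _ _ _ hΔ (k.ty_closed hΔ).1 (k.ty_ff hΔ ht))
  exact (cvt_tr k.hP1 k.hO1 hK (k.ty_cY hΔ hx hw) hN).trans (cvt_tr k.hO1 k.hP1 hK hw hN)

theorem inF_res (G X Y : CT S) (h1 : k.bfs.el .F G) (h2 : k.bfs.el .S X) (h3 : k.bfs.el .S Y) :
    k.bfs.inF Y (k.bfs.res G X) ↔ k.bfs.inF Y G ∧ k.bfs.ssub Y X := by
  obtain ⟨m, hG, hX⟩ := ra_two (show M.El G (k.Fm k.x0) from h1) (show M.El X (k.St k.x0) from h2)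
  obtain ⟨a, hY⟩ := (show M.El Y (k.St k.x0) from h3)
  have hG := hG.ext (M.mono _ _ (le_max_left m a))
  have hX := hX.ext (M.mono _ _ (le_max_left m a))
  have hY := hY.ext (M.mono _ _ (le_max_right m a))
  have hΔ := M.ex_n (max m a)
  have hx := (k.ty_closed hΔ).2.2.2.2
  have hK := (k.ty_kinds hΔ hx).2.2.1
  have hG' := k.ty_dF hΔ hx (k.ty_cF hΔ hx hG)
  have hN := k.ty_cS hΔ hx hY
  have hY' := k.ty_dS hΔ hx hN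
  have ei : ∀ N : CT S, inst N (M.cnj (k.O3.o (k.Y1 (lift k.x0)) (lift (k.dF k.x0 (k.cF k.x0 G))) (bv 0))
      (k.ssb (lift k.x0) (k.dS (lift k.x0) (bv 0)) (lift X))) =
      M.cnj (k.O3.o (k.Y1 k.x0) (k.dF k.x0 (k.cF k.x0 G)) N) (k.ssb k.x0 (k.dS k.x0 N) X) := fun N => by
    have b := bs_vcons N
    rw [inst, M.cnj_nat _ _ _ b, k.hO3.no _ _ _ _ b, k.nat_kinds.2.2.1 _ _ b, k.nat3.2.2.2.2.1 _ _ _ _ b,
      k.nat_cvt.2.2.2.1 _ _ _ b]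
    simp only [sub_vcons_lift, sub_vr]
    rfl
  have hs : ∀ w, k.bfs.el .P w → (k.bfs.inS w (k.dS k.x0 (k.cS k.x0 Y)) ↔ k.bfs.inS w Y) := fun w hw => k.inS_dS h3 hw
  refine (k.hO3.tr (max m a) _ _ _ hK hN fun Δ' N hE hN => ?_).trans ?_
  · have e := hΔ.trans hE
    rw [ei]
    exact M.cnj_ty _ _ _ e (k.hO3.to' _ _ _ _ e (hK.ext hE) (hG'.ext hE) hN)
      (k.ty_ssb e (hx.ext hE) (k.ty_dS e (hx.ext hE) hN) (hX.ext hE))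
  · rw [ei]
    refine (M.cnj_tr _ _ _ (k.hO3.to' _ _ _ _ hΔ hK hG' hN) (k.ty_ssb hΔ hx hY' hX)).trans
      (and_congr (k.inF_dF h1 h3) ((k.tr_ssb ⟨_, hY'⟩ h2).trans ?_))
    exact and_congr (forall_congr' fun w => forall_congr' fun hw => imp_congr (hs w hw) Iff.rfl)
      (not_congr (forall_congr' fun w => forall_congr' fun hw => imp_congr Iff.rfl (hs w hw)))

/-! ### part b: codes and suprema -/

theorem rlb_beta {H : CT S → CT S → CT S → CT S} (hH : Nat3 H) {n : ℕ} {t z : CT S}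
    (hty : ∀ Δ y, Ext (colP P) (M.Γ n) Δ → Ty (colP P) Δ y (k.Cd k.x0) → M.Pr Δ (H k.x0 t y))
    (hl : Ty (colP P) (M.Γ n) (lam k.Kt (k.P4.i (k.Cd (bv 0)) (H (lift (bv 0)) (lift (lift t)) (bv 0)))) k.U)
    (hz : Ty (colP P) (M.Γ n) z (k.Cd k.x0)) :
    M.Tr (k.accU k.x0 (lam k.Kt (k.P4.i (k.Cd (bv 0)) (H (lift (bv 0)) (lift (lift t)) (bv 0)))) z) ↔
      M.Tr (H k.x0 t z) := by
  have hΓ : M.Ex (M.Γ n) := Mdl.ex_n n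
  have hx := (k.ty_closed hΓ).2.2.2.2
  have hCd := (k.ty_kinds hΓ hx).2.2.2.1
  have e1 : inst k.x0 (k.P4.i (k.Cd (bv 0)) (H (lift (bv 0)) (lift (lift t)) (bv 0))) =
      k.P4.i (k.Cd k.x0) (H (lift k.x0) (lift t) (bv 0)) := by
    unfold inst
    rw [k.hP4.ni _ _ _ (bs_vcons _), k.nat_kinds.2.2.2.1 _ _ (bs_vcons _), hH _ _ _ _ (bs_vcons _).up, sub_up_lift,
      sub_up_lift, sub_vcons_lift, sub_vr]
    rfl
  have e2 : ∀ N, inst N (H (lift k.x0) (lift t) (bv 0)) = H k.x0 t N := by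
    intro N
    unfold inst
    rw [hH _ _ _ _ (bs_vcons N), sub_vcons_lift, sub_vcons_lift, sub_vr, sub_vr]
    rfl
  have p : M.PB (M.Γ n) (k.Cd k.x0) (H (lift k.x0) (lift t) (bv 0)) := by
    intro Δ N hΔ hN
    rw [e2]
    exact hty Δ N hΔ hN
  refine (Mdl.tr_cv (k.ty_accU hΓ hx hl hz) (k.hP4.to' _ _ _ _ hΓ hCd (k.hP4.ti _ _ _ hΓ hCd p) hz)
    (k.hP4.no.cv (.refl _) (.rel _ _ (e1 ▸ Beta.redex _ _ _)) (.refl _))).trans ?_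
  refine (k.hP4.tr n _ _ _ hCd hz p).trans ?_
  rw [e2]

/-- one beta step (`Nat3.cv`, `tr_cv`), then the laws of `P4`, `O5`, `P5` -/
theorem acc_kp (h : M.El u k.U) (hz : M.El z (k.Cd k.x0)) :
    M.Tr (k.accU k.x0 (k.ff (k.kp u)) z) ↔ M.Tr (k.accU k.x0 u z) := by
  obtain ⟨n1, h⟩ := h
  obtain ⟨n2, hz⟩ := hz
  replace h := h.ext (M.mono _ _ (le_max_left n1 n2))
  replace hz := hz.ext (M.mono _ _ (le_max_right n1 n2))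
  generalize max n1 n2 = n at h hz
  have hΓ : M.Ex (M.Γ n) := Mdl.ex_n n
  obtain ⟨hU, hPU, -, -, hx⟩ := k.ty_closed hΓ
  have hk := k.ty_kp hΓ h
  have e1 : ∀ N, inst N (k.P5.o k.U (bv 0) (lift u)) = k.P5.o k.U N u := by
    intro N
    unfold inst
    rw [k.hP5.no _ _ _ _ (bs_vcons N), k.nat_closed.1 _ (bs_vcons N), sub_vcons_lift, sub_vr]
    rfl
  have e2 : ∀ N, inst N (k.accU (lift k.x0) (bv 0) (lift z)) = k.accU k.x0 N z := by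
    intro N
    unfold inst
    rw [k.nat3.2.2.1 _ _ _ _ (bs_vcons N), sub_vcons_lift, sub_vcons_lift, sub_vr, sub_vr]
    rfl
  have p2 : M.PB (M.Γ n) k.U (k.accU (lift k.x0) (bv 0) (lift z)) := by
    intro Δ N hΔ hN
    rw [e2]
    exact k.ty_accU (hΓ.trans hΔ) (hx.ext hΔ) hN (hz.ext hΔ)
  have p1 : M.PB (M.Γ n) k.PU (k.P5.o k.U (bv 0) (lift u)) := by
    intro Δ N hΔ hN
    rw [e1]
    exact k.hP5.to' Δ _ _ _ (hΓ.trans hΔ) (hU.ext hΔ) hN (h.ext hΔ)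
  refine (k.rlb_beta k.nat3.2.2.2.2.2.2 (fun Δ y hΔ hy => k.ty_fb (hΓ.trans hΔ) (hx.ext hΔ) (hk.ext hΔ) hy)
    (k.ty_ff hΓ hk) hz).trans ?_
  refine (k.hO5.tr n _ _ _ hPU (k.hP5.ti _ _ _ hΓ hU p2) p1).trans ?_
  rw [e1]
  refine (k.hP5.tr n _ _ _ hU h p2).trans ?_
  rw [e2]

theorem eqv_kp (h : M.El t k.TT) : k.bfs.el .T (k.kp (k.ff t)) ∧ k.bfs.eqv (k.kp (k.ff t)) t := by
  obtain ⟨n, h⟩ := h
  have hf := k.ty_ff (Mdl.ex_n n) h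
  refine ⟨⟨n, k.ty_kp (Mdl.ex_n n) hf⟩, ?_⟩
  rintro G ⟨m, hG⟩
  exact k.acc_kp ⟨n, hf⟩ ⟨m, k.ty_cF (Mdl.ex_n m) (k.ty_closed (Mdl.ex_n m)).2.2.2.2 hG⟩

theorem rlb_sx {n : ℕ} {t G : CT S} (ht : Ty (colP P) (M.Γ n) t k.TT) (hG : Ty (colP P) (M.Γ n) G (k.Fm k.x0)) :
    M.Tr (k.sx k.x0 t (k.cF k.x0 G)) ↔
      ¬ ∃ X, M.El X (k.St k.x0) ∧ M.Tr (k.inF k.x0 X G) ∧ M.Tr (k.acc t (k.res G X)) := by
  have hΓ : M.Ex (M.Γ n) := Mdl.ex_n n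
  have hx := (k.ty_closed hΓ).2.2.2.2
  have hd := k.ty_dF hΓ hx (k.ty_cF hΓ hx hG)
  have e : ∀ N, inst N (M.cnj (k.inF (lift k.x0) (bv 0) (k.dF (lift k.x0) (lift (k.cF k.x0 G))))
      (k.accU (lift k.x0) (k.ff (lift t)) (k.cF (lift k.x0)
        (k.rs (lift k.x0) (k.dF (lift k.x0) (lift (k.cF k.x0 G))) (bv 0))))) =
      M.cnj (k.inF k.x0 N (k.dF k.x0 (k.cF k.x0 G))) (k.acc t (k.res G N)) := by
    intro N
    unfold inst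
    rw [M.cnj_nat _ _ _ (bs_vcons N), k.nat3.2.1 _ _ _ _ (bs_vcons N), k.nat3.2.2.1 _ _ _ _ (bs_vcons N),
      k.nat4.1 _ _ (bs_vcons N), k.nat_cvt.2.2.2.2.1 _ _ _ (bs_vcons N), k.nat3.2.2.2.2.2.1 _ _ _ _ (bs_vcons N),
      k.nat_cvt.2.2.2.2.2 _ _ _ (bs_vcons N)]
    simp only [sub_vcons_lift, sub_vr]
    rfl
  have p1 : ∀ Δ N, Ext (colP P) (M.Γ n) Δ → Ty (colP P) Δ N (k.St k.x0) →
      M.Pr Δ (k.inF k.x0 N (k.dF k.x0 (k.cF k.x0 G))) := fun Δ N hΔ hN =>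
    k.ty_inF (hΓ.trans hΔ) (hx.ext hΔ) hN (hd.ext hΔ)
  have p2 : ∀ Δ N, Ext (colP P) (M.Γ n) Δ → Ty (colP P) Δ N (k.St k.x0) → M.Pr Δ (k.acc t (k.res G N)) :=
    fun Δ N hΔ hN => k.ty_acc (hΓ.trans hΔ) (ht.ext hΔ) (k.ty_res (hΓ.trans hΔ) (hG.ext hΔ) hN)
  refine (M.nex_tr _ n _ _ k.hq2 (k.ty_kinds hΓ hx).2.2.2.2.2.2.1 fun Δ N hΔ hN => ?_).trans ?_
  · rw [e]
    exact M.cnj_ty _ _ _ (hΓ.trans hΔ) (p1 Δ N hΔ hN) (p2 Δ N hΔ hN)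
  refine not_congr (exists_congr fun X => and_congr_right fun hX => ?_)
  rw [e]
  obtain ⟨m, hm⟩ := hX
  have h1 := M.mono _ _ (le_max_left n m)
  have hX' := hm.ext (M.mono _ _ (le_max_right n m))
  refine (M.cnj_tr _ _ _ (p1 _ _ h1 hX') (p2 _ _ h1 hX')).trans ?_
  exact and_congr (k.inF_dF ⟨n, hG⟩ ⟨m, hm⟩) Iff.rfl

/-- `acc_kp`, one beta step, law of `P4`, `nex_tr`, `cnj_tr`, `inF_dF` -/
theorem acc_sup (V G : CT S) (h1 : k.bfs.el .W V) (h2 : k.bfs.el .F G) : k.bfs.acc (k.bfs.sup V) G ↔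
    ∀ t, k.bfs.el .T t → k.bfs.inW t V → ∃ X, k.bfs.el .S X ∧ k.bfs.inF X G ∧ k.bfs.acc t (k.bfs.res G X) := by
  obtain ⟨n1, h1⟩ := h1
  obtain ⟨n2, h2⟩ := h2
  replace h1 : Ty (colP P) _ V k.Ws := h1.ext (M.mono _ _ (le_max_left n1 n2))
  replace h2 : Ty (colP P) _ G (k.Fm k.x0) := h2.ext (M.mono _ _ (le_max_right n1 n2))
  generalize max n1 n2 = n at h1 h2
  have hΓ : M.Ex (M.Γ n) := Mdl.ex_n n
  obtain ⟨-, -, hT, -, hx⟩ := k.ty_closed hΓ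
  have hz := k.ty_cF hΓ hx h2
  have hs := k.ty_supU hΓ h1
  have e : ∀ N, inst N (M.cnj (k.inW (bv 0) (lift V)) (k.sx (lift k.x0) (bv 0) (lift (k.cF k.x0 G)))) =
      M.cnj (k.inW N V) (k.sx k.x0 N (k.cF k.x0 G)) := by
    intro N
    unfold inst
    rw [M.cnj_nat _ _ _ (bs_vcons N), k.nat4.2.2.1 _ _ _ (bs_vcons N), k.nat4.2.2.2.2.1 _ _ _ _ (bs_vcons N)]
    simp only [sub_vcons_lift, sub_vr]
    rfl
  refine (k.acc_kp ⟨n, hs⟩ ⟨n, hz⟩).trans ?_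
  refine (k.rlb_beta k.nat4.2.2.2.2.2.1 (fun Δ y hΔ hy => k.ty_sy (hΓ.trans hΔ) (hx.ext hΔ) (h1.ext hΔ) hy)
    hs hz).trans ?_
  refine (M.nex_tr _ n _ _ k.hq5 hT fun Δ N hΔ hN => ?_).trans ?_
  · rw [e]
    exact M.cnj_ty _ _ _ (hΓ.trans hΔ) (k.ty_inW (hΓ.trans hΔ) hN (h1.ext hΔ))
      (k.ty_sx (hΓ.trans hΔ) (hx.ext hΔ) hN (hz.ext hΔ))
  have key : ∀ t, M.El t k.TT → (M.Tr (M.cnj (k.inW t V) (k.sx k.x0 t (k.cF k.x0 G))) ↔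
      M.Tr (k.inW t V) ∧ ¬ ∃ X, M.El X (k.St k.x0) ∧ M.Tr (k.inF k.x0 X G) ∧ M.Tr (k.acc t (k.res G X))) := by
    rintro t ⟨m, ht⟩
    have hm := M.mono _ _ (le_max_left n m)
    replace ht := ht.ext (M.mono _ _ (le_max_right n m))
    have hΓ' : M.Ex (M.Γ (max n m)) := Mdl.ex_n _
    refine (M.cnj_tr _ _ _ (k.ty_inW hΓ' ht (h1.ext hm)) (k.ty_sx hΓ' (hx.ext hm) ht (hz.ext hm))).trans ?_
    exact and_congr Iff.rfl (k.rlb_sx ht (h2.ext hm))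
  constructor
  · intro h t ht hV
    by_contra hc
    exact h ⟨t, ht, by rw [e]; exact (key t ht).2 ⟨hV, hc⟩⟩
  · rintro h ⟨t, ht, hc⟩
    rw [e] at hc
    obtain ⟨hV, hc⟩ := (key t ht).1 hc
    exact hc (h t ht hV)

/-! ### part c: definable predicates are realized by terms -/

/-- the substitution of an assignment -/
def sbs (ρ : ℕ → CT S) : Sb (S × Fin 3)
  | .inl i => ρ i
  | .inr a => atm a

def Asg (Δ : CCtx S) (Γ : List Sr) (ρ : ℕ → CT S) : Prop := ∀ i σ, Γ[i]? = some σ → Ty (colP P) Δ (ρ i) (k.kd σ)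

theorem kd_ty (σ : Sr) : Qn P d (k.lq σ) ∧ Nat0 (k.kd σ) ∧ ∀ Δ, M.Ex Δ → HL P 0 Δ (k.kd σ) (k.lq σ) := by
  obtain ⟨-, -, -, -, -, n1, n2, n3⟩ := k.nat_kinds
  obtain ⟨-, -, n4, n5, n0⟩ := k.nat_closed
  cases σ with
  | T => exact ⟨k.hq5, n4, fun Δ h => (k.ty_closed h).2.2.1⟩
  | W => exact ⟨k.hqc, n5, fun Δ h => (k.ty_closed h).2.2.2.1⟩
  | P => exact ⟨k.hq1, fun τ hτ => (n1 τ _ hτ).trans (congrArg _ (n0 τ hτ)),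
      fun Δ h => (k.ty_kinds h (k.ty_closed h).2.2.2.2).2.2.2.2.2.1⟩
  | S => exact ⟨k.hq2, fun τ hτ => (n2 τ _ hτ).trans (congrArg _ (n0 τ hτ)),
      fun Δ h => (k.ty_kinds h (k.ty_closed h).2.2.2.2).2.2.2.2.2.2.1⟩
  | F => exact ⟨k.hq3, fun τ hτ => (n3 τ _ hτ).trans (congrArg _ (n0 τ hτ)),
      fun Δ h => (k.ty_kinds h (k.ty_closed h).2.2.2.2).2.2.2.2.2.2.2⟩

theorem rc_bs (ρ : ℕ → CT S) : BS (sbs ρ) := fun _ => rfl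

theorem rc_inst (N : CT S) (ρ : ℕ → CT S) (X : CT S) : inst N (sub (up (sbs ρ)) X) = sub (sbs (ncons N ρ)) X := by
  rw [inst_sub_up]
  congr 1
  funext x
  rcases x with (_ | i) | a <;> rfl

theorem rc_ext {Δ Δ' : CCtx S} {Γ : List Sr} {ρ : ℕ → CT S} (h : k.Asg Δ Γ ρ) (h' : Ext (colP P) Δ Δ') : k.Asg Δ' Γ ρ :=
  fun i σ hi => (h i σ hi).ext h'

theorem rc_cons {Δ : CCtx S} {Γ : List Sr} {ρ : ℕ → CT S} {σ : Sr} {N : CT S} (h : k.Asg Δ Γ ρ)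
    (hN : Ty (colP P) Δ N (k.kd σ)) : k.Asg Δ (σ :: Γ) (ncons N ρ) := by
  intro i τ hi
  cases i with
  | zero =>
    obtain rfl : σ = τ := Option.some.inj hi
    exact hN
  | succ i => exact h i τ hi

theorem real_DT {Γ : List Sr} {σ : Sr} {f : (ℕ → CT S) → CT S} (h : DT k.bfs Γ σ f) : ∃ (n : ℕ) (N : CT S),
    (∀ ρ, sub (sbs ρ) N = f ρ) ∧ ∀ Δ ρ, Ext (colP P) (M.Γ n) Δ → k.Asg Δ Γ ρ → Ty (colP P) Δ (f ρ) (k.kd σ) := by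
  obtain ⟨-, -, -, -, -, -, -, -, n1, n2⟩ := k.nat4
  induction h with
  | var i hi => exact ⟨0, bv i, fun _ => rfl, fun Δ ρ _ hρ => hρ i _ hi⟩
  | cst c hc =>
    obtain ⟨n, hn⟩ := hc
    exact ⟨n, c, fun ρ => hn.nat0 _ (rc_bs ρ), fun Δ ρ hΔ _ => hn.ext hΔ⟩
  | sup _ ih =>
    obtain ⟨n, N, h1, h2⟩ := ih
    exact ⟨n, k.sup N, fun ρ => (n1 _ _ (rc_bs ρ)).trans (congrArg _ (h1 ρ)),
      fun Δ ρ hΔ hρ => k.ty_sup ((Mdl.ex_n n).trans hΔ) (h2 Δ ρ hΔ hρ)⟩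
  | res _ _ ih ih' =>
    obtain ⟨n, N, h1, h2⟩ := ih
    obtain ⟨n', N', h1', h2'⟩ := ih'
    exact ⟨max n n', k.res N N', fun ρ => (n2 _ _ _ (rc_bs ρ)).trans (congrArg₂ _ (h1 ρ) (h1' ρ)),
      fun Δ ρ hΔ hρ => k.ty_res ((Mdl.ex_n _).trans hΔ) (h2 Δ ρ ((M.mono _ _ (le_max_left _ _)).trans hΔ) hρ)
        (h2' Δ ρ ((M.mono _ _ (le_max_right _ _)).trans hΔ) hρ)⟩

theorem rc_atom {Γ : List Sr} {σ τ : Sr} {f g : (ℕ → CT S) → CT S} (h : DT k.bfs Γ σ f) (h' : DT k.bfs Γ τ g)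
    {H : CT S → CT S → CT S} (hH : Nat2 H)
    (ht : ∀ Δ a b, M.Ex Δ → Ty (colP P) Δ a (k.kd σ) → Ty (colP P) Δ b (k.kd τ) → M.Pr Δ (H a b)) : ∃ (n : ℕ) (X : CT S),
    (∀ Δ ρ, Ext (colP P) (M.Γ n) Δ → k.Asg Δ Γ ρ → M.Pr Δ (sub (sbs ρ) X)) ∧
    ∀ m ρ, k.Asg (M.Γ m) Γ ρ → (M.Tr (sub (sbs ρ) X) ↔ M.Tr (H (f ρ) (g ρ))) := by
  obtain ⟨n, N, h1, h2⟩ := k.real_DT h
  obtain ⟨n', N', h1', h2'⟩ := k.real_DT h'
  refine ⟨max n n', H N N', fun Δ ρ hΔ hρ => ?_, fun m ρ hρ => ?_⟩ <;> rw [hH _ _ _ (rc_bs ρ), h1, h1']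
  exact ht _ _ _ ((Mdl.ex_n _).trans hΔ) (h2 Δ ρ ((M.mono _ _ (le_max_left _ _)).trans hΔ) hρ)
    (h2' Δ ρ ((M.mono _ _ (le_max_right _ _)).trans hΔ) hρ)

/-- `ex σ`: `neg (nex (lq σ) (kd σ) X)`, `inst N (sub (up (sbs ρ)) X) = sub (sbs (ncons N ρ)) X` -/
theorem real_DF {Γ : List Sr} {φ : (ℕ → CT S) → Prop} (h : DF k.bfs Γ φ) : ∃ (n : ℕ) (X : CT S),
    (∀ Δ ρ, Ext (colP P) (M.Γ n) Δ → k.Asg Δ Γ ρ → M.Pr Δ (sub (sbs ρ) X)) ∧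
    ∀ m ρ, k.Asg (M.Γ m) Γ ρ → (M.Tr (sub (sbs ρ) X) ↔ φ ρ) := by
  obtain ⟨-, -, n1, n2, -, -, -, n3, -, -⟩ := k.nat4
  obtain ⟨n4, n5, -⟩ := k.nat3
  have n0 := k.nat_closed.2.2.2.2
  induction h with
  | acc h h' => exact k.rc_atom h h' n3 fun Δ _ _ => k.ty_acc
  | inW h h' => exact k.rc_atom h h' n1 fun Δ _ _ => k.ty_inW
  | inP h h' => exact k.rc_atom h h' n2 fun Δ _ _ => k.ty_inP
  | inS h h' =>
    exact k.rc_atom (H := k.inS k.x0) h h' (fun τ X Y hτ => by rw [n4 τ _ _ _ hτ, n0 τ hτ])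
      fun Δ _ _ hΔ => k.ty_inS hΔ (k.ty_closed hΔ).2.2.2.2
  | inF h h' =>
    exact k.rc_atom (H := k.inF k.x0) h h' (fun τ X Y hτ => by rw [n5 τ _ _ _ hτ, n0 τ hτ])
      fun Δ _ _ hΔ => k.ty_inF hΔ (k.ty_closed hΔ).2.2.2.2
  | neg _ ih =>
    obtain ⟨n, X, h1, h2⟩ := ih
    refine ⟨n, M.neg X, fun Δ ρ hΔ hρ => ?_, fun m ρ hρ => ?_⟩ <;> rw [M.neg_nat _ _ (rc_bs ρ)]
    · exact M.neg_ty _ _ ((Mdl.ex_n n).trans hΔ) (h1 Δ ρ hΔ hρ)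
    · exact (M.neg_tr (max n m) _ (h1 _ ρ (M.mono _ _ (le_max_left _ _))
        (k.rc_ext hρ (M.mono _ _ (le_max_right _ _))))).trans (not_congr (h2 m ρ hρ))
  | and _ _ ih ih' =>
    obtain ⟨n, X, h1, h2⟩ := ih
    obtain ⟨n', X', h1', h2'⟩ := ih'
    refine ⟨max n n', M.cnj X X', fun Δ ρ hΔ hρ => ?_, fun m ρ hρ => ?_⟩ <;> rw [M.cnj_nat _ _ _ (rc_bs ρ)]
    · exact M.cnj_ty _ _ _ ((Mdl.ex_n _).trans hΔ) (h1 Δ ρ ((M.mono _ _ (le_max_left _ _)).trans hΔ) hρ)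
        (h1' Δ ρ ((M.mono _ _ (le_max_right _ _)).trans hΔ) hρ)
    · have hρ' := k.rc_ext hρ (M.mono m (max (max n n') m) (le_max_right _ _))
      exact (M.cnj_tr _ _ _ (h1 _ ρ (M.mono _ _ (by omega)) hρ') (h1' _ ρ (M.mono _ _ (by omega)) hρ')).trans
        (and_congr (h2 m ρ hρ) (h2' m ρ hρ))
  | @ex Γ σ φ _ ih =>
    obtain ⟨n, X, h1, h2⟩ := ih
    obtain ⟨q1, q2, q3⟩ := k.kd_ty σ
    have pb : ∀ Δ ρ, Ext (colP P) (M.Γ n) Δ → k.Asg Δ Γ ρ → M.PB Δ (k.kd σ) (sub (up (sbs ρ)) X) :=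
      fun Δ ρ hΔ hρ Δ' N h hN => by
        rw [rc_inst]
        exact h1 Δ' _ (hΔ.trans h) (k.rc_cons (k.rc_ext hρ h) hN)
    have pr : ∀ Δ ρ, Ext (colP P) (M.Γ n) Δ → k.Asg Δ Γ ρ → M.Pr Δ (M.nex (k.lq σ) (k.kd σ) (sub (up (sbs ρ)) X)) :=
      fun Δ ρ hΔ hρ => M.nex_ty _ _ _ _ q1 ((Mdl.ex_n n).trans hΔ) (q3 _ ((Mdl.ex_n n).trans hΔ)) (pb Δ ρ hΔ hρ)
    refine ⟨n, M.neg (M.nex (k.lq σ) (k.kd σ) X), fun Δ ρ hΔ hρ => ?_, fun m ρ hρ => ?_⟩ <;>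
      rw [M.neg_nat _ _ (rc_bs ρ), M.nex_nat _ _ _ _ (rc_bs ρ), q2 _ (rc_bs ρ)]
    · exact M.neg_ty _ _ ((Mdl.ex_n n).trans hΔ) (pr Δ ρ hΔ hρ)
    · have e1 := M.mono n (max n m) (le_max_left _ _)
      have hρ' := k.rc_ext hρ (M.mono m (max n m) (le_max_right _ _))
      refine (M.neg_tr _ _ (pr _ ρ e1 hρ')).trans ?_
      rw [M.nex_tr _ _ _ _ q1 (q3 _ (Mdl.ex_n _)) (pb _ ρ e1 hρ'), not_not]
      refine exists_congr fun N => and_congr_right fun ⟨j, hj⟩ => ?_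
      rw [rc_inst]
      exact h2 (max m j) _ (k.rc_cons (k.rc_ext hρ (M.mono _ _ (le_max_left _ _)))
        (hj.ext (M.mono _ _ (le_max_right _ _))))
  | congr _ e ih =>
    obtain ⟨n, X, h1, h2⟩ := ih
    exact ⟨n, X, h1, fun m ρ hρ => (h2 m ρ hρ).trans (e ρ)⟩

/-- `H c = sub (sbs fun _ => c) X` -/
theorem real_Def {σ : Sr} {φ : CT S → Prop} (h : k.bfs.Def σ φ) : ∃ (n : ℕ) (H : CT S → CT S), Nat1 H ∧
    (∀ Δ c, Ext (colP P) (M.Γ n) Δ → Ty (colP P) Δ c (k.kd σ) → M.Pr Δ (H c)) ∧ ∀ c, M.El c (k.kd σ) → (M.Tr (H c) ↔ φ c) := by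
  obtain ⟨n, X, h1, h2⟩ := k.real_DF h
  have asg : ∀ Δ c, Ty (colP P) Δ c (k.kd σ) → k.Asg Δ [σ] fun _ => c := fun Δ c hc i τ hi => by
    rwa [List.mem_singleton.1 (List.mem_of_getElem? hi)]
  refine ⟨n, fun c => sub (sbs fun _ => c) X, fun τ c hτ => ?_, fun Δ c hΔ hc => h1 Δ _ hΔ (asg Δ c hc),
    fun c ⟨m, hc⟩ => h2 m _ (asg _ c hc)⟩
  rw [sub_sub]
  congr 1
  funext x
  rcases x with i | a
  · rfl
  · exact hτ a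

/-! ### part d: comprehension -/

theorem rd_compr {l m : Set S} {A : FS S} (hA : IsO M l m A) {K : CT S} (hK : ∀ Δ, M.Ex Δ → HL P 0 Δ K l) {n : ℕ}
    {φ : CT S} (g : CT S → CT S) (hg : ∀ N, inst N φ = g N)
    (hφ : ∀ Δ N, Ext (colP P) (M.Γ n) Δ → Ty (colP P) Δ N K → M.Pr Δ (g N)) :
    M.El (A.i K φ) (A.F K) ∧ ∀ N, M.El N K → (M.Tr (A.o K (A.i K φ) N) ↔ M.Tr (g N)) := by
  have hPB : M.PB (M.Γ n) K φ := fun Δ N h hN => by rw [hg]; exact hφ Δ N h hN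
  refine ⟨⟨n, hA.ti _ _ _ (Mdl.ex_n n) (hK _ (Mdl.ex_n n)) hPB⟩, ?_⟩
  rintro N ⟨j, hN⟩
  rw [← hg]
  exact hA.tr (max n j) K N φ (hK _ (Mdl.ex_n _)) (hN.ext (M.mono _ _ (le_max_right _ _)))
    (hPB.ext (M.mono _ _ (le_max_left _ _)))

theorem rd_kp {φ : CT S → Prop} (hφ : ∀ a b, k.bfs.el .T a → k.bfs.el .T b → k.bfs.eqv a b → φ a → φ b)
    (ht : M.El t k.TT) : φ (k.kp (k.ff t)) ↔ φ t := by
  obtain ⟨h1, h2⟩ := k.eqv_kp ht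
  exact ⟨hφ _ _ h1 ht h2, hφ _ _ ht h1 fun G hG => (h2 G hG).symm⟩

theorem rd_inst_kp {H : CT S → CT S} (hH : Nat1 H) (σ : Sb (S × Fin 3)) (hσ : BS σ) :
    sub σ (H (k.kp (bv 0))) = H (k.kp (σ (.inl 0))) := by
  rw [hH σ _ hσ, k.nat4.2.1 σ _ hσ]
  rfl

theorem rd_cW (φ : CT S → Prop) (h : k.bfs.Def .T φ)
    (hφ : ∀ a b, k.bfs.el .T a → k.bfs.el .T b → k.bfs.eqv a b → φ a → φ b) :
    ∃ V, k.bfs.el .W V ∧ ∀ t, k.bfs.el .T t → (k.bfs.inW t V ↔ φ t) := by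
  obtain ⟨n, H, hH, hty, htr⟩ := k.real_Def h
  obtain ⟨h1, h2⟩ := rd_compr (n := n) (φ := H (k.kp (bv 0))) k.hOc (fun Δ hΔ => (k.ty_closed hΔ).1)
    (fun N => H (k.kp N)) (fun N => k.rd_inst_kp hH _ (bs_vcons N))
    fun Δ N hΔ hN => hty Δ _ hΔ (k.ty_kp ((Mdl.ex_n n).trans hΔ) hN)
  refine ⟨_, h1, fun t ht => ?_⟩
  obtain ⟨j, hj⟩ := id ht
  exact (h2 _ ⟨j, k.ty_ff (Mdl.ex_n j) hj⟩).trans ((htr _ (k.eqv_kp ht).1).trans (k.rd_kp hφ ht))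

theorem rd_cP (φ : CT S → Prop) (h : k.bfs.Def .T φ)
    (hφ : ∀ a b, k.bfs.el .T a → k.bfs.el .T b → k.bfs.eqv a b → φ a → φ b) :
    ∃ w, k.bfs.el .P w ∧ ∀ t, k.bfs.el .T t → (k.bfs.inP t w ↔ φ t) := by
  obtain ⟨n, H, hH, hty, htr⟩ := k.real_Def h
  have hPB : M.PB (M.Γ n) k.U (H (k.kp (bv 0))) := fun Δ N hΔ hN => by
    rw [inst, k.rd_inst_kp hH _ (bs_vcons N)]
    exact hty Δ _ hΔ (k.ty_kp ((Mdl.ex_n n).trans hΔ) hN)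
  obtain ⟨h1, h2⟩ := rd_compr (n := n) (φ := k.E.o k.U (bv 0) (H (k.kp (bv 0)))) k.hO1
    (fun Δ hΔ => (k.ty_kinds hΔ (k.ty_closed hΔ).2.2.2.2).1)
    (fun N => k.E.o k.U N (H (k.kp (bv 0))))
    (fun N => by
      rw [inst, k.hE.no _ _ _ _ (bs_vcons N), k.nat_closed.1 _ (bs_vcons N), k.rd_inst_kp hH _ (bs_vcons N).up]
      rfl)
    fun Δ N hΔ hN => k.hE.to' Δ _ _ _ ((Mdl.ex_n n).trans hΔ) (k.ty_closed ((Mdl.ex_n n).trans hΔ)).1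
      ((k.ty_conv ((Mdl.ex_n n).trans hΔ)).1 hN) (hPB.ext hΔ)
  refine ⟨_, h1, fun t ht => ?_⟩
  obtain ⟨j, hj⟩ := id ht
  have hf := k.ty_ff (Mdl.ex_n j) hj
  have hi := (k.ty_conv (Mdl.ex_n j)).2 (k.hE.ti _ _ _ (Mdl.ex_n j) (k.ty_closed (Mdl.ex_n j)).1 hf)
  refine (h2 _ ⟨j, hi⟩).trans ?_
  refine (k.hE.tr (max n j) _ _ _ (k.ty_closed (Mdl.ex_n _)).1 (hf.ext (M.mono _ _ (le_max_right _ _)))
    (hPB.ext (M.mono _ _ (le_max_left _ _)))).trans ?_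
  rw [inst, k.rd_inst_kp hH _ (bs_vcons _)]
  exact (htr _ (k.eqv_kp ht).1).trans (k.rd_kp hφ ht)

theorem rd_cS (φ : CT S → Prop) (h : k.bfs.Def .P φ)
    (hφ : ∀ w w', k.bfs.el .P w → k.bfs.el .P w' → (∀ t, k.bfs.el .T t → (k.bfs.inP t w ↔ k.bfs.inP t w')) → φ w → φ w') :
    ∃ X, k.bfs.el .S X ∧ ∀ w, k.bfs.el .P w → (k.bfs.inS w X ↔ φ w) := by
  obtain ⟨n, H, hH, hty, htr⟩ := k.real_Def h
  obtain ⟨h1, h2⟩ := rd_compr (n := n) (φ := H (k.dY k.x0 (bv 0))) k.hO2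
    (fun Δ hΔ => (k.ty_kinds hΔ (k.ty_closed hΔ).2.2.2.2).2.1)
    (fun N => H (k.dY k.x0 N))
    (fun N => by
      rw [inst, hH _ _ (bs_vcons N), k.nat_cvt.2.1 _ _ _ (bs_vcons N), k.nat_closed.2.2.2.2 _ (bs_vcons N)]
      rfl)
    fun Δ N hΔ hN => hty Δ _ hΔ (k.ty_dY ((Mdl.ex_n n).trans hΔ) (k.ty_closed ((Mdl.ex_n n).trans hΔ)).2.2.2.2 hN)
  refine ⟨_, h1, fun w hw => ?_⟩
  obtain ⟨j, hj⟩ := id hw
  have hx := (k.ty_closed (Mdl.ex_n (M := M) j)).2.2.2.2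
  have hc := k.ty_cY (Mdl.ex_n j) hx hj
  have hd : k.bfs.el .P (k.dY k.x0 (k.cY k.x0 w)) := ⟨j, k.ty_dY (Mdl.ex_n j) hx hc⟩
  refine (h2 _ ⟨j, hc⟩).trans ((htr _ hd).trans ?_)
  exact ⟨hφ _ _ hd hw fun t ht => k.inP_dY hw ht, hφ _ _ hw hd fun t ht => (k.inP_dY hw ht).symm⟩

theorem rd_cF (φ : CT S → Prop) (h : k.bfs.Def .S φ)
    (hφ : ∀ X Y, k.bfs.el .S X → k.bfs.el .S Y → (∀ w, k.bfs.el .P w → (k.bfs.inS w X ↔ k.bfs.inS w Y)) → φ X → φ Y) :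
    ∃ G, k.bfs.el .F G ∧ ∀ X, k.bfs.el .S X → (k.bfs.inF X G ↔ φ X) := by
  obtain ⟨n, H, hH, hty, htr⟩ := k.real_Def h
  obtain ⟨h1, h2⟩ := rd_compr (n := n) (φ := H (k.dS k.x0 (bv 0))) k.hO3
    (fun Δ hΔ => (k.ty_kinds hΔ (k.ty_closed hΔ).2.2.2.2).2.2.1)
    (fun N => H (k.dS k.x0 N))
    (fun N => by
      rw [inst, hH _ _ (bs_vcons N), k.nat_cvt.2.2.2.1 _ _ _ (bs_vcons N), k.nat_closed.2.2.2.2 _ (bs_vcons N)]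
      rfl)
    fun Δ N hΔ hN => hty Δ _ hΔ (k.ty_dS ((Mdl.ex_n n).trans hΔ) (k.ty_closed ((Mdl.ex_n n).trans hΔ)).2.2.2.2 hN)
  refine ⟨_, h1, fun X hX => ?_⟩
  obtain ⟨j, hj⟩ := id hX
  have hx := (k.ty_closed (Mdl.ex_n (M := M) j)).2.2.2.2
  have hc := k.ty_cS (Mdl.ex_n j) hx hj
  have hd : k.bfs.el .S (k.dS k.x0 (k.cS k.x0 X)) := ⟨j, k.ty_dS (Mdl.ex_n j) hx hc⟩
  refine (h2 _ ⟨j, hc⟩).trans ((htr _ hd).trans ?_)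
  exact ⟨hφ _ _ hd hX fun w hw => k.inS_dS hX hw, hφ _ _ hX hd fun w hw => (k.inS_dS hX hw).symm⟩

/-- `cW`: `Oc.i U (H (kp (bv 0)))`; `cP`: `O1.i (Ym x0) (E.o U (bv 0) (H (kp (bv 0))))` (`ty_conv`); `cS`: `O2.i (Y x0) (H (dY x0 (bv 0)))`;
`cF`: `O3.i (Y1 x0) (H (dS x0 (bv 0)))`; `eqv_kp`, `inP_dY`, `inS_dS` and the invariance hypotheses (both directions by symmetry) -/
theorem laws : k.bfs.Laws := by
  refine ⟨?_, ?_, k.acc_sup, k.inF_res, k.rd_cW, k.rd_cP, k.rd_cS, k.rd_cF⟩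
  · rintro V ⟨j, hj⟩
    exact ⟨j, k.ty_sup (Mdl.ex_n j) hj⟩
  · rintro G X ⟨i, hi⟩ ⟨j, hj⟩
    exact ⟨max i j, k.ty_res (Mdl.ex_n _) (hi.ext (M.mono _ _ (le_max_left _ _))) (hj.ext (M.mono _ _ (le_max_right _ _)))⟩

end Kit

theorem paradox [Finite S] {D : Set (Set S)} (hP : HWN P) (hs : Stage P d D) (ho : OddC P d) (hb : Bin P d) : MC P d := by
  intro l hl h
  obtain ⟨M⟩ := exists_mdl hP hs ho hb
  obtain ⟨k⟩ := exists_kit M hl h.1 h.2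
  exact burali_forti k.bfs k.laws

end Crest.Agent.R298
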