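import Crest.Agent.R298.Lev

/-!
# Row 298, paradox block.  The coloured system: colour `0` = data types, `1` = propositions, `2` = sorts used as answer types.
In a context of data atoms and storing constants no answer type is inhabited.
-/

set_option autoImplicit false
set_option linter.unusedSectionVars false
set_option linter.unusedVariables false

namespace Crest.Agent.R298

open scoped Classical
open Tm
open Crest.LogicCS.PTS (Spec)

variable {S : Type}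

def colP (P : Spec S) : Spec (S × Fin 3) where
  ax x y := P.ax x.1 y.1 ∧ y.2 = if x.2 = 2 then 1 else 0
  rule x y z := P.rule x.1 y.1 z.1 ∧ z.2 = y.2 ∧ y.2 ≠ 2

abbrev CT (S : Type) := Tm (S × Fin 3)
abbrev CCtx (S : Type) := List (Atom (S × Fin 3))

def Inh {S' : Type} (P : Spec S') (Γ : List (Atom S')) (X : Tm S') : Prop := ∃ t, Ty P Γ t X
/-- `Δ` is a legal extension of `Γ` -/
def Ext {S' : Type} (P : Spec S') (Γ Δ : List (Atom S')) : Prop := Ok P Δ ∧ ∀ a ∈ Γ, a ∈ Δ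
/-- `K` has all sorts of the level `l`, in colour `j` -/
def HL (P : Spec S) (j : Fin 3) (Δ : CCtx S) (K : CT S) (l : Set S) : Prop := ∀ s ∈ l, Ty (colP P) Δ K (srt (s, j))

inductive AnsT (P : Spec S) : CT S → Prop
  | srt (s : S) : AnsT P (srt (s, 2))
  | atm (n : ℕ) (s : S) : AnsT P (fv n (srt (s, 1)))
  | arr {A E : CT S} {s : S} : GT (colP P) A (srt (s, 0)) → AnsT P E → AnsT P (arr A E)

def Good (P : Spec S) (a : Atom (S × Fin 3)) : Prop :=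
  (∃ s, GT (colP P) a.2 (srt (s, 0))) ∨ ∃ E F, AnsT P E ∧ AnsT P F ∧ a.2 = arr E F

def GoodC (P : Spec S) (Γ : CCtx S) : Prop := Ok (colP P) Γ ∧ ∀ a ∈ Γ, Good P a

variable {P : Spec S} {Γ Δ : CCtx S} {A B E F K X : CT S} {a b l : Set S} {i j : Fin 3}

/-! ### part a: consistency -/

theorem hwn_col (hP : HWN P) : HWN (colP P) :=
  HWN.of_map Prod.fst (fun _ _ h => h.1) (fun _ _ _ h => h.1) hP

/-- induction on the first `SO` (`Sp.uniq` for spines) -/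
theorem SO.col {T : CT S} {x y : S × Fin 3} (h : SO (colP P) T x) (h' : SO (colP P) T y) : x.2 = y.2 := by
  induction h generalizing y with
  | srt h =>
    cases h' with
    | srt h' => exact h.2.trans h'.2.symm
    | neu hs _ => cases hs
  | neu hs h =>
    cases h' with
    | srt h' => cases hs
    | neu hs' h' =>
      obtain ⟨_, h⟩ := h
      obtain ⟨_, h'⟩ := h'
      rw [cv_srt_inj (hs.uniq h h')]
    | pi => cases hs
  | pi L _ _ hr _ ih =>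
    cases h' with
    | neu hs _ => cases hs
    | pi L' _ hB hr' =>
      exact hr.2.1.trans ((ih _ (le_max_left L L') (hB _ (le_max_right L L'))).trans hr'.2.1.symm)

/-- `Ty.mem_lv`, `lv_cv` -/
theorem col_unique (hP : HWN P) {x y : S × Fin 3} (h : GT (colP P) A (srt x)) (h' : GT (colP P) B (srt y)) (hc : Cv A B) :
    x.2 = y.2 := by
  obtain ⟨_, h⟩ := h
  obtain ⟨_, h'⟩ := h'
  have h1 := h.mem_lv (hwn_col hP)
  rw [lv_cv hc] at h1
  exact SO.col h1 (h'.mem_lv (hwn_col hP))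

theorem cola_col (h : AnsT P E) (hc : Cv A E) {x : S × Fin 3} (hx : GT (colP P) A (Tm.srt x)) : x.2 = 1 := by
  induction h generalizing A x with
  | srt s =>
    obtain ⟨_, hx⟩ := hx
    obtain ⟨L, h1, h2⟩ := church_rosser hc
    obtain rfl := b2_nf_red (nf_srt _) h2
    obtain ⟨t, h3, h4⟩ := (hx.srs h1).gen_srt
    rw [cv_srt_inj h4]
    exact h3.2
  | atm n s =>
    obtain ⟨_, hx⟩ := hx
    obtain ⟨L, h1, h2⟩ := church_rosser hc
    obtain rfl := b2_nf_red (fun _ h => by cases h) h2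
    rw [cv_srt_inj (hx.srs h1).gen_fv.2]
  | arr _ _ ih =>
    obtain ⟨_, hx⟩ := hx
    obtain ⟨L, h1, h2⟩ := church_rosser hc
    obtain ⟨A', B', rfl, -, h3⟩ := red_pi_inv h2
    obtain ⟨s₁, s₂, s₃, h4, h5, h6, h7⟩ := (hx.srs h1).gen_pi
    rw [cv_srt_inj h5, h4.2.1]
    refine ih ?_ ⟨_, h7 0 _ _ h6 (.refl _)⟩
    have := cv_inst (.refl (fv 0 A')) h3.cv
    rw [inst_lift] at this
    exact .symm _ _ this

theorem AnsT.col (h : AnsT P E) {x : S × Fin 3} (hx : GT (colP P) E (Tm.srt x)) : x.2 = 1 := by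
  exact cola_col h (.refl _) hx

theorem cola_inst {S' : Type} {P : Spec S'} {Γ : List (Atom S')} {A B N : Tm S'} {s : S'}
    (h : ∀ n, Ty P ((n, A) :: Γ) (inst (fv n A) B) (srt s)) (hN : Ty P Γ N A) : Ty P Γ (inst N B) (srt s) := by
  have h1 := h (max (cmx Γ) (mx B))
  have h2 := h1.subst ((Mor.id hN.ok fun _ h => h).upd h1.ok (not_mem_of_cmx (le_max_left _ _))
    (by rw [sub_vr]; exact hN))
  rwa [show fv (max (cmx Γ) (mx B)) A = atm (max (cmx Γ) (mx B), A) from rfl,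
    sub_vupd_inst (not_occ_of_mx (le_max_right _ _))] at h2

theorem sp_data (hP : HWN P) {c : Atom (S × Fin 3)} {M : CT S} {s : S} (hs : Sp c M) (h : Ty (colP P) Γ M A)
    (hc : GT (colP P) c.2 (srt (s, 0))) : ∃ A' s', Cv A A' ∧ GT (colP P) A' (srt (s', 0)) := by
  induction hs generalizing A with
  | hd => exact ⟨_, s, (Ty.gen_fv h).2, hc⟩
  | app N _ ih =>
    obtain ⟨C, B, h1, h2, h3⟩ := h.gen_app
    obtain ⟨A', s', h4, h5⟩ := ih h1
    obtain ⟨z, hz⟩ := h1.pi_ty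
    have h6 := col_unique hP ⟨_, hz⟩ h5 h4
    obtain ⟨s₁, ⟨s₂, j⟩, s₃, h7, h8, h9, h10⟩ := hz.gen_pi
    obtain rfl : j = 0 := by
      rw [cv_srt_inj h8] at h6
      exact h7.2.1.symm.trans h6
    exact ⟨_, s₂, h3, _, cola_inst (fun n => h10 n _ _ h9 (.refl _)) h2⟩

theorem cola_srt (h : AnsT P E) {y : S × Fin 3} (hc : Cv E (srt y)) : y.2 = 2 := by
  cases h with
  | srt s => rw [← cv_srt_inj hc]
  | atm n s => exact (Sp.not_cv_srt (a := (n, srt (s, 1))) .hd hc).elim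
  | arr _ _ => exact (not_cv_srt_pi (.symm _ _ hc)).elim

theorem cola_pi (h : AnsT P E) (hc : Cv (pi A B) E) :
    ∃ A' E' s, GT (colP P) A' (srt (s, 0)) ∧ AnsT P E' ∧ Cv A A' ∧ Cv B (lift E') := by
  cases h with
  | srt s => exact (not_cv_srt_pi (.symm _ _ hc)).elim
  | atm n s => exact (Sp.not_cv_pi (a := (n, srt (s, 1))) .hd (.symm _ _ hc)).elim
  | arr h1 h2 => exact ⟨_, _, _, h1, h2, cv_pi_inj hc⟩

theorem cola_first {S' : Type} {P : Spec S'} {Γ : List (Atom S')} {c : Atom S'} {t A : Tm S'} (hs : Sp c t)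
    (h : Ty P Γ t A) (hn : Nf t) :
    t = atm c ∨ ∃ N C B, Ty P Γ (atm c) (pi C B) ∧ Ty P Γ N C ∧ Nf N ∧ sz N < sz t := by
  induction hs generalizing A with
  | hd => exact .inl rfl
  | app N _ ih =>
    obtain ⟨C, B, h1, h2, -⟩ := h.gen_app
    rcases ih h1 hn.app.1 with rfl | ⟨N', C', B', h3, h4, h5, h6⟩
    · exact .inr ⟨N, C, B, h1, h2, hn.app.2.1, by simp only [sz]; omega⟩
    · exact .inr ⟨N', C', B', h3, h4, h5, by simp only [sz]; omega⟩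

theorem cola_main (hP : HWN P) {t : CT S} (hn : Nf t) (hΓ : ∀ c ∈ Γ, Good P c) (hE : AnsT P E) (h : Ty (colP P) Γ t A)
    (hc : Cv A E) : False := by
  induction hk : sz t using Nat.strong_induction_on generalizing t Γ A E with
  | _ k ih =>
  subst hk
  rcases h.nf_cases hn with ⟨x, rfl⟩ | ⟨B, C, rfl⟩ | ⟨C, M, rfl⟩ | ⟨c, hc1, hs⟩
  · obtain ⟨y, h1, h2⟩ := h.gen_srt
    have h3 := (cola_srt hE (.trans _ _ _ (.symm _ _ hc) h2)).symm.trans h1.2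
    split_ifs at h3 <;> exact absurd h3 (by decide)
  · obtain ⟨s₁, s₂, s₃, h1, h2, -⟩ := h.gen_pi
    exact h1.2.2 (h1.2.1.symm.trans (cola_srt hE (.trans _ _ _ (.symm _ _ hc) h2)))
  · obtain ⟨B, s, h1, h2, h3⟩ := h.gen_lam
    obtain ⟨A', E', s', h4, h5, h6, h7⟩ := cola_pi hE (.trans _ _ _ (.symm _ _ h1) hc)
    obtain ⟨⟨s₁, j⟩, -, -, -, -, h8, -⟩ := h2.gen_pi
    obtain rfl : j = 0 := col_unique hP ⟨_, h8⟩ h4 h6
    have h9 := cv_inst (.refl (fv 0 C)) h7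
    rw [inst_lift] at h9
    refine ih _ ?_ ((nf_inst_atm_iff (0, C) M).2 (nf_lam_iff.1 hn).2) (Γ := (0, C) :: Γ) (fun c hc => ?_) h5
      (h3 0 _ _ h8 (.refl _)) h9 rfl
    · rw [sz_inst_atm]
      simp only [sz]
      omega
    · rcases List.mem_cons.1 hc with rfl | hc
      · exact .inl ⟨s₁, _, h8⟩
      · exact hΓ c hc
  · rcases hΓ c hc1 with ⟨s, h1⟩ | ⟨E₁, F₁, h1, -, h2⟩
    · obtain ⟨A', s', h2, h3⟩ := sp_data hP hs h h1
      exact absurd (cola_col hE (.trans _ _ _ (.symm _ _ h2) hc) h3) (by simp)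
    · rcases cola_first hs h hn with rfl | ⟨N, C, B, h3, h4, h5, h6⟩
      · have h3 := (Ty.gen_fv h).2
        rw [h2] at h3
        obtain ⟨A', E', s', h4, -, h6, -⟩ := cola_pi hE (.trans _ _ _ (.symm _ _ h3) hc)
        exact absurd (cola_col h1 (.symm _ _ h6) h4) (by simp)
      · have h7 := (Ty.gen_fv h3).2
        rw [h2] at h7
        exact ih _ h6 h5 hΓ h1 h4 (cv_pi_inj h7).1 rfl

/-- take a normal inhabitant, induction on its size (generalizing `Γ`, `E`): a sort or a product would need an axiom or rule with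
target colour `2`; an abstraction adds a data atom; a spine headed by a data atom has a type of colour `0`; a storing constant alone has a
domain of colour `1`, otherwise its first argument is a smaller normal inhabitant of an answer type. -/
theorem no_ans (hP : HWN P) (hΓ : ∀ c ∈ Γ, Good P c) (hE : AnsT P E) : ¬ Inh (colP P) Γ E := by
  rintro ⟨t, h⟩
  exact cola_main hP (nf_nf t) hΓ hE (h.nf_tm (hwn_col hP)) (.refl _)

/-! ### part b: realizers and storing -/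

theorem Ext.refl {S' : Type} {P : Spec S'} {Γ : List (Atom S')} (h : Ok P Γ) : Ext P Γ Γ := by
  exact ⟨h, fun _ h => h⟩

theorem Ext.trans {S' : Type} {P : Spec S'} {Γ Δ Θ : List (Atom S')} (h : Ext P Γ Δ) (h' : Ext P Δ Θ) : Ext P Γ Θ := by
  exact ⟨h'.1, fun a ha => h'.2 a (h.2 a ha)⟩

theorem Ext.cons {S' : Type} {P : Spec S'} {Γ Δ : List (Atom S')} {c : Atom S'} {s : S'} (h : Ext P Γ Δ)
    (hc : Ty P Δ c.2 (srt s)) : Ext P Γ (c :: Δ) := by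
  exact ⟨.cons hc, fun a ha => List.mem_cons_of_mem _ (h.2 a ha)⟩

theorem Ty.ext {S' : Type} {P : Spec S'} {Γ Δ : List (Atom S')} {M A : Tm S'} (h : Ty P Γ M A) (h' : Ext P Γ Δ) :
    Ty P Δ M A := by
  exact h.thin h'.1 h'.2

theorem HL.ext (h : HL P j Γ K l) (h' : Ext (colP P) Γ Δ) : HL P j Δ K l := by
  exact fun s hs => (h s hs).ext h'

theorem HL.arr (hA : HL P i Γ A a) (hB : HL P j Γ B b) (hj : j ≠ 2) : HL P j Γ (arr A B) (ot P a b) := by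
  rintro s ⟨x, hx, y, hy, hr⟩
  exact Ty.arr_intro (hA x hx) (hB y hy) ⟨hr, rfl, hj⟩

/-- dependent product; the body is typed in all extensions -/
theorem HL.pi (hA : HL P i Γ A a) (hB : ∀ Δ N, Ext (colP P) Γ Δ → Ty (colP P) Δ N A → HL P j Δ (inst N B) b) (hj : j ≠ 2) :
    HL P j Γ (pi A B) (ot P a b) := by
  rintro s ⟨x, hx, y, hy, hr⟩
  have h := hA x hx
  exact Ty.prod (n := max (cmx Γ) (mx B)) (s₂ := (y, j)) h (not_mem_of_cmx (le_max_left _ _))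
    (not_occ_of_mx (le_max_right _ _))
    (hB _ _ ((Ext.refl h.ok).cons (c := (_, A)) h) (Ty.start (a := (_, A)) h) y hy) ⟨hr, rfl, hj⟩

/-- abstraction; the body is typed in all extensions -/
theorem ty_lam {S' : Type} {P : Spec S'} {Γ : List (Atom S')} {A B M : Tm S'} {s : S'} (h : Ty P Γ (pi A B) (srt s))
    (hM : ∀ Δ N, Ext P Γ Δ → Ty P Δ N A → Ty P Δ (inst N M) (inst N B)) : Ty P Γ (lam A M) (pi A B) := by
  obtain ⟨t, hA⟩ := typa_pi_dom h rfl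
  exact Ty.abs (n := max (cmx Γ) (max (mx M) (mx B))) (not_mem_of_cmx (le_max_left _ _))
    (not_occ_of_mx ((le_max_left _ _).trans (le_max_right _ _)))
    (not_occ_of_mx ((le_max_right _ _).trans (le_max_right _ _)))
    (hM _ _ ((Ext.refl h.ok).cons (c := (_, A)) hA) (Ty.start (a := (_, A)) hA)) h

/-- abstraction of an inhabitant (fresh atom, `Ty.abs_cls`, `cls_inst`) -/
theorem inh_pi {S' : Type} {P : Spec S'} {Γ : List (Atom S')} {A B : Tm S'} {s : S'} (h : Ty P Γ (pi A B) (srt s))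
    (hM : ∀ Δ N, Ext P Γ Δ → Ty P Δ N A → Inh P Δ (inst N B)) : Inh P Γ (pi A B) := by
  obtain ⟨t, hA⟩ := typa_pi_dom h rfl
  obtain ⟨M, hM'⟩ := hM _ _ ((Ext.refl h.ok).cons (c := (max (cmx Γ) (mx B), A)) hA)
    (Ty.start (a := (max (cmx Γ) (mx B), A)) hA)
  have e := cls_inst (a := (max (cmx Γ) (mx B), A)) (M := B) (not_occ_of_mx (le_max_right _ _))
  have := Ty.abs_cls (s := s) (not_mem_of_cmx (le_max_left _ _)) hM' (by rw [e]; exact h)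
  rw [e] at this
  exact ⟨_, this⟩

theorem GoodC.append (h : GoodC P Γ) (h' : GoodC P Δ) : GoodC P (Γ ++ Δ) := by
  exact ⟨h.1.append h'.1, fun a ha => (List.mem_append.1 ha).elim (h.2 a) (h'.2 a)⟩

theorem cb2_cons (h : GoodC P Γ) {c : Atom (S × Fin 3)} {x : S × Fin 3} (hc : Ty (colP P) Γ c.2 (srt x))
    (hg : Good P c) : GoodC P (c :: Γ) :=
  ⟨.cons hc, fun d hd => (List.mem_cons.1 hd).elim (fun e => e ▸ hg) (h.2 d)⟩

theorem cb2_nil : GoodC P [] := ⟨.nil, fun _ h => absurd h List.not_mem_nil⟩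

theorem cb2_l (h : GoodC P Γ) (h' : GoodC P Δ) : Ext (colP P) Γ (Γ ++ Δ) :=
  ⟨(h.append h').1, fun _ ha => List.mem_append_left _ ha⟩

theorem cb2_r (h : GoodC P Γ) (h' : GoodC P Δ) : Ext (colP P) Δ (Γ ++ Δ) :=
  ⟨(h.append h').1, fun _ ha => List.mem_append_right _ ha⟩

/-- `axs s`: `srt (s,0)`, `srt (s,2)`; `{s}`: atoms of type `srt (s,0)`, `srt (s,1)`; `ot`: arrows from the data realizer -/
theorem realize (h : Lev P l) : ∃ (Γ : CCtx S) (D e F : CT S), GoodC P Γ ∧ HL P 0 Γ D l ∧ Ty (colP P) Γ e D ∧ AnsT P F ∧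
    HL P 1 Γ F l := by
  induction h with
  | @ax s hs =>
    obtain ⟨t, ht⟩ := hs
    have h1 : Ty (colP P) [] (srt (s, 0)) (srt (t, 0)) := .ax ⟨ht, rfl⟩
    have h2 : GoodC P [(0, srt (s, 0))] := cb2_cons cb2_nil h1 (.inl ⟨t, _, h1⟩)
    exact ⟨_, srt (s, 0), atm (0, srt (s, 0)), srt (s, 2), h2, fun u hu => h2.1.ax ⟨hu, rfl⟩, .start h1, .srt s,
      fun u hu => h2.1.ax ⟨hu, rfl⟩⟩
  | @sg s t ht =>
    have h1 : Ty (colP P) [] (srt (s, 0)) (srt (t, 0)) := .ax ⟨ht, rfl⟩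
    have h2 : GoodC P [(0, srt (s, 0))] := cb2_cons cb2_nil h1 (.inl ⟨t, _, h1⟩)
    have h3 : Ty (colP P) [(0, srt (s, 0))] (atm (0, srt (s, 0))) (srt (s, 0)) := .start h1
    have h4 : GoodC P [(0, atm (0, srt (s, 0))), (0, srt (s, 0))] := cb2_cons h2 h3 (.inl ⟨s, _, h3⟩)
    have h5 : Ty (colP P) [(0, atm (0, srt (s, 0))), (0, srt (s, 0))] (srt (s, 1)) (srt (t, 0)) :=
      h4.1.ax ⟨ht, rfl⟩
    have h6 : GoodC P [(0, srt (s, 1)), (0, atm (0, srt (s, 0))), (0, srt (s, 0))] :=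
      cb2_cons h4 h5 (.inl ⟨t, _, h5⟩)
    refine ⟨_, atm (0, srt (s, 0)), atm (0, atm (0, srt (s, 0))), fv 0 (srt (s, 1)), h6, ?_,
      h6.1.var (a := (0, atm (0, srt (s, 0)))) (by simp), .atm 0 s, ?_⟩
    · rintro u rfl
      exact h6.1.var (a := (0, srt (u, 0))) (by simp)
    · rintro u rfl
      exact h6.1.var (a := (0, srt (u, 1))) (by simp)
  | @ot a b ha hb hne iha ihb =>
    obtain ⟨Γa, Da, -, -, g1, d1, -, -, -⟩ := iha
    obtain ⟨Γb, Db, -, Fb, g2, d2, -, f2, f3⟩ := ihb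
    obtain ⟨s, hs⟩ := hne
    obtain ⟨x, hx⟩ := ha.nonempty
    have h1 := (d1.ext (cb2_l g1 g2)).arr (d2.ext (cb2_r g1 g2)) (by decide)
    have h2 := (d1.ext (cb2_l g1 g2)).arr (f3.ext (cb2_r g1 g2)) (by decide)
    have h3 : Ext (colP P) (Γa ++ Γb) ((0, arr Da Db) :: (Γa ++ Γb)) := (Ext.refl (g1.append g2).1).cons (h1 s hs)
    exact ⟨_, arr Da Db, atm (0, arr Da Db), arr Da Fb, cb2_cons (g1.append g2) (h1 s hs) (.inl ⟨s, _, h1 s hs⟩),
      h1.ext h3, .start (h1 s hs), .arr ⟨_, d1 x hx⟩ f2, h2.ext h3⟩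

theorem cb2_inh_arr {x : S × Fin 3} (h : Ty (colP P) Γ (arr A B) (srt x)) (hB : Inh (colP P) Γ B) :
    Inh (colP P) Γ (arr A B) :=
  inh_pi h fun Δ N hΔ _ => by
    rw [inst_lift]
    exact ⟨_, hB.choose_spec.ext hΔ⟩

/-- one storing constant -/
theorem cb2_store (hΓ : GoodC P Γ) (hE : AnsT P E) (hF : AnsT P F) (h : HL P 1 Γ E a) (h' : HL P 1 Γ F b)
    (hne : (ot P a b).Nonempty) : ∃ Γ' : CCtx S, GoodC P Γ' ∧ Ext (colP P) Γ Γ' ∧
      ∀ Δ, Ext (colP P) Γ' Δ → Inh (colP P) Δ E → Inh (colP P) Δ F := by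
  obtain ⟨s, hs⟩ := hne
  have h1 := h.arr h' (by decide) s hs
  refine ⟨(0, arr E F) :: Γ, cb2_cons hΓ h1 (.inr ⟨E, F, hE, hF, rfl⟩), (Ext.refl hΓ.1).cons h1, ?_⟩
  rintro Δ hΔ ⟨t, ht⟩
  exact ⟨_, (hΔ.1.var (hΔ.2 _ List.mem_cons_self)).arr_elim ht⟩

theorem cb2_step {W : Set S → Prop} {p : Bool} {m : Set S} (hs : Stp P W p l m) (hΓ : GoodC P Γ) (hE : AnsT P E)
    (h : HL P 1 Γ E l) : ∃ (Γ' : CCtx S) (E' : CT S), GoodC P Γ' ∧ Ext (colP P) Γ Γ' ∧ AnsT P E' ∧ HL P 1 Γ' E' m ∧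
      ∀ Δ, Ext (colP P) Γ' Δ → Inh (colP P) Δ E → Inh (colP P) Δ E' := by
  cases hs with
  | @pos a _ ha hb hne =>
    obtain ⟨Γa, Da, -, -, g1, d1, -, -, -⟩ := realize ha
    obtain ⟨s, hs⟩ := hne
    obtain ⟨x, hx⟩ := ha.nonempty
    have h1 := (d1.ext (cb2_r hΓ g1)).arr (h.ext (cb2_l hΓ g1)) (by decide)
    exact ⟨_, arr Da E, hΓ.append g1, cb2_l hΓ g1, .arr ⟨_, d1 x hx⟩ hE, h1,
      fun Δ hΔ => cb2_inh_arr ((h1 s hs).ext hΔ)⟩
  | @neg _ b ha hb hne _ =>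
    obtain ⟨Γa, Da, -, -, g1, d1, -, -, -⟩ := realize ha
    obtain ⟨Γb, -, -, Fb, g2, -, -, f2, f3⟩ := realize hb
    have e1 := cb2_l (hΓ.append g1) g2
    have e2 := cb2_r (hΓ.append g1) g2
    obtain ⟨Γ', g3, e3, h3⟩ := cb2_store ((hΓ.append g1).append g2) hE f2 ((h.ext (cb2_l hΓ g1)).ext e1)
      (f3.ext e2) hne
    obtain ⟨s, hs⟩ := hne
    obtain ⟨x, hx⟩ := ha.nonempty
    have h1 := ((((d1.ext (cb2_r hΓ g1)).ext e1).arr (f3.ext e2) (by decide))).ext e3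
    exact ⟨Γ', arr Da Fb, g3, ((cb2_l hΓ g1).trans e1).trans e3, .arr ⟨_, d1 x hx⟩ f2, h1,
      fun Δ hΔ hi => cb2_inh_arr ((h1 s hs).ext hΔ) (h3 Δ hΔ hi)⟩
  | cum ha hb hab => exact ⟨Γ, E, hΓ, Ext.refl hΓ.1, hE, fun s hs => h s (hab hs), fun _ _ hi => hi⟩

/-- along a walk: `pos`: `arr D E`; `cum`: `E`; `neg a → ot a b`: `arr D_a F_b` inhabited by `lam _ (c t)`, `c = (0, arr E F_b)` -/
theorem store_walk {p : Bool} {m : Set S} (hw : WA P p l m) (hl : Lev P l) (hΓ : GoodC P Γ) (hE : AnsT P E)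
    (h : HL P 1 Γ E l) : ∃ (Γ' : CCtx S) (E' : CT S), GoodC P Γ' ∧ Ext (colP P) Γ Γ' ∧ AnsT P E' ∧ HL P 1 Γ' E' m ∧
      ∀ Δ, Ext (colP P) Γ' Δ → Inh (colP P) Δ E → Inh (colP P) Δ E' := by
  induction hw with
  | refl => exact ⟨Γ, E, hΓ, Ext.refl hΓ.1, hE, h, fun _ _ hi => hi⟩
  | step _ hs ih =>
    obtain ⟨Γ₁, E₁, g1, e1, a1, l1, i1⟩ := ih hl h
    obtain ⟨Γ₂, E₂, g2, e2, a2, l2, i2⟩ := cb2_step hs g1 a1 l1
    exact ⟨Γ₂, E₂, g2, e1.trans e2, a2, l2, fun Δ hΔ hi => i2 Δ hΔ (i1 Δ (e2.trans hΔ) hi)⟩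

structure Base (P : Spec S) where
  Γ : CCtx S
  Dd : Set S → CT S
  dd : Set S → CT S
  Ans : Set S → CT S
  ok : Ok (colP P) Γ
  Dd_ty : ∀ l, Lev P l → HL P 0 Γ (Dd l) l
  dd_ty : ∀ l, Lev P l → Ty (colP P) Γ (dd l) (Dd l)
  Ans_ty : ∀ l, Lev P l → HL P 1 Γ (Ans l) l
  exf : ∀ m a b, Lev P m → Reach P m a → Lev P a → Lev P b → (ot P a b).Nonempty →
    ∀ Δ, Ext (colP P) Γ Δ → Inh (colP P) Δ (Ans m) → Inh (colP P) Δ (Ans b)
  cons : ∀ l, Lev P l → ¬ Inh (colP P) Γ (Ans l)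

theorem cb2_all {ι : Type} [Finite ι] (G : ι → CCtx S) (hG : ∀ i, GoodC P (G i)) :
    ∃ Θ, GoodC P Θ ∧ ∀ i, Ext (colP P) (G i) Θ := by
  have key : ∀ L : List ι, ∃ Θ, GoodC P Θ ∧ ∀ i ∈ L, Ext (colP P) (G i) Θ := by
    intro L
    induction L with
    | nil => exact ⟨[], cb2_nil, fun _ h => absurd h List.not_mem_nil⟩
    | cons i L ih =>
      obtain ⟨Θ, h1, h2⟩ := ih
      refine ⟨G i ++ Θ, (hG i).append h1, fun k hk => ?_⟩
      rcases List.mem_cons.1 hk with rfl | hk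
      · exact cb2_l (hG k) h1
      · exact (h2 k hk).trans (cb2_r (hG i) h1)
  have := Fintype.ofFinite ι
  obtain ⟨Θ, h1, h2⟩ := key Finset.univ.toList
  exact ⟨Θ, h1, fun i => h2 i (by simp)⟩

/-- choose realizers, append the finitely many contexts (for every triple `(m, a, b)`: `store_walk`, then one more storing constant) -/
theorem exists_base [Finite S] (hP : HWN P) : Nonempty (Base P) := by
  have h1 : ∀ l : Set S, ∃ (Γ : CCtx S) (D e F : CT S), GoodC P Γ ∧ (Lev P l → HL P 0 Γ D l ∧ Ty (colP P) Γ e D ∧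
      AnsT P F ∧ HL P 1 Γ F l) := fun l => by
    by_cases h : Lev P l
    · obtain ⟨Γ, D, e, F, h1, h2⟩ := realize h
      exact ⟨Γ, D, e, F, h1, fun _ => h2⟩
    · exact ⟨[], bv 0, bv 0, bv 0, cb2_nil, fun h' => absurd h' h⟩
  choose G D e F hG hR using h1
  have h2 : ∀ x : Set S × Set S × Set S, ∃ Γ : CCtx S, GoodC P Γ ∧ (Lev P x.1 → Reach P x.1 x.2.1 → Lev P x.2.1 →
      Lev P x.2.2 → (ot P x.2.1 x.2.2).Nonempty →
      ∀ Δ, Ext (colP P) Γ Δ → Inh (colP P) Δ (F x.1) → Inh (colP P) Δ (F x.2.2)) := by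
    rintro ⟨m, a, b⟩
    by_cases h : Lev P m ∧ Reach P m a ∧ Lev P b ∧ (ot P a b).Nonempty
    · obtain ⟨hm, ⟨p, hw⟩, hb, hne⟩ := h
      obtain ⟨Γ₁, E₁, g1, -, a1, l1, i1⟩ := store_walk hw hm (hG m) (hR m hm).2.2.1 (hR m hm).2.2.2
      obtain ⟨Γ₂, g2, e2, i2⟩ := cb2_store (g1.append (hG b)) a1 (hR b hb).2.2.1 (l1.ext (cb2_l g1 (hG b)))
        ((hR b hb).2.2.2.ext (cb2_r g1 (hG b))) hne
      exact ⟨Γ₂, g2, fun _ _ _ _ _ Δ hΔ hi => i2 Δ hΔ (i1 Δ (((cb2_l g1 (hG b)).trans e2).trans hΔ) hi)⟩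
    · exact ⟨[], cb2_nil, fun a1 a2 _ a3 a4 => absurd ⟨a1, a2, a3, a4⟩ h⟩
  choose G' hG' hS using h2
  obtain ⟨Θ, hΘ, hE⟩ := cb2_all (P := P) (Sum.elim G G') (by rintro (l | x); exacts [hG l, hG' x])
  exact ⟨⟨Θ, D, e, F, hΘ.1, fun l hl => (hR l hl).1.ext (hE (.inl l)), fun l hl => (hR l hl).2.1.ext (hE (.inl l)),
    fun l hl => (hR l hl).2.2.2.ext (hE (.inl l)),
    fun m a b a1 a2 a3 a4 a5 Δ hΔ => hS (m, a, b) a1 a2 a3 a4 a5 Δ ((hE (.inr (m, a, b))).trans hΔ),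
    fun l hl => no_ans hP hΘ.2 (hR l hl).2.2.1⟩⟩

/-! ### part c: Henkin chain -/

theorem colc_step {S' : Type} {P : Spec S'} {Γ : List (Atom S')} {bot : Tm S'} {s₀ : S'}
    (hb : Ty P Γ bot (srt s₀)) (hc : ¬ Inh P Γ bot) (K φ : Tm S') : ∃ Γ', Ext P Γ Γ' ∧ ¬ Inh P Γ' bot ∧
    ∀ s, Ty P Γ K (srt s) → (∀ Δ N, Ext P Γ Δ → Ty P Δ N K → ∃ s', Ty P Δ (inst N φ) (srt s')) →
      (∃ N, Ty P Γ' N K ∧ Inh P Γ' (inst N φ)) ∨
        ∀ Δ N, Ext P Γ Δ → Ty P Δ N K → Inh P Δ (inst N φ) → Inh P Δ bot := by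
  have hr : Ext P Γ Γ := ⟨hb.ok, fun _ h => h⟩
  by_cases H : ∃ s, Ty P Γ K (srt s) ∧ ∀ Δ N, Ext P Γ Δ → Ty P Δ N K → ∃ s', Ty P Δ (inst N φ) (srt s')
  swap
  · exact ⟨Γ, hr, hc, fun s h1 h2 => absurd ⟨s, h1, h2⟩ H⟩
  obtain ⟨s, hK, hφ⟩ := H
  let w : Atom S' := (max (cmx Γ) (mx φ), K)
  have hw : w ∉ Γ := not_mem_of_cmx (le_max_left _ _)
  have hwφ : ¬ Occ w φ := not_occ_of_mx (le_max_right _ _)
  have h1 : Ty P (w :: Γ) (atm w) K := Ty.start (a := w) hK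
  obtain ⟨s', h2⟩ := hφ (w :: Γ) (atm w) ⟨h1.ok, fun _ h => List.mem_cons_of_mem _ h⟩ h1
  let h : Atom S' := (cmx (w :: Γ), inst (atm w) φ)
  have hh : h ∉ w :: Γ := not_mem_of_cmx le_rfl
  have h3 : Ty P (h :: w :: Γ) (atm h) (inst (atm w) φ) := Ty.start (a := h) h2
  by_cases hI : Inh P (h :: w :: Γ) bot
  · refine ⟨Γ, hr, hc, fun _ _ _ => Or.inr fun Δ N hΔ hN ⟨t, ht⟩ => ?_⟩
    obtain ⟨u, hu⟩ := hI
    have m1 : Mor P Δ (w :: Γ) (vupd vr w N) := Mor.upd (Mor.id hΔ.1 hΔ.2) h1.ok hw (by rwa [sub_vr])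
    have m2 : Mor P Δ (h :: w :: Γ) (vupd (vupd vr w N) h t) :=
      Mor.upd m1 h3.ok hh (by
        change Ty P Δ t (sub _ (inst (atm w) φ))
        rw [sub_vupd_inst hwφ]
        exact ht)
    have h4 := hu.subst m2
    rw [sub_vupd fun ho => hh (List.mem_cons_of_mem _ (hb.occ (Or.inl ho))),
      sub_vupd fun ho => hw (hb.occ (Or.inl ho)), sub_vr] at h4
    exact ⟨_, h4⟩
  · exact ⟨h :: w :: Γ, ⟨h3.ok, fun _ h => List.mem_cons_of_mem _ (List.mem_cons_of_mem _ h)⟩, hI,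
      fun _ _ _ => Or.inl ⟨atm w, Ty.weak (a := h) h1 h2, _, h3⟩⟩

/-- enumerate the pairs `(K, φ)` so that each occurs infinitely often; at step `n` add fresh atoms `w : K`, `h : inst w φ` if the result is
legal and consistent.  If it is inconsistent substitute `N` for `w` and the given inhabitant for `h`. -/
theorem henkin {S' : Type} [Countable S'] {P : Spec S'} {Γ₀ : List (Atom S')} {bot : Tm S'} {s₀ : S'}
    (hb : Ty P Γ₀ bot (srt s₀)) (hc : ¬ Inh P Γ₀ bot) : ∃ Γ : ℕ → List (Atom S'), Γ 0 = Γ₀ ∧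
    (∀ m n, m ≤ n → Ext P (Γ m) (Γ n)) ∧ (∀ n, ¬ Inh P (Γ n) bot) ∧
    ∀ n K φ s, Ty P (Γ n) K (srt s) → (∀ Δ N, Ext P (Γ n) Δ → Ty P Δ N K → ∃ s', Ty P Δ (inst N φ) (srt s')) →
      (∃ m N, Ty P (Γ m) N K ∧ Inh P (Γ m) (inst N φ)) ∨
        ∃ m, n ≤ m ∧ ∀ Δ N, Ext P (Γ m) Δ → Ty P Δ N K → Inh P Δ (inst N φ) → Inh P Δ bot := by
  have : Nonempty (Tm S' × Tm S') := ⟨(bot, bot)⟩
  obtain ⟨e, he⟩ := exists_surjective_nat (Tm S' × Tm S')
  choose F hF using fun (G : {Γ : List (Atom S') // Ty P Γ bot (srt s₀) ∧ ¬ Inh P Γ bot}) (p : Tm S' × Tm S') =>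
    colc_step G.2.1 G.2.2 p.1 p.2
  let G : ℕ → {Γ : List (Atom S') // Ty P Γ bot (srt s₀) ∧ ¬ Inh P Γ bot} := fun n =>
    Nat.rec ⟨Γ₀, hb, hc⟩ (fun n G => ⟨F G (e n.unpair.1),
      G.2.1.thin (hF G _).1.1 (hF G _).1.2, (hF G _).2.1⟩) n
  have hG : ∀ n, (G (n + 1)).1 = F (G n) (e n.unpair.1) := fun _ => rfl
  have hmono : ∀ m n, m ≤ n → Ext P (G m).1 (G n).1 := by
    intro m n h
    induction n, h using Nat.le_induction with
    | base => exact ⟨(G m).2.1.ok, fun _ h => h⟩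
    | succ n _ ih => exact ⟨(G (n + 1)).2.1.ok, fun a ha => (hF (G n) _).1.2 a (ih.2 a ha)⟩
  refine ⟨fun n => (G n).1, rfl, hmono, fun n => (G n).2.2, fun n K φ s hK hφ => ?_⟩
  obtain ⟨i, hi⟩ := he (K, φ)
  have hn : n ≤ Nat.pair i n := Nat.right_le_pair i n
  have hE := hmono _ _ hn
  have h1 := (hF (G (Nat.pair i n)) (K, φ)).2.2 s (hK.thin hE.1 hE.2)
    fun Δ N hΔ hN => hφ Δ N ⟨hΔ.1, fun a ha => hΔ.2 a (hE.2 a ha)⟩ hN
  refine h1.imp (fun ⟨N, h2⟩ => ⟨Nat.pair i n + 1, N, ?_⟩) fun h2 => ⟨_, hn, h2⟩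
  show Ty P (G (Nat.pair i n + 1)).1 N K ∧ Inh P (G (Nat.pair i n + 1)).1 (inst N φ)
  rw [hG, Nat.unpair_pair, hi]
  exact h2

end Crest.Agent.R298
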