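import Crest.Agent.R298.X.Pow

/-!
# Row 298, paradox block.  The terms of the encoding.  `x` ranges over `Kt` (the impredicative variable), `U = Π x : Kt. P(P(P(P(H0 x))))`.
Naturality (`part a`) computes every `inst N body` (`bs_vcons`, `BS.up`, `sub_up_lift`, `sub_vcons_lift`, `sub_vr`).
-/

set_option autoImplicit false
set_option linter.unusedSectionVars false
set_option linter.unusedVariables false

namespace Crest.Agent.R298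

open scoped Classical
open Tm
open Crest.LogicCS.PTS (Spec)

variable {S : Type} {P : Spec S} {d : Set (Set S)} {M : Mdl P d}

/-- conversion between two power sets of `K` -/
def cvt (A B : FS S) (K z : CT S) : CT S := B.i K (A.o (lift K) (lift z) (bv 0))

namespace Kit

variable (k : Kit M)

def Ym (x : CT S) : CT S := k.H0 (k.de x)
def Y (x : CT S) : CT S := k.P1.F (k.Ym x)
def Y1 (x : CT S) : CT S := k.P2.F (k.Y x)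
def Cd (x : CT S) : CT S := k.P3.F (k.Y1 x)
def Bk (x : CT S) : CT S := k.P4.F (k.Cd x)
def Pt (x : CT S) : CT S := k.O1.F (k.Ym x)
def St (x : CT S) : CT S := k.O2.F (k.Y x)
def Fm (x : CT S) : CT S := k.O3.F (k.Y1 x)
def U : CT S := pi k.Kt (k.Bk (bv 0))
def PU : CT S := k.P5.F k.U
def TT : CT S := k.O5.F k.PU
def Ws : CT S := k.Oc.F k.U
def x0 : CT S := k.en (k.G k.U)
def cY (x w : CT S) : CT S := cvt k.O1 k.P1 (k.Ym x) w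
def dY (x y : CT S) : CT S := cvt k.P1 k.O1 (k.Ym x) y
def cS (x X : CT S) : CT S := cvt k.O2 k.P2 (k.Y x) X
def dS (x z : CT S) : CT S := cvt k.P2 k.O2 (k.Y x) z
def cF (x G : CT S) : CT S := cvt k.O3 k.P3 (k.Y1 x) G
def dF (x z : CT S) : CT S := cvt k.P3 k.O3 (k.Y1 x) z
def inS (x w X : CT S) : CT S := k.O2.o (k.Y x) X (k.cY x w)
def inF (x X G : CT S) : CT S := k.O3.o (k.Y1 x) G (k.cS x X)
def accU (x u z : CT S) : CT S := k.P4.o (k.Cd x) (app u x) z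
def sb (x X X' : CT S) : CT S :=
  M.nex k.q1 (k.Pt x) (M.cnj (k.inS (lift x) (bv 0) (lift X)) (M.neg (k.inS (lift x) (bv 0) (lift X'))))
def ssb (x X X' : CT S) : CT S := M.cnj (k.sb x X X') (M.neg (k.sb x X' X))
def rs (x G X : CT S) : CT S :=
  k.O3.i (k.Y1 x) (M.cnj (k.O3.o (k.Y1 (lift x)) (lift G) (bv 0)) (k.ssb (lift x) (k.dS (lift x) (bv 0)) (lift X)))
def fb (x t z : CT S) : CT S := k.O5.o k.PU t (k.P5.i k.U (k.accU (lift x) (bv 0) (lift z)))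
/-- decoding of a code -/
def ff (t : CT S) : CT S := lam k.Kt (k.P4.i (k.Cd (bv 0)) (k.fb (lift (bv 0)) (lift (lift t)) (bv 0)))
/-- the code of an element of `U` -/
def kp (u : CT S) : CT S := k.O5.i k.PU (k.P5.o k.U (bv 0) (lift u))
def inW (t V : CT S) : CT S := k.Oc.o k.U V (k.ff t)
def inP (t w : CT S) : CT S := k.O1.o (k.Ym k.x0) w (k.E.i k.U (k.ff t))
def sx (x t z : CT S) : CT S := M.nex k.q2 (k.St x) (M.cnj (k.inF (lift x) (bv 0) (k.dF (lift x) (lift z)))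
  (k.accU (lift x) (k.ff (lift t)) (k.cF (lift x) (k.rs (lift x) (k.dF (lift x) (lift z)) (bv 0)))))
def sy (x V z : CT S) : CT S := M.nex k.q5 k.TT (M.cnj (k.inW (bv 0) (lift V)) (k.sx (lift x) (bv 0) (lift z)))
def supU (V : CT S) : CT S := lam k.Kt (k.P4.i (k.Cd (bv 0)) (k.sy (lift (bv 0)) (lift (lift V)) (bv 0)))
def acc (t G : CT S) : CT S := k.accU k.x0 (k.ff t) (k.cF k.x0 G)
def sup (V : CT S) : CT S := k.kp (k.supU V)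
def res (G X : CT S) : CT S := k.rs k.x0 (k.dF k.x0 (k.cF k.x0 G)) X

/-! ### part a: naturality -/

theorem ena_bv0 {S' : Type} (σ : Sb S') : sub (up σ) (bv 0) = bv 0 := rfl

theorem nat_kinds : Nat1 k.Ym ∧ Nat1 k.Y ∧ Nat1 k.Y1 ∧ Nat1 k.Cd ∧ Nat1 k.Bk ∧ Nat1 k.Pt ∧ Nat1 k.St ∧ Nat1 k.Fm := by
  have h1 : Nat1 k.Ym := fun σ X h => by simp only [Ym, k.nH0 σ _ h, k.nde σ _ h]
  have h2 : Nat1 k.Y := fun σ X h => by simp only [Y, k.hP1.nF σ _ h, h1 σ _ h]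
  have h3 : Nat1 k.Y1 := fun σ X h => by simp only [Y1, k.hP2.nF σ _ h, h2 σ _ h]
  have h4 : Nat1 k.Cd := fun σ X h => by simp only [Cd, k.hP3.nF σ _ h, h3 σ _ h]
  exact ⟨h1, h2, h3, h4, fun σ X h => by simp only [Bk, k.hP4.nF σ _ h, h4 σ _ h],
    fun σ X h => by simp only [Pt, k.hO1.nF σ _ h, h1 σ _ h], fun σ X h => by simp only [St, k.hO2.nF σ _ h, h2 σ _ h],
    fun σ X h => by simp only [Fm, k.hO3.nF σ _ h, h3 σ _ h]⟩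

theorem nat_closed : Nat0 k.U ∧ Nat0 k.PU ∧ Nat0 k.TT ∧ Nat0 k.Ws ∧ Nat0 k.x0 := by
  have h1 : Nat0 k.U := fun σ h => by
    simp only [U, Tm.sub, k.nKt σ h, k.nat_kinds.2.2.2.2.1 _ _ h.up]; rfl
  have h2 : Nat0 k.PU := fun σ h => by simp only [PU, k.hP5.nF σ _ h, h1 σ h]
  exact ⟨h1, h2, fun σ h => by simp only [TT, k.hO5.nF σ _ h, h2 σ h], fun σ h => by simp only [Ws, k.hOc.nF σ _ h, h1 σ h],
    fun σ h => by simp only [x0, k.nen σ _ h, k.nG σ _ h, h1 σ h]⟩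

theorem ena_cvt {l m l' m' : Set S} {A B : FS S} (hA : IsO M l m A) (hB : IsO M l' m' B) : Nat2 (cvt A B) :=
  fun σ X Y h => by simp only [cvt, hB.ni σ _ _ h, hA.no _ _ _ _ h.up, sub_up_lift, ena_bv0]

theorem nat_cvt : Nat2 k.cY ∧ Nat2 k.dY ∧ Nat2 k.cS ∧ Nat2 k.dS ∧ Nat2 k.cF ∧ Nat2 k.dF := by
  obtain ⟨h1, h2, h3, -⟩ := k.nat_kinds
  refine ⟨fun σ X Y h => ?_, fun σ X Y h => ?_, fun σ X Y h => ?_, fun σ X Y h => ?_, fun σ X Y h => ?_,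
    fun σ X Y h => ?_⟩
  · simp only [cY, ena_cvt k.hO1 k.hP1 σ _ _ h, h1 σ _ h]
  · simp only [dY, ena_cvt k.hP1 k.hO1 σ _ _ h, h1 σ _ h]
  · simp only [cS, ena_cvt k.hO2 k.hP2 σ _ _ h, h2 σ _ h]
  · simp only [dS, ena_cvt k.hP2 k.hO2 σ _ _ h, h2 σ _ h]
  · simp only [cF, ena_cvt k.hO3 k.hP3 σ _ _ h, h3 σ _ h]
  · simp only [dF, ena_cvt k.hP3 k.hO3 σ _ _ h, h3 σ _ h]

theorem nat3 : Nat3 k.inS ∧ Nat3 k.inF ∧ Nat3 k.accU ∧ Nat3 k.sb ∧ Nat3 k.ssb ∧ Nat3 k.rs ∧ Nat3 k.fb := by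
  obtain ⟨h1, h2, h3, h4, h5, h6, h7, h8⟩ := k.nat_kinds
  obtain ⟨c1, c2, c3, c4, c5, c6⟩ := k.nat_cvt
  obtain ⟨u1, u2, u3, u4, u5⟩ := k.nat_closed
  have a1 : Nat3 k.inS := fun σ X Y Z h => by simp only [inS, k.hO2.no σ _ _ _ h, h2 σ _ h, c1 σ _ _ h]
  have a3 : Nat3 k.accU := fun σ X Y Z h => by simp only [accU, k.hP4.no σ _ _ _ h, h4 σ _ h, Tm.sub]
  have a4 : Nat3 k.sb := fun σ X Y Z h => by
    simp only [sb, M.nex_nat _ σ _ _ h, h6 σ _ h, M.cnj_nat _ _ _ h.up, M.neg_nat _ _ h.up, a1 _ _ _ _ h.up, sub_up_lift,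
      ena_bv0]
  have a5 : Nat3 k.ssb := fun σ X Y Z h => by simp only [ssb, M.cnj_nat σ _ _ h, M.neg_nat σ _ h, a4 σ _ _ _ h]
  refine ⟨a1, fun σ X Y Z h => ?_, a3, a4, a5, fun σ X Y Z h => ?_, fun σ X Y Z h => ?_⟩
  · simp only [inF, k.hO3.no σ _ _ _ h, h3 σ _ h, c3 σ _ _ h]
  · simp only [rs, k.hO3.ni σ _ _ h, h3 σ _ h, M.cnj_nat _ _ _ h.up, k.hO3.no _ _ _ _ h.up, h3 _ _ h.up, a5 _ _ _ _ h.up,
      c4 _ _ _ h.up, sub_up_lift, ena_bv0]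
  · simp only [fb, k.hO5.no σ _ _ _ h, u2 σ h, k.hP5.ni σ _ _ h, u1 σ h, a3 _ _ _ _ h.up, sub_up_lift, ena_bv0]

theorem nat4 : Nat1 k.ff ∧ Nat1 k.kp ∧ Nat2 k.inW ∧ Nat2 k.inP ∧ Nat3 k.sx ∧ Nat3 k.sy ∧ Nat1 k.supU ∧ Nat2 k.acc ∧
    Nat1 k.sup ∧ Nat2 k.res := by
  obtain ⟨h1, h2, h3, h4, h5, h6, h7, h8⟩ := k.nat_kinds
  obtain ⟨c1, c2, c3, c4, c5, c6⟩ := k.nat_cvt
  obtain ⟨u1, u2, u3, u4, u5⟩ := k.nat_closed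
  obtain ⟨a1, a2, a3, a4, a5, a6, a7⟩ := k.nat3
  have l1 : ∀ (σ : Sb (S × Fin 3)) (A B : CT S), sub σ (lam A B) = lam (sub σ A) (sub (up σ) B) := fun _ _ _ => rfl
  have b1 : Nat1 k.ff := fun σ X h => by
    simp only [ff, l1, k.nKt σ h, k.hP4.ni _ _ _ h.up, h4 _ _ h.up, a7 _ _ _ _ h.up.up, sub_up_lift, ena_bv0]
  have b2 : Nat1 k.kp := fun σ X h => by
    simp only [kp, k.hO5.ni σ _ _ h, u2 σ h, k.hP5.no _ _ _ _ h.up, u1 _ h.up, sub_up_lift, ena_bv0]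
  have b3 : Nat2 k.inW := fun σ X Y h => by simp only [inW, k.hOc.no σ _ _ _ h, u1 σ h, b1 σ _ h]
  have b5 : Nat3 k.sx := fun σ X Y Z h => by
    simp only [sx, M.nex_nat _ σ _ _ h, h7 σ _ h, M.cnj_nat _ _ _ h.up, a2 _ _ _ _ h.up, a3 _ _ _ _ h.up, c6 _ _ _ h.up,
      c5 _ _ _ h.up, a6 _ _ _ _ h.up, b1 _ _ h.up, sub_up_lift, ena_bv0]
  have b6 : Nat3 k.sy := fun σ X Y Z h => by
    simp only [sy, M.nex_nat _ σ _ _ h, u3 σ h, M.cnj_nat _ _ _ h.up, b3 _ _ _ h.up, b5 _ _ _ _ h.up, sub_up_lift, ena_bv0]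
  have b7 : Nat1 k.supU := fun σ X h => by
    simp only [supU, l1, k.nKt σ h, k.hP4.ni _ _ _ h.up, h4 _ _ h.up, b6 _ _ _ _ h.up.up, sub_up_lift, ena_bv0]
  refine ⟨b1, b2, b3, fun σ X Y h => ?_, b5, b6, b7, fun σ X Y h => ?_, fun σ X h => ?_, fun σ X Y h => ?_⟩
  · simp only [inP, k.hO1.no σ _ _ _ h, h1 σ _ h, u5 σ h, k.hE.ni σ _ _ h, u1 σ h, b1 σ _ h]
  · simp only [acc, a3 σ _ _ _ h, u5 σ h, b1 σ _ h, c5 σ _ _ h]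
  · simp only [sup, b2 σ _ h, b7 σ _ h]
  · simp only [res, a6 σ _ _ _ h, u5 σ h, c6 σ _ _ h, c5 σ _ _ h]

end Kit

/-! ### part b: typing -/

theorem encb_inst1 {H : CT S → CT S} (h : Nat1 H) (N : CT S) : inst N (H (bv 0)) = H N := h _ _ (bs_vcons N)

theorem encb_inst {H : CT S → CT S → CT S → CT S} (h : Nat3 H) (K z N : CT S) :
    inst N (H (lift K) (lift z) (bv 0)) = H K z N := by
  rw [inst, h _ _ _ _ (bs_vcons N), sub_vcons_lift, sub_vcons_lift, sub_vr, sub_vr]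
  rfl

theorem encb_inst' {H : CT S → CT S → CT S → CT S} (h : Nat3 H) (K z N : CT S) :
    inst N (H (lift K) (bv 0) (lift z)) = H K N z := by
  rw [inst, h _ _ _ _ (bs_vcons N), sub_vcons_lift, sub_vcons_lift, sub_vr, sub_vr]
  rfl

theorem encb_pb {l m : Set S} {A : FS S} (hA : IsO M l m A) {Δ : CCtx S} {K z : CT S} (hΔ : M.Ex Δ)
    (hK : HL P 0 Δ K l) (hz : Ty (colP P) Δ z (A.F K)) : M.PB Δ K (A.o (lift K) (lift z) (bv 0)) := fun Δ' N hE hN => by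
  rw [encb_inst hA.no]
  exact hA.to' Δ' K z N (hΔ.trans hE) (hK.ext hE) (hz.ext hE) hN

theorem cvt_ty {l m m' : Set S} {A B : FS S} (hA : IsO M l m A) (hB : IsO M l m' B) {Δ : CCtx S} {K z : CT S} (hΔ : M.Ex Δ)
    (hK : HL P 0 Δ K l) (hz : Ty (colP P) Δ z (A.F K)) : Ty (colP P) Δ (cvt A B K z) (B.F K) := by
  exact hB.ti Δ K _ hΔ hK (encb_pb hA hΔ hK hz)

theorem cvt_tr {l m m' : Set S} {A B : FS S} (hA : IsO M l m A) (hB : IsO M l m' B) {n : ℕ} {K z N : CT S}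
    (hK : HL P 0 (M.Γ n) K l) (hz : Ty (colP P) (M.Γ n) z (A.F K)) (hN : Ty (colP P) (M.Γ n) N K) :
    M.Tr (B.o K (cvt A B K z) N) ↔ M.Tr (A.o K z N) := by
  rw [← encb_inst hA.no K z N]
  exact hB.tr n K N _ hK hN (encb_pb hA (M.ex_n n) hK hz)

namespace Kit

variable (k : Kit M) {Δ : CCtx S} {x u t z w y X X' G V : CT S}

theorem ty_kinds (hΔ : M.Ex Δ) (hx : Ty (colP P) Δ x k.Kt) : HL P 0 Δ (k.Ym x) k.l1 ∧ HL P 0 Δ (k.Y x) k.l2 ∧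
    HL P 0 Δ (k.Y1 x) k.l3 ∧ HL P 0 Δ (k.Cd x) k.l4 ∧ HL P 0 Δ (k.Bk x) k.b ∧ HL P 0 Δ (k.Pt x) k.q1 ∧
    HL P 0 Δ (k.St x) k.q2 ∧ HL P 0 Δ (k.Fm x) k.q3 := by
  have h1 : HL P 0 Δ (k.Ym x) k.l1 := k.tH0 Δ _ hΔ (k.tde Δ x hΔ hx)
  have h2 : HL P 0 Δ (k.Y x) k.l2 := k.hP1.tF Δ _ hΔ h1
  have h3 : HL P 0 Δ (k.Y1 x) k.l3 := k.hP2.tF Δ _ hΔ h2
  have h4 : HL P 0 Δ (k.Cd x) k.l4 := k.hP3.tF Δ _ hΔ h3
  exact ⟨h1, h2, h3, h4, k.hP4.tF Δ _ hΔ h4, k.hO1.tF Δ _ hΔ h1, k.hO2.tF Δ _ hΔ h2, k.hO3.tF Δ _ hΔ h3⟩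

theorem ty_closed (hΔ : M.Ex Δ) : HL P 0 Δ k.U (ot P k.a k.b) ∧ HL P 0 Δ k.PU k.l5 ∧ HL P 0 Δ k.TT k.q5 ∧
    HL P 0 Δ k.Ws k.qc ∧ Ty (colP P) Δ k.x0 k.Kt := by
  have h1 : HL P 0 Δ k.U (ot P k.a k.b) := HL.pi (k.tKt Δ hΔ) (fun Δ' N hE hN => by
    rw [encb_inst1 k.nat_kinds.2.2.2.2.1]
    exact (k.ty_kinds (hΔ.trans hE) hN).2.2.2.2.1) (by decide)
  have h2 : HL P 0 Δ k.PU k.l5 := k.hP5.tF Δ _ hΔ h1
  exact ⟨h1, h2, k.hO5.tF Δ _ hΔ h2, k.hOc.tF Δ _ hΔ h1, k.ten Δ _ hΔ (k.tG Δ _ hΔ h1)⟩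

theorem ty_cY (hΔ : M.Ex Δ) (hx : Ty (colP P) Δ x k.Kt) (h : Ty (colP P) Δ w (k.Pt x)) : Ty (colP P) Δ (k.cY x w) (k.Y x) := by
  exact cvt_ty k.hO1 k.hP1 hΔ (k.ty_kinds hΔ hx).1 h

theorem ty_dY (hΔ : M.Ex Δ) (hx : Ty (colP P) Δ x k.Kt) (h : Ty (colP P) Δ y (k.Y x)) : Ty (colP P) Δ (k.dY x y) (k.Pt x) := by
  exact cvt_ty k.hP1 k.hO1 hΔ (k.ty_kinds hΔ hx).1 h

theorem ty_cS (hΔ : M.Ex Δ) (hx : Ty (colP P) Δ x k.Kt) (h : Ty (colP P) Δ X (k.St x)) : Ty (colP P) Δ (k.cS x X) (k.Y1 x) := by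
  exact cvt_ty k.hO2 k.hP2 hΔ (k.ty_kinds hΔ hx).2.1 h

theorem ty_dS (hΔ : M.Ex Δ) (hx : Ty (colP P) Δ x k.Kt) (h : Ty (colP P) Δ z (k.Y1 x)) : Ty (colP P) Δ (k.dS x z) (k.St x) := by
  exact cvt_ty k.hP2 k.hO2 hΔ (k.ty_kinds hΔ hx).2.1 h

theorem ty_cF (hΔ : M.Ex Δ) (hx : Ty (colP P) Δ x k.Kt) (h : Ty (colP P) Δ G (k.Fm x)) : Ty (colP P) Δ (k.cF x G) (k.Cd x) := by
  exact cvt_ty k.hO3 k.hP3 hΔ (k.ty_kinds hΔ hx).2.2.1 h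

theorem ty_dF (hΔ : M.Ex Δ) (hx : Ty (colP P) Δ x k.Kt) (h : Ty (colP P) Δ z (k.Cd x)) : Ty (colP P) Δ (k.dF x z) (k.Fm x) := by
  exact cvt_ty k.hP3 k.hO3 hΔ (k.ty_kinds hΔ hx).2.2.1 h

theorem ty_inS (hΔ : M.Ex Δ) (hx : Ty (colP P) Δ x k.Kt) (h : Ty (colP P) Δ w (k.Pt x)) (h' : Ty (colP P) Δ X (k.St x)) :
    M.Pr Δ (k.inS x w X) := by
  exact k.hO2.to' Δ _ _ _ hΔ (k.ty_kinds hΔ hx).2.1 h' (k.ty_cY hΔ hx h)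

theorem ty_inF (hΔ : M.Ex Δ) (hx : Ty (colP P) Δ x k.Kt) (h : Ty (colP P) Δ X (k.St x)) (h' : Ty (colP P) Δ G (k.Fm x)) :
    M.Pr Δ (k.inF x X G) := by
  exact k.hO3.to' Δ _ _ _ hΔ (k.ty_kinds hΔ hx).2.2.1 h' (k.ty_cS hΔ hx h)

theorem ty_accU (hΔ : M.Ex Δ) (hx : Ty (colP P) Δ x k.Kt) (h : Ty (colP P) Δ u k.U) (h' : Ty (colP P) Δ z (k.Cd x)) :
    M.Pr Δ (k.accU x u z) := by
  have h1 := Ty.appl h hx
  rw [encb_inst1 k.nat_kinds.2.2.2.2.1] at h1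
  exact k.hP4.to' Δ _ _ _ hΔ (k.ty_kinds hΔ hx).2.2.2.1 h1 h'

theorem ty_sb (hΔ : M.Ex Δ) (hx : Ty (colP P) Δ x k.Kt) (h : Ty (colP P) Δ X (k.St x)) (h' : Ty (colP P) Δ X' (k.St x)) :
    M.Pr Δ (k.sb x X X') := by
  refine M.nex_ty _ Δ _ _ k.hq1 hΔ (k.ty_kinds hΔ hx).2.2.2.2.2.1 fun Δ' N hE hN => ?_
  have e := hΔ.trans hE
  rw [inst, M.cnj_nat _ _ _ (bs_vcons N), M.neg_nat _ _ (bs_vcons N), ← inst, ← inst, encb_inst' k.nat3.1,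
    encb_inst' k.nat3.1]
  exact M.cnj_ty _ _ _ e (k.ty_inS e (hx.ext hE) hN (h.ext hE)) (M.neg_ty _ _ e (k.ty_inS e (hx.ext hE) hN (h'.ext hE)))

theorem ty_ssb (hΔ : M.Ex Δ) (hx : Ty (colP P) Δ x k.Kt) (h : Ty (colP P) Δ X (k.St x)) (h' : Ty (colP P) Δ X' (k.St x)) :
    M.Pr Δ (k.ssb x X X') := by
  exact M.cnj_ty _ _ _ hΔ (k.ty_sb hΔ hx h h') (M.neg_ty _ _ hΔ (k.ty_sb hΔ hx h' h))

theorem ty_rs (hΔ : M.Ex Δ) (hx : Ty (colP P) Δ x k.Kt) (h : Ty (colP P) Δ G (k.Fm x)) (h' : Ty (colP P) Δ X (k.St x)) :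
    Ty (colP P) Δ (k.rs x G X) (k.Fm x) := by
  refine k.hO3.ti Δ _ _ hΔ (k.ty_kinds hΔ hx).2.2.1 fun Δ' N hE hN => ?_
  have e := hΔ.trans hE
  have b := bs_vcons N
  rw [inst, M.cnj_nat _ _ _ b, k.hO3.no _ _ _ _ b, k.nat_kinds.2.2.1 _ _ b, k.nat3.2.2.2.2.1 _ _ _ _ b,
    k.nat_cvt.2.2.2.1 _ _ _ b]
  simp only [sub_vcons_lift, sub_vr]
  exact M.cnj_ty _ _ _ e (k.hO3.to' _ _ _ _ e (k.ty_kinds e (hx.ext hE)).2.2.1 (h.ext hE) hN)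
    (k.ty_ssb e (hx.ext hE) (k.ty_dS e (hx.ext hE) hN) (h'.ext hE))

/-! ### part c: typing, continued -/

theorem ty_fb (hΔ : M.Ex Δ) (hx : Ty (colP P) Δ x k.Kt) (h : Ty (colP P) Δ t k.TT) (h' : Ty (colP P) Δ z (k.Cd x)) :
    M.Pr Δ (k.fb x t z) := by
  refine k.hO5.to' Δ _ _ _ hΔ (k.ty_closed hΔ).2.1 h (k.hP5.ti Δ _ _ hΔ (k.ty_closed hΔ).1 fun Δ' N hE hN => ?_)
  rw [encb_inst' k.nat3.2.2.1]
  exact k.ty_accU (hΔ.trans hE) (hx.ext hE) hN (h'.ext hE)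

theorem encc_lam {H : CT S → CT S → CT S → CT S} (hH : Nat3 H) (hΔ : M.Ex Δ)
    (h : ∀ Δ' x z, Ext (colP P) Δ Δ' → Ty (colP P) Δ' x k.Kt → Ty (colP P) Δ' z (k.Cd x) → M.Pr Δ' (H x t z)) :
    Ty (colP P) Δ (lam k.Kt (k.P4.i (k.Cd (bv 0)) (H (lift (bv 0)) (lift (lift t)) (bv 0)))) k.U := by
  obtain ⟨s, hs⟩ := k.c_ne
  refine ty_lam ((k.ty_closed hΔ).1 s hs) fun Δ' N hE hN => ?_
  have e := hΔ.trans hE
  have b := bs_vcons N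
  rw [encb_inst1 k.nat_kinds.2.2.2.2.1, inst, k.hP4.ni _ _ _ b, k.nat_kinds.2.2.2.1 _ _ b, hH _ _ _ _ b.up, sub_up_lift,
    sub_up_lift, sub_vcons_lift, sub_vr, ena_bv0]
  refine k.hP4.ti Δ' (k.Cd N) (H (lift N) (lift t) (bv 0)) e (k.ty_kinds e hN).2.2.2.1 fun Δ'' N' hE' hN' => ?_
  rw [encb_inst hH]
  exact h Δ'' N N' (hE.trans hE') (hN.ext hE') hN'

/-- `ty_lam` -/
theorem ty_ff (hΔ : M.Ex Δ) (h : Ty (colP P) Δ t k.TT) : Ty (colP P) Δ (k.ff t) k.U := by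
  exact k.encc_lam k.nat3.2.2.2.2.2.2 hΔ fun Δ' x z hE hx hz => k.ty_fb (hΔ.trans hE) hx (h.ext hE) hz

theorem ty_kp (hΔ : M.Ex Δ) (h : Ty (colP P) Δ u k.U) : Ty (colP P) Δ (k.kp u) k.TT := by
  refine k.hO5.ti Δ _ _ hΔ (k.ty_closed hΔ).2.1 fun Δ' N hE hN => ?_
  have e := hΔ.trans hE
  have b := bs_vcons N
  rw [inst, k.hP5.no _ _ _ _ b, k.nat_closed.1 _ b, sub_vcons_lift, sub_vr]
  exact k.hP5.to' Δ' _ _ _ e (k.ty_closed e).1 hN (h.ext hE)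

theorem ty_inW (hΔ : M.Ex Δ) (h : Ty (colP P) Δ t k.TT) (h' : Ty (colP P) Δ V k.Ws) : M.Pr Δ (k.inW t V) := by
  exact k.hOc.to' Δ _ _ _ hΔ (k.ty_closed hΔ).1 h' (k.ty_ff hΔ h)

/-- `Ym x0` is convertible to `E.F U` (`de_en`, `EF`, `Nat1.cv`), both are typed (`l1_ne`) -/
theorem ty_conv (hΔ : M.Ex Δ) : Ty (colP P) Δ z (k.Ym k.x0) ↔ Ty (colP P) Δ z (k.E.F k.U) := by
  obtain ⟨s, hs⟩ := k.l1_ne
  have hc : Cv (k.Ym k.x0) (k.E.F k.U) := by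
    rw [k.EF]
    exact k.nH0.cv (k.de_en _)
  exact ⟨fun h => Ty.conv h (k.hE.tF Δ _ hΔ (k.ty_closed hΔ).1 s hs) hc,
    fun h => Ty.conv h ((k.ty_kinds hΔ (k.ty_closed hΔ).2.2.2.2).1 s hs) (.symm _ _ hc)⟩

theorem ty_inP (hΔ : M.Ex Δ) (h : Ty (colP P) Δ t k.TT) (h' : Ty (colP P) Δ w (k.Pt k.x0)) : M.Pr Δ (k.inP t w) := by
  exact k.hO1.to' Δ _ _ _ hΔ (k.ty_kinds hΔ (k.ty_closed hΔ).2.2.2.2).1 h'
    ((k.ty_conv hΔ).2 (k.hE.ti Δ _ _ hΔ (k.ty_closed hΔ).1 (k.ty_ff hΔ h)))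

theorem ty_sx (hΔ : M.Ex Δ) (hx : Ty (colP P) Δ x k.Kt) (h : Ty (colP P) Δ t k.TT) (h' : Ty (colP P) Δ z (k.Cd x)) :
    M.Pr Δ (k.sx x t z) := by
  refine M.nex_ty _ Δ _ _ k.hq2 hΔ (k.ty_kinds hΔ hx).2.2.2.2.2.2.1 fun Δ' N hE hN => ?_
  have e := hΔ.trans hE
  have b := bs_vcons N
  have hx' := hx.ext hE
  have hz := k.ty_dF e hx' (h'.ext hE)
  rw [inst, M.cnj_nat _ _ _ b, k.nat3.2.1 _ _ _ _ b, k.nat3.2.2.1 _ _ _ _ b, k.nat_cvt.2.2.2.2.1 _ _ _ b,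
    k.nat3.2.2.2.2.2.1 _ _ _ _ b, k.nat_cvt.2.2.2.2.2 _ _ _ b, k.nat4.1 _ _ b]
  simp only [sub_vcons_lift, sub_vr]
  exact M.cnj_ty _ _ _ e (k.ty_inF e hx' hN hz)
    (k.ty_accU e hx' (k.ty_ff e (h.ext hE)) (k.ty_cF e hx' (k.ty_rs e hx' hz hN)))

theorem ty_sy (hΔ : M.Ex Δ) (hx : Ty (colP P) Δ x k.Kt) (h : Ty (colP P) Δ V k.Ws) (h' : Ty (colP P) Δ z (k.Cd x)) :
    M.Pr Δ (k.sy x V z) := by
  refine M.nex_ty _ Δ _ _ k.hq5 hΔ (k.ty_closed hΔ).2.2.1 fun Δ' N hE hN => ?_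
  have e := hΔ.trans hE
  have b := bs_vcons N
  rw [inst, M.cnj_nat _ _ _ b, k.nat4.2.2.1 _ _ _ b, k.nat4.2.2.2.2.1 _ _ _ _ b]
  simp only [sub_vcons_lift, sub_vr]
  exact M.cnj_ty _ _ _ e (k.ty_inW e hN (h.ext hE)) (k.ty_sx e (hx.ext hE) hN (h'.ext hE))

theorem ty_supU (hΔ : M.Ex Δ) (h : Ty (colP P) Δ V k.Ws) : Ty (colP P) Δ (k.supU V) k.U := by
  exact k.encc_lam k.nat4.2.2.2.2.2.1 hΔ fun Δ' x z hE hx hz => k.ty_sy (hΔ.trans hE) hx (h.ext hE) hz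

theorem ty_acc (hΔ : M.Ex Δ) (h : Ty (colP P) Δ t k.TT) (h' : Ty (colP P) Δ G (k.Fm k.x0)) : M.Pr Δ (k.acc t G) := by
  have hx := (k.ty_closed hΔ).2.2.2.2
  exact k.ty_accU hΔ hx (k.ty_ff hΔ h) (k.ty_cF hΔ hx h')

theorem ty_sup (hΔ : M.Ex Δ) (h : Ty (colP P) Δ V k.Ws) : Ty (colP P) Δ (k.sup V) k.TT := by
  exact k.ty_kp hΔ (k.ty_supU hΔ h)

theorem ty_res (hΔ : M.Ex Δ) (h : Ty (colP P) Δ G (k.Fm k.x0)) (h' : Ty (colP P) Δ X (k.St k.x0)) :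
    Ty (colP P) Δ (k.res G X) (k.Fm k.x0) := by
  have hx := (k.ty_closed hΔ).2.2.2.2
  exact k.ty_rs hΔ hx (k.ty_dF hΔ hx (k.ty_cF hΔ hx h)) h'

end Kit

end Crest.Agent.R298
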