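import Crest.Agent.R298.X.Col

/-!
# Row 298, paradox block.  In a component with an odd cycle and a binary rule the propositions of a fixed level `p` carry classical logic
in the term model of a Henkin chain.
-/

set_option autoImplicit false
set_option linter.unusedSectionVars false
set_option linter.unusedVariables false

namespace Crest.Agent.R298

open scoped Classical
open Tm
open Crest.LogicCS.PTS (Spec)

variable {S : Type}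

/-- substitutions of bound variables -/
def BS {S' : Type} (σ : Sb S') : Prop := ∀ a, σ (.inr a) = atm a
def Nat0 {S' : Type} (M : Tm S') : Prop := ∀ σ, BS σ → sub σ M = M
def Nat1 {S' : Type} (H : Tm S' → Tm S') : Prop := ∀ σ X, BS σ → sub σ (H X) = H (sub σ X)
def Nat2 {S' : Type} (H : Tm S' → Tm S' → Tm S') : Prop := ∀ σ X Y, BS σ → sub σ (H X Y) = H (sub σ X) (sub σ Y)
def Nat3 {S' : Type} (H : Tm S' → Tm S' → Tm S' → Tm S') : Prop :=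
  ∀ σ X Y Z, BS σ → sub σ (H X Y Z) = H (sub σ X) (sub σ Y) (sub σ Z)
/-- the last argument is under a binder -/
def Nat2b {S' : Type} (H : Tm S' → Tm S' → Tm S') : Prop := ∀ σ X Y, BS σ → sub σ (H X Y) = H (sub σ X) (sub (up σ) Y)
def Nat3b {S' : Type} (H : Tm S' → Tm S' → Tm S' → Tm S') : Prop :=
  ∀ σ X Y Z, BS σ → sub σ (H X Y Z) = H (sub σ X) (sub σ Y) (sub (up σ) Z)

section
variable {S' : Type}

theorem BS.up {σ : Sb S'} (h : BS σ) : BS (up σ) := by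
  intro a
  show lift (σ (.inr a)) = atm a
  rw [h a]
  rfl

theorem bs_vcons (N : Tm S') : BS (vcons N vr) := by
  exact fun _ => rfl

theorem Ty.nat0 {P : Spec S'} {Γ : List (Atom S')} {M A : Tm S'} (h : Ty P Γ M A) : Nat0 M := by
  exact h.lc.1

/-- `H X = inst X (H (bv 0))` -/
theorem Nat1.cv {H : Tm S' → Tm S'} (h : Nat1 H) {X X' : Tm S'} (hc : Cv X X') : Cv (H X) (H X') := by
  have e : ∀ X, H X = sub (vcons X vr) (H (bv 0)) := fun X => (h _ (bv 0) (bs_vcons X)).symm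
  rw [e X, e X']
  exact cv_sub_args (b1_vcons (R := Cv) (fun _ => .refl _) hc) _

theorem Nat3.cv {H : Tm S' → Tm S' → Tm S' → Tm S'} (h : Nat3 H) {X X' Y Y' Z Z' : Tm S'} (h1 : Cv X X') (h2 : Cv Y Y')
    (h3 : Cv Z Z') : Cv (H X Y Z) (H X' Y' Z') := by
  have e : ∀ X Y Z, H X Y Z = sub (vcons X (vcons Y (vcons Z vr))) (H (bv 0) (bv 1) (bv 2)) := fun X Y Z =>
    (h (vcons X (vcons Y (vcons Z vr))) (bv 0) (bv 1) (bv 2) fun _ => rfl).symm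
  rw [e X Y Z, e X' Y' Z']
  refine cv_sub_args (fun x => ?_) _
  rcases x with (_ | _ | _ | i) | a
  · exact h1
  · exact h2
  · exact h3
  · exact .refl _
  · exact .refl _

/-- `H X Y Z = sub (vcons Y ..) (H (lift X) (bv 0) (sub (up lift) Z))` -/
theorem Nat3b.cv {H : Tm S' → Tm S' → Tm S' → Tm S'} (h : Nat3b H) (X : Tm S') {Y Y' : Tm S'} (h2 : Cv Y Y') (Z : Tm S') :
    Cv (H X Y Z) (H X Y' Z) := by
  have e : ∀ Y, H X Y Z = sub (vcons Y vr) (H (lift X) (bv 0) (sub (up fun x => lift (vr x)) Z)) := by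
    intro Y
    rw [h _ _ _ _ (bs_vcons Y), sub_vcons_lift, sub_vr, sub_sub, sa_up_up]
    simp only [sub_vcons_lift, sub_vr]
    rw [show (up fun x => vr x : Sb S') = vr from sa_up_vr, sub_vr]
    rfl
  rw [e Y, e Y']
  exact cv_sub_args (b1_vcons (R := Cv) (fun _ => .refl _) h2) _

end

structure Mdl (P : Spec S) (d : Set (Set S)) where
  Γ : ℕ → CCtx S
  p : Set S
  Dd : Set S → CT S
  dd : Set S → CT S
  neg : CT S → CT S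
  cnj : CT S → CT S → CT S
  nex : Set S → CT S → CT S → CT S
  upp : S → CT S → CT S
  dwn : S → CT S → CT S
  mono : ∀ m n, m ≤ n → Ext (colP P) (Γ m) (Γ n)
  p_ne : p.Nonempty
  Dd_ty : ∀ l, Lev P l → HL P 0 (Γ 0) (Dd l) l
  dd_ty : ∀ l, Lev P l → Ty (colP P) (Γ 0) (dd l) (Dd l)
  neg_nat : Nat1 neg
  cnj_nat : Nat2 cnj
  nex_nat : ∀ q, Nat2b (nex q)
  upp_nat : ∀ r, Nat1 (upp r)
  dwn_nat : ∀ r, Nat1 (dwn r)
  neg_ty : ∀ Δ X, Ext (colP P) (Γ 0) Δ → HL P 1 Δ X p → HL P 1 Δ (neg X) p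
  cnj_ty : ∀ Δ X Y, Ext (colP P) (Γ 0) Δ → HL P 1 Δ X p → HL P 1 Δ Y p → HL P 1 Δ (cnj X Y) p
  nex_ty : ∀ q Δ K φ, Qn P d q → Ext (colP P) (Γ 0) Δ → HL P 0 Δ K q →
    (∀ Δ' N, Ext (colP P) Δ Δ' → Ty (colP P) Δ' N K → HL P 1 Δ' (inst N φ) p) → HL P 1 Δ (nex q K φ) p
  upp_ty : ∀ r Δ X, Rs P d r → Ext (colP P) (Γ 0) Δ → HL P 1 Δ X p → Ty (colP P) Δ (upp r X) (srt (r, 1))
  dwn_ty : ∀ r Δ Z, Rs P d r → Ext (colP P) (Γ 0) Δ → Ty (colP P) Δ Z (srt (r, 1)) → HL P 1 Δ (dwn r Z) p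
  neg_tr : ∀ n X, HL P 1 (Γ n) X p → ((∃ k, Inh (colP P) (Γ k) (neg X)) ↔ ¬ ∃ k, Inh (colP P) (Γ k) X)
  cnj_tr : ∀ n X Y, HL P 1 (Γ n) X p → HL P 1 (Γ n) Y p →
    ((∃ k, Inh (colP P) (Γ k) (cnj X Y)) ↔ (∃ k, Inh (colP P) (Γ k) X) ∧ ∃ k, Inh (colP P) (Γ k) Y)
  nex_tr : ∀ q n K φ, Qn P d q → HL P 0 (Γ n) K q →
    (∀ Δ' N, Ext (colP P) (Γ n) Δ' → Ty (colP P) Δ' N K → HL P 1 Δ' (inst N φ) p) →
    ((∃ k, Inh (colP P) (Γ k) (nex q K φ)) ↔ ¬ ∃ N, (∃ k, Ty (colP P) (Γ k) N K) ∧ ∃ k, Inh (colP P) (Γ k) (inst N φ))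
  updn_tr : ∀ r n X, Rs P d r → HL P 1 (Γ n) X p →
    ((∃ k, Inh (colP P) (Γ k) (dwn r (upp r X))) ↔ ∃ k, Inh (colP P) (Γ k) X)

variable {P : Spec S} {d D : Set (Set S)}

theorem walk_par (hs : Stage P d D) (ho : OddC P d) {a b : Set S} (ha : a ∈ d) (hb : b ∈ d) (p : Bool) : WA P p a b := by
  obtain ⟨l, hl, hw⟩ := ho
  obtain ⟨q, h1⟩ := hs.reach ha hl
  obtain ⟨r, h2⟩ := hs.reach hl hb
  have w1 := Wk.trans h1 h2
  have w2 := Wk.trans (Wk.trans h1 hw) h2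
  cases p <;> cases q <;> cases r <;> first | exact w1 | exact w2

/-- refuted in all extensions -/
def Ref (P : Spec S) (bot : CT S) (Δ : CCtx S) (X : CT S) : Prop :=
  ∀ Δ', Ext (colP P) Δ Δ' → Inh (colP P) Δ' X → Inh (colP P) Δ' bot

theorem mdla_arr_inh {S' : Type} {P : Spec S'} {Δ : List (Atom S')} {A Y : Tm S'} {s : S'} (h : Ty P Δ (arr A Y) (srt s))
    (hY : ∀ Δ', Ext P Δ Δ' → Inh P Δ' A → Inh P Δ' Y) : Inh P Δ (arr A Y) := by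
  refine inh_pi h fun Δ' N hΔ hN => ?_
  rw [inst_lift]
  exact hY Δ' hΔ ⟨N, hN⟩

theorem mdla_inh_ext {S' : Type} {P : Spec S'} {Δ Δ' : List (Atom S')} {A : Tm S'} (h : Inh P Δ A) (h' : Ext P Δ Δ') :
    Inh P Δ' A := by
  obtain ⟨t, ht⟩ := h
  exact ⟨t, ht.ext h'⟩

theorem mdla_mp {S' : Type} {P : Spec S'} {Δ : List (Atom S')} {A Y : Tm S'} (h : Inh P Δ (arr A Y)) (h' : Inh P Δ A) :
    Inh P Δ Y := by
  obtain ⟨t, ht⟩ := h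
  obtain ⟨u, hu⟩ := h'
  exact ⟨_, ht.arr_elim hu⟩

theorem mdla_nat0 {j : Fin 3} {Δ : CCtx S} {K : CT S} {l : Set S} (h : HL P j Δ K l) (hl : Lev P l) : Nat0 K := by
  obtain ⟨s, hs⟩ := hl.nonempty
  exact (h s hs).nat0

/-- a walk inside `d` as a modality on propositions: `pos`: `arr (Dd a) ·`, `cum`: identity, `neg a → ot a b`: `arr · (Ans b)`.
The answer types `Ans b` and `bot = Ans b₀` are interderivable by `B.exf` (`b → ot a b ∈ d` reaches `a₀`, `b₀` reaches `a`). -/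
theorem walk_logic (hs : Stage P d D) (B : Base P) {a₀ b₀ : Set S} (h1 : a₀ ∈ d) (h2 : b₀ ∈ d) (h3 : Lev P a₀) (h4 : Lev P b₀)
    (h5 : (ot P a₀ b₀).Nonempty) {p : Bool} {l m : Set S} (hl : l ∈ d) (hm : m ∈ d) (hw : WA P p l m) :
    ∃ H : CT S → CT S, Nat1 H ∧ ∀ Δ X, Ext (colP P) B.Γ Δ → HL P 1 Δ X l → HL P 1 Δ (H X) m ∧
      (Inh (colP P) Δ X → if p then Ref P (B.Ans b₀) Δ (H X) else Inh (colP P) Δ (H X)) ∧
      (Ref P (B.Ans b₀) Δ X → if p then Inh (colP P) Δ (H X) else Ref P (B.Ans b₀) Δ (H X)) := by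
  induction hw with
  | refl => exact ⟨fun X => X, fun _ _ _ => rfl, fun Δ X _ hX => ⟨hX, fun h => h, fun h => h⟩⟩
  | @step p q a' b c hw hst ih =>
    have hb : b ∈ d := hs.mem_of_reach hl hm ⟨_, hw⟩ ⟨_, Wk.single hst⟩
    obtain ⟨H, hH, hI⟩ := ih hl hb
    cases hst with
    | @pos a b ha hb' hne =>
      refine ⟨fun X => arr (B.Dd a) (H X), fun σ X hσ => ?_, fun Δ X hΔ hX => ?_⟩
      · show sub σ (arr (B.Dd a) (H X)) = _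
        rw [sub_arr, mdla_nat0 (B.Dd_ty a ha) ha σ hσ, hH σ X hσ]
      obtain ⟨k1, k2, k3⟩ := hI Δ X hΔ hX
      have k4 : HL P 1 Δ (arr (B.Dd a) (H X)) (ot P a b) := ((B.Dd_ty a ha).ext hΔ).arr k1 (by decide)
      obtain ⟨s, hs'⟩ := hne
      have i1 : Inh (colP P) Δ (H X) → Inh (colP P) Δ (arr (B.Dd a) (H X)) := fun h =>
        mdla_arr_inh (k4 s hs') fun Δ' hΔ' _ => mdla_inh_ext h hΔ'
      have i2 : Ref P (B.Ans b₀) Δ (H X) → Ref P (B.Ans b₀) Δ (arr (B.Dd a) (H X)) := fun h Δ' hΔ' ht =>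
        h Δ' hΔ' (mdla_mp ht ⟨_, (B.dd_ty a ha).ext (hΔ.trans hΔ')⟩)
      cases p
      · exact ⟨k4, fun h => i1 (k2 h), fun h => i2 (k3 h)⟩
      · exact ⟨k4, fun h => i2 (k2 h), fun h => i1 (k3 h)⟩
    | @neg a e ha he hne _ =>
      refine ⟨fun X => arr (H X) (B.Ans e), fun σ X hσ => ?_, fun Δ X hΔ hX => ?_⟩
      · show sub σ (arr (H X) (B.Ans e)) = _
        rw [sub_arr, mdla_nat0 (B.Ans_ty e he) he σ hσ, hH σ X hσ]
      obtain ⟨k1, k2, k3⟩ := hI Δ X hΔ hX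
      have k4 : HL P 1 Δ (arr (H X) (B.Ans e)) (ot P b e) := k1.arr ((B.Ans_ty e he).ext hΔ) (by decide)
      have r1 : Reach P e a₀ := Reach.trans ⟨false, Wk.single (.pos ha he hne)⟩ (hs.reach hm h1)
      have r2 : Reach P b₀ b := hs.reach h2 hb
      obtain ⟨s, hs'⟩ := hne
      have i1 : Inh (colP P) Δ (H X) → Ref P (B.Ans b₀) Δ (arr (H X) (B.Ans e)) := fun h Δ' hΔ' ht =>
        B.exf e a₀ b₀ he r1 h3 h4 h5 Δ' (hΔ.trans hΔ') (mdla_mp ht (mdla_inh_ext h hΔ'))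
      have i2 : Ref P (B.Ans b₀) Δ (H X) → Inh (colP P) Δ (arr (H X) (B.Ans e)) := fun h =>
        mdla_arr_inh (k4 s hs') fun Δ' hΔ' ht =>
          B.exf b₀ b e h4 r2 ha he ⟨s, hs'⟩ Δ' (hΔ.trans hΔ') (h Δ' hΔ' ht)
      cases p
      · exact ⟨k4, fun h => i1 (k2 h), fun h => i2 (k3 h)⟩
      · exact ⟨k4, fun h => i2 (k2 h), fun h => i1 (k3 h)⟩
    | cum ha hc hsub =>
      refine ⟨H, hH, fun Δ X hΔ hX => ?_⟩
      obtain ⟨k1, k2, k3⟩ := hI Δ X hΔ hX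
      cases p
      · exact ⟨fun s hs' => k1 s (hsub hs'), k2, k3⟩
      · exact ⟨fun s hs' => k1 s (hsub hs'), k2, k3⟩

/-- the conclusion of `walk_logic` -/
def MdbM (P : Spec S) (B : Base P) (bot : CT S) (p : Bool) (l m : Set S) (H : CT S → CT S) : Prop :=
  Nat1 H ∧ ∀ Δ X, Ext (colP P) B.Γ Δ → HL P 1 Δ X l → HL P 1 Δ (H X) m ∧
    (Inh (colP P) Δ X → if p then Ref P bot Δ (H X) else Inh (colP P) Δ (H X)) ∧
    (Ref P bot Δ X → if p then Inh (colP P) Δ (H X) else Ref P bot Δ (H X))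

/-- the conclusion of `henkin` -/
structure MdbC (P : Spec S) (B : Base P) (bot : CT S) (Γ : ℕ → CCtx S) : Prop where
  zero : Γ 0 = B.Γ
  mono : ∀ m n, m ≤ n → Ext (colP P) (Γ m) (Γ n)
  cons : ∀ n, ¬ Inh (colP P) (Γ n) bot
  wit : ∀ n K φ s, Ty (colP P) (Γ n) K (srt s) →
    (∀ Δ N, Ext (colP P) (Γ n) Δ → Ty (colP P) Δ N K → ∃ s', Ty (colP P) Δ (inst N φ) (srt s')) →
      (∃ m N, Ty (colP P) (Γ m) N K ∧ Inh (colP P) (Γ m) (inst N φ)) ∨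
        ∃ m, n ≤ m ∧ ∀ Δ N, Ext (colP P) (Γ m) Δ → Ty (colP P) Δ N K → Inh (colP P) Δ (inst N φ) →
          Inh (colP P) Δ bot
  lev : ∃ a, Lev P a

theorem mdb_inh {Δ Δ' : CCtx S} {X : CT S} (h : Inh (colP P) Δ X) (h' : Ext (colP P) Δ Δ') : Inh (colP P) Δ' X :=
  h.imp fun _ ht => ht.ext h'

theorem mdb_ref {bot : CT S} {Δ Δ' : CCtx S} {X : CT S} (h : Ref P bot Δ X) (h' : Ext (colP P) Δ Δ') :
    Ref P bot Δ' X := fun Θ h1 h2 => h Θ (h'.trans h1) h2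

section
variable {B : Base P} {bot : CT S} {Γ : ℕ → CCtx S} {l m q : Set S} {H : CT S → CT S} {n : ℕ} {X K φ : CT S}
  {j : Fin 3}

theorem MdbM.inst {p : Bool} (h : MdbM P B bot p l m H) (N φ : CT S) : Tm.inst N (H φ) = H (Tm.inst N φ) :=
  h.1 _ _ (bs_vcons N)

theorem MdbM.pi_ty {p : Bool} (h : MdbM P B bot p l m H) {Δ : CCtx S} (hΔ : Ext (colP P) B.Γ Δ) (hK : HL P j Δ K q)
    (hφ : ∀ Δ' N, Ext (colP P) Δ Δ' → Ty (colP P) Δ' N K → HL P 1 Δ' (Tm.inst N φ) l) :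
    HL P 1 Δ (pi K (H φ)) (ot P q m) :=
  hK.pi (fun Δ' N h1 h2 => by rw [h.inst]; exact (h.2 Δ' _ (hΔ.trans h1) (hφ Δ' N h1 h2)).1) (by decide)

theorem MdbC.ex (C : MdbC P B bot Γ) (n : ℕ) : Ext (colP P) B.Γ (Γ n) := C.zero ▸ C.mono 0 n n.zero_le

theorem MdbC.not_both (C : MdbC P B bot Γ) (h : ∃ k, Inh (colP P) (Γ k) X) (h' : ∃ k, Ref P bot (Γ k) X) : False := by
  obtain ⟨k, h⟩ := h
  obtain ⟨k', h'⟩ := h'
  exact C.cons (max k k') (h' _ (C.mono _ _ (le_max_right _ _)) (mdb_inh h (C.mono _ _ (le_max_left _ _))))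

theorem MdbC.compl (C : MdbC P B bot Γ) (hl : l.Nonempty) (hX : HL P 1 (Γ n) X l) :
    (∃ k, Inh (colP P) (Γ k) X) ∨ ∃ k, Ref P bot (Γ k) X := by
  obtain ⟨a, ha⟩ := C.lev
  obtain ⟨s, hs⟩ := ha.nonempty
  obtain ⟨t, ht⟩ := hl
  rcases C.wit n (B.Dd a) (lift X) _ ((B.Dd_ty a ha s hs).ext (C.ex n))
    (fun Δ N h _ => ⟨_, by rw [inst_lift]; exact (hX t ht).ext h⟩) with ⟨k, N, -, h⟩ | ⟨k, -, h⟩
  · exact Or.inl ⟨k, by rwa [inst_lift] at h⟩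
  · exact Or.inr ⟨k, fun Δ h1 h2 => h Δ _ h1 ((B.dd_ty a ha).ext ((C.ex k).trans h1)) (by rwa [inst_lift])⟩

theorem MdbC.step (C : MdbC P B bot Γ) {p : Bool} (h : MdbM P B bot p l m H) (hX : HL P 1 (Γ n) X l) :
    ((∃ k, Inh (colP P) (Γ k) X) →
      ∃ k, if p then Ref P bot (Γ k) (H X) else Inh (colP P) (Γ k) (H X)) ∧
    ((∃ k, Ref P bot (Γ k) X) → ∃ k, if p then Inh (colP P) (Γ k) (H X) else Ref P bot (Γ k) (H X)) := by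
  have key := fun k => (h.2 (Γ (max n k)) X (C.ex _) (hX.ext (C.mono _ _ (le_max_left _ _)))).2
  exact ⟨fun ⟨k, hk⟩ => ⟨_, (key k).1 (mdb_inh hk (C.mono _ _ (le_max_right _ _)))⟩,
    fun ⟨k, hk⟩ => ⟨_, (key k).2 (mdb_ref hk (C.mono _ _ (le_max_right _ _)))⟩⟩

theorem MdbC.odd (C : MdbC P B bot Γ) (h : MdbM P B bot true l m H) (hl : l.Nonempty) (hX : HL P 1 (Γ n) X l) :
    (∃ k, Inh (colP P) (Γ k) (H X)) ↔ ¬ ∃ k, Inh (colP P) (Γ k) X :=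
  ⟨fun h1 h2 => C.not_both h1 ((C.step h hX).1 h2), fun h1 => (C.step h hX).2 ((C.compl hl hX).resolve_left h1)⟩

theorem MdbC.even (C : MdbC P B bot Γ) (h : MdbM P B bot false l m H) (hl : l.Nonempty) (hX : HL P 1 (Γ n) X l) :
    (∃ k, Inh (colP P) (Γ k) (H X)) ↔ ∃ k, Inh (colP P) (Γ k) X :=
  ⟨fun h1 => (C.compl hl hX).resolve_right fun h2 => C.not_both h1 ((C.step h hX).2 h2), (C.step h hX).1⟩

theorem MdbC.pi_tr (C : MdbC P B bot Γ) (h : MdbM P B bot true l m H) (hl : l.Nonempty) (hq : (ot P q m).Nonempty)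
    (hK : HL P j (Γ n) K q)
    (hφ : ∀ Δ' N, Ext (colP P) (Γ n) Δ' → Ty (colP P) Δ' N K → HL P 1 Δ' (Tm.inst N φ) l) :
    (∃ k, Inh (colP P) (Γ k) (pi K (H φ))) ↔
      ¬ ∃ N, (∃ k, Ty (colP P) (Γ k) N K) ∧ ∃ k, Inh (colP P) (Γ k) (Tm.inst N φ) := by
  obtain ⟨c, hc⟩ := hq
  obtain ⟨t, ht⟩ := id hl
  refine ⟨?_, fun h1 => ?_⟩
  · rintro ⟨k, f, hf⟩ ⟨N, ⟨k', hN⟩, h2⟩
    have hN' := hN.ext (C.mono k' (max n (max k k')) (by omega))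
    refine (C.odd h hl (hφ _ N (C.mono _ _ (le_max_left _ _)) hN')).1 ⟨max n (max k k'), app f N, ?_⟩ h2
    rw [← h.inst]
    exact (hf.ext (C.mono k _ (by omega))).appl hN'
  · obtain ⟨x, hx, -⟩ := id hc
    rcases C.wit n K φ _ (hK x hx) (fun Δ N h2 h3 => ⟨_, hφ Δ N h2 h3 t ht⟩) with ⟨k, N, h2, h3⟩ | ⟨k, hk, h2⟩
    · exact absurd ⟨N, ⟨k, h2⟩, k, h3⟩ h1
    · refine ⟨k, inh_pi ((h.pi_ty (C.ex n) hK hφ c hc).ext (C.mono _ _ hk)) fun Δ N h3 h4 => ?_⟩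
      rw [h.inst]
      exact (h.2 Δ _ ((C.ex k).trans h3) (hφ Δ N ((C.mono _ _ hk).trans h3) h4)).2.2
        fun Δ' h5 h6 => h2 Δ' N (h3.trans h5) (h4.ext h5) h6

end

/-- `p = a₀`; `henkin` with `bot = Ans b₀`; completeness (`Tr X` or `Ref (Γ m) X`) is the witness property for `K = Dd p`, `φ = lift X`.
`neg` = odd walk `p → p`; `cnj X Y = O' (arr X (O Y))` with `O : p → b₀` odd and `O' : ot a₀ b₀ → p` odd (if `X` is refuted then under the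
hypothesis `X` the type `bot` is inhabited, so `Y` is refuted and `O Y` inhabited); `nex q K φ = E (pi K (O φ))` with `b` from `Qn q`,
`O : p → b` odd, `E : ot q b → p` even (`inh_pi`, `HL.pi`); `upp r`, `dwn r` even walks `p → {r}`, `{r} → p`. -/
theorem exists_mdl [Finite S] (hP : HWN P) (hs : Stage P d D) (ho : OddC P d) (hb : Bin P d) : Nonempty (Mdl P d) := by
  obtain ⟨a₀, h1, b₀, h2, h3, h4, h5, h6⟩ := hb
  obtain ⟨B⟩ := exists_base hP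
  obtain ⟨s₀, hs₀⟩ := h4.nonempty
  obtain ⟨Γ, h0, mono, cons, wit⟩ := henkin (B.Ans_ty b₀ h4 s₀ hs₀) (B.cons b₀ h4)
  have C : MdbC P B (B.Ans b₀) Γ := ⟨h0, mono, cons, wit, a₀, h3⟩
  have wl : ∀ (p : Bool) (l m : Set S), l ∈ d → m ∈ d → ∃ H, MdbM P B (B.Ans b₀) p l m H := fun p l m hl hm =>
    walk_logic hs B h1 h2 h3 h4 h5 hl hm (walk_par hs ho hl hm p)
  have pne := h3.nonempty
  obtain ⟨Ng, hNg⟩ := wl true a₀ a₀ h1 h1
  obtain ⟨O, hO⟩ := wl true a₀ b₀ h1 h2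
  obtain ⟨O', hO'⟩ := wl true _ a₀ h6 h1
  have hq : ∀ q, ∃ H : CT S → CT S → CT S, Nat2b H ∧ (Qn P d q → ∃ b U E, (ot P q b).Nonempty ∧
      MdbM P B (B.Ans b₀) true a₀ b U ∧ MdbM P B (B.Ans b₀) false (ot P q b) a₀ E ∧
      ∀ K φ, H K φ = E (pi K (U φ))) := fun q => by
    by_cases h : Qn P d q
    · obtain ⟨-, b, hb1, -, hb3, hb4⟩ := h
      obtain ⟨U, hU⟩ := wl true a₀ b h1 hb1
      obtain ⟨E, hE⟩ := wl false _ a₀ hb4 h1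
      refine ⟨fun K φ => E (pi K (U φ)), fun σ X Y hσ => ?_, fun _ => ⟨b, U, E, hb3, hU, hE, fun _ _ => rfl⟩⟩
      rw [hE.1 σ _ hσ, sub, hU.1 _ _ hσ.up]
    · exact ⟨fun K _ => K, fun _ _ _ _ => rfl, fun h' => absurd h' h⟩
  have hr : ∀ r, ∃ U W : CT S → CT S, Nat1 U ∧ Nat1 W ∧ (Rs P d r →
      MdbM P B (B.Ans b₀) false a₀ {r} U ∧ MdbM P B (B.Ans b₀) false {r} a₀ W) := fun r => by
    by_cases h : Rs P d r
    · obtain ⟨U, hU⟩ := wl false a₀ {r} h1 h.1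
      obtain ⟨W, hW⟩ := wl false {r} a₀ h.1 h1
      exact ⟨U, W, hU.1, hW.1, fun _ => ⟨hU, hW⟩⟩
    · exact ⟨id, id, fun _ _ _ => rfl, fun _ _ _ => rfl, fun h' => absurd h' h⟩
  choose nex hn1 hn2 using hq
  choose upp dwn hu1 hu2 hu3 using hr
  have pb : ∀ {Δ : CCtx S} {X Y : CT S}, HL P 1 Δ Y a₀ →
      ∀ Δ' N, Ext (colP P) Δ Δ' → Ty (colP P) Δ' N X → HL P 1 Δ' (inst N (lift Y)) a₀ :=
    fun hY Δ' N h _ => by rw [inst_lift]; exact hY.ext h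
  refine ⟨{
    Γ := Γ, p := a₀, Dd := B.Dd, dd := B.dd, neg := Ng, cnj := fun X Y => O' (pi X (O (lift Y))), nex := nex,
    upp := upp, dwn := dwn, mono := mono, p_ne := pne, Dd_ty := h0 ▸ B.Dd_ty, dd_ty := h0 ▸ B.dd_ty,
    neg_nat := hNg.1, cnj_nat := fun σ X Y hσ => ?_, nex_nat := hn1, upp_nat := hu1, dwn_nat := hu2,
    neg_ty := fun Δ X h hX => (hNg.2 Δ X (h0 ▸ h) hX).1,
    cnj_ty := fun Δ X Y h hX hY => (hO'.2 Δ _ (h0 ▸ h) (hO.pi_ty (h0 ▸ h) hX (pb hY))).1,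
    nex_ty := fun q Δ K φ hq h hK hφ => ?_,
    upp_ty := fun r Δ X hr h hX => ((hu3 r hr).1.2 Δ X (h0 ▸ h) hX).1 r rfl,
    dwn_ty := fun r Δ Z hr h hZ => ((hu3 r hr).2.2 Δ Z (h0 ▸ h) fun s hs => by rw [hs]; exact hZ).1,
    neg_tr := fun n X hX => C.odd hNg pne hX,
    cnj_tr := fun n X Y hX hY => ?_, nex_tr := fun q n K φ hq hK hφ => ?_, updn_tr := fun r n X hr hX => ?_ }⟩
  · rw [hO'.1 σ _ hσ, sub, hO.1 _ _ hσ.up, sub_up_lift]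
  · obtain ⟨b, U, E, hb, hU, hE, e⟩ := hn2 q hq
    rw [e]
    exact (hE.2 Δ _ (h0 ▸ h) (hU.pi_ty (h0 ▸ h) hK hφ)).1
  · refine (C.odd hO' h5 (hO.pi_ty (C.ex n) hX (pb hY))).trans ?_
    rw [C.pi_tr hO pne h5 hX (pb hY), not_not]
    simp only [inst_lift]
    exact ⟨fun ⟨N, ⟨k, h⟩, h'⟩ => ⟨⟨k, N, h⟩, h'⟩, fun ⟨⟨k, N, h⟩, h'⟩ => ⟨N, ⟨k, h⟩, h'⟩⟩
  · obtain ⟨b, U, E, hb, hU, hE, e⟩ := hn2 q hq
    rw [e]
    exact (C.even hE hb (hU.pi_ty (C.ex n) hK hφ)).trans (C.pi_tr hU pne hb hK hφ)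
  · exact (C.even (hu3 r hr).2 (Set.singleton_nonempty r) ((hu3 r hr).1.2 _ X (C.ex n) hX).1).trans
      (C.even (hu3 r hr).1 pne hX)

namespace Mdl

variable (M : Mdl P d)

abbrev Ex (Δ : CCtx S) : Prop := Ext (colP P) (M.Γ 0) Δ
abbrev Pr (Δ : CCtx S) (X : CT S) : Prop := HL P 1 Δ X M.p
/-- a proposition with one bound variable of kind `K` -/
abbrev PB (Δ : CCtx S) (K φ : CT S) : Prop := ∀ Δ' N, Ext (colP P) Δ Δ' → Ty (colP P) Δ' N K → HL P 1 Δ' (inst N φ) M.p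
abbrev El (N K : CT S) : Prop := ∃ k, Ty (colP P) (M.Γ k) N K
abbrev Tr (X : CT S) : Prop := ∃ k, Inh (colP P) (M.Γ k) X

variable {M}

theorem tr_cv {n : ℕ} {X Y : CT S} (hX : M.Pr (M.Γ n) X) (hY : M.Pr (M.Γ n) Y) (h : Cv X Y) : M.Tr X ↔ M.Tr Y := by
  obtain ⟨s, hs⟩ := M.p_ne
  have key : ∀ {X Y : CT S}, M.Pr (M.Γ n) Y → Cv X Y → M.Tr X → M.Tr Y := by
    rintro X Y hY h ⟨k, t, ht⟩
    exact ⟨max n k, t, (ht.ext (M.mono _ _ (le_max_right _ _))).conv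
      ((hY s hs).ext (M.mono _ _ (le_max_left _ _))) h⟩
  exact ⟨key hY h, key hX (.symm _ _ h)⟩

theorem ex_n (n : ℕ) : M.Ex (M.Γ n) := M.mono 0 n (Nat.zero_le n)

theorem PB.ext {Δ Δ' : CCtx S} {K φ : CT S} (h : M.PB Δ K φ) (h' : Ext (colP P) Δ Δ') : M.PB Δ' K φ := by
  exact fun Δ'' N h'' hN => h Δ'' N (h'.trans h'') hN

end Mdl

end Crest.Agent.R298
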