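import Crest.Agent.R298.X.Mdl

/-!
# Row 298, paradox block.  Structural walks as kind constructors: an odd walk is an exact power set (`i` = comprehension, `o` = membership),
an even walk a kind of generalised quantifiers (`i` = unit, `o` = application to a predicate).
-/

set_option autoImplicit false
set_option linter.unusedSectionVars false
set_option linter.unusedVariables false

namespace Crest.Agent.R298

open scoped Classical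
open Tm
open Crest.LogicCS.PTS (Spec)

variable {S : Type} {P : Spec S} {d : Set (Set S)}

structure FS (S : Type) where
  F : CT S → CT S
  i : CT S → CT S → CT S
  o : CT S → CT S → CT S → CT S

structure IsE (M : Mdl P d) (l m : Set S) (A : FS S) : Prop where
  nF : Nat1 A.F
  ni : Nat2 A.i
  no : Nat3b A.o
  tF : ∀ Δ K, M.Ex Δ → HL P 0 Δ K l → HL P 0 Δ (A.F K) m
  ti : ∀ Δ K N, M.Ex Δ → HL P 0 Δ K l → Ty (colP P) Δ N K → Ty (colP P) Δ (A.i K N) (A.F K)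
  to' : ∀ Δ K z φ, M.Ex Δ → HL P 0 Δ K l → Ty (colP P) Δ z (A.F K) → M.PB Δ K φ → M.Pr Δ (A.o K z φ)
  tr : ∀ n K N φ, HL P 0 (M.Γ n) K l → Ty (colP P) (M.Γ n) N K → M.PB (M.Γ n) K φ →
    (M.Tr (A.o K (A.i K N) φ) ↔ M.Tr (inst N φ))

structure IsO (M : Mdl P d) (l m : Set S) (A : FS S) : Prop where
  nF : Nat1 A.F
  ni : Nat2b A.i
  no : Nat3 A.o
  tF : ∀ Δ K, M.Ex Δ → HL P 0 Δ K l → HL P 0 Δ (A.F K) m
  ti : ∀ Δ K φ, M.Ex Δ → HL P 0 Δ K l → M.PB Δ K φ → Ty (colP P) Δ (A.i K φ) (A.F K)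
  to' : ∀ Δ K z N, M.Ex Δ → HL P 0 Δ K l → Ty (colP P) Δ z (A.F K) → Ty (colP P) Δ N K → M.Pr Δ (A.o K z N)
  tr : ∀ n K N φ, HL P 0 (M.Γ n) K l → Ty (colP P) (M.Γ n) N K → M.PB (M.Γ n) K φ →
    (M.Tr (A.o K (A.i K φ) N) ↔ M.Tr (inst N φ))

def IsFS (M : Mdl P d) (p : Bool) (l m : Set S) (A : FS S) : Prop := if p then IsO M l m A else IsE M l m A

variable {M : Mdl P d}

/-! ### part a -/

theorem powa_beta (D X y : CT S) : Cv (app (lam D (lift X)) y) X := by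
  have := Relation.EqvGen.rel _ _ (Beta.redex D (lift X) y)
  rwa [inst_lift] at this

theorem powa_lam {Δ : CCtx S} {D T X : CT S} {c : Set S} (h : HL P 0 Δ (arr D T) c) (hc : c.Nonempty)
    (hX : Ty (colP P) Δ X T) : Ty (colP P) Δ (lam D (lift X)) (arr D T) :=
  ty_lam (h _ hc.choose_spec) fun Δ' N h' _ => by
    rw [inst_lift, inst_lift]
    exact hX.ext h'

theorem powa_arr (M : Mdl P d) {a b : Set S} (ha : Lev P a) {Δ : CCtx S} (h : M.Ex Δ) {T : CT S}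
    (hT : HL P 0 Δ T b) : HL P 0 Δ (arr (M.Dd a) T) (ot P a b) :=
  ((M.Dd_ty a ha).ext h).arr hT (by decide)

theorem powa_app (M : Mdl P d) {a : Set S} (ha : Lev P a) {Δ : CCtx S} (h : M.Ex Δ) {T z : CT S}
    (hz : Ty (colP P) Δ z (arr (M.Dd a) T)) : Ty (colP P) Δ (app z (M.dd a)) T :=
  hz.arr_elim ((M.dd_ty a ha).ext h)

/-- a positive walk: `H K = arr (Dd _) (... K)`, `en N = lam (Dd _) (lift ...)`, `de z = app z (dd _) ...` -/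
theorem pos_walk (M : Mdl P d) {a b : Set S} (h : Ps P a b) : ∃ H en de : CT S → CT S, Nat1 H ∧ Nat1 en ∧ Nat1 de ∧
    (∀ N, Cv (de (en N)) N) ∧ ∀ Δ K, M.Ex Δ → HL P 0 Δ K a → HL P 0 Δ (H K) b ∧
      (∀ N, Ty (colP P) Δ N K → Ty (colP P) Δ (en N) (H K)) ∧ ∀ z, Ty (colP P) Δ z (H K) → Ty (colP P) Δ (de z) K := by
  unfold Ps at h
  generalize false = p at h
  induction h with
  | refl => exact ⟨id, id, id, fun _ _ _ => rfl, fun _ _ _ => rfl, fun _ _ _ => rfl, fun _ => .refl _,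
      fun Δ K _ hK => ⟨hK, fun _ h => h, fun _ h => h⟩⟩
  | step _ hs ih =>
    obtain ⟨H, en, de, n1, n2, n3, hc, ht⟩ := ih
    cases hs with
    | @pos a' _ ha hb hn =>
      have d0 := mdla_nat0 (M.Dd_ty a' ha) ha
      have d1 := (M.dd_ty a' ha).nat0
      refine ⟨fun K => arr (M.Dd a') (H K), fun N => lam (M.Dd a') (lift (en N)), fun z => de (app z (M.dd a')),
        fun σ X hσ => ?_, fun σ X hσ => ?_, fun σ X hσ => ?_,
        fun N => .trans _ _ _ (n3.cv (powa_beta _ _ _)) (hc N), fun Δ K hΔ hK => ?_⟩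
      · rw [sub_arr, d0 σ hσ, n1 σ X hσ]
      · rw [sub, d0 σ hσ, sub_up_lift, n2 σ X hσ]
      · rw [n3 σ _ hσ, sub, d1 σ hσ]
      · obtain ⟨t1, t2, t3⟩ := ht Δ K hΔ hK
        exact ⟨powa_arr M ha hΔ t1, fun N hN => powa_lam (powa_arr M ha hΔ t1) hn (t2 N hN),
          fun z hz => t3 _ (powa_app M ha hΔ hz)⟩
    | neg _ _ _ h => exact h.elim
    | cum _ _ hsub =>
      exact ⟨H, en, de, n1, n2, n3, hc, fun Δ K hΔ hK =>
        ⟨fun s hs => (ht Δ K hΔ hK).1 s (hsub hs), (ht Δ K hΔ hK).2⟩⟩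

/-- a large level has a kind of truth values: `pos_walk` from `srt (r, 1)`, `upp r`, `dwn r` -/
theorem prop_kind (M : Mdl P d) {b : Set S} (h : Lg P d b) : ∃ (K : CT S) (enc dec : CT S → CT S), Nat0 K ∧ Nat1 enc ∧ Nat1 dec ∧
    (∀ Δ, M.Ex Δ → HL P 0 Δ K b ∧ (∀ X, M.Pr Δ X → Ty (colP P) Δ (enc X) K) ∧ ∀ z, Ty (colP P) Δ z K → M.Pr Δ (dec z)) ∧
    ∀ n X, M.Pr (M.Γ n) X → (M.Tr (dec (enc X)) ↔ M.Tr X) := by
  obtain ⟨-, r, hr, hp⟩ := h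
  obtain ⟨H, en, de, n1, n2, n3, hc, ht⟩ := pos_walk M hp
  have key : ∀ Δ, M.Ex Δ → HL P 0 Δ (H (srt (r, 1))) b ∧
      (∀ X, M.Pr Δ X → Ty (colP P) Δ (en (M.upp r X)) (H (srt (r, 1)))) ∧
      ∀ z, Ty (colP P) Δ z (H (srt (r, 1))) → M.Pr Δ (M.dwn r (de z)) := fun Δ hΔ => by
    obtain ⟨t1, t2, t3⟩ := ht Δ (srt (r, 1)) hΔ fun t ht => hΔ.1.ax ⟨ht, rfl⟩
    exact ⟨t1, fun X hX => t2 _ (M.upp_ty r Δ X hr hΔ hX), fun z hz => M.dwn_ty r Δ _ hr hΔ (t3 z hz)⟩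
  refine ⟨H (srt (r, 1)), fun X => en (M.upp r X), fun z => M.dwn r (de z), fun σ hσ => n1 σ _ hσ,
    fun σ X hσ => by rw [n2 σ _ hσ, M.upp_nat r σ X hσ], fun σ X hσ => by rw [M.dwn_nat r σ _ hσ, n3 σ X hσ],
    key, fun n X hX => ?_⟩
  have hΔ := Mdl.ex_n (M := M) n
  exact (Mdl.tr_cv ((key _ hΔ).2.2 _ ((key _ hΔ).2.1 X hX)) (M.dwn_ty r _ _ hr hΔ (M.upp_ty r _ X hr hΔ hX))
    ((M.dwn_nat r).cv (hc _))).trans (M.updn_tr r n X hr hX)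

theorem isE_id (M : Mdl P d) (l : Set S) : IsE M l l ⟨fun K => K, fun _ N => N, fun _ z φ => inst z φ⟩ :=
  ⟨fun _ _ _ => rfl, fun _ _ _ _ => rfl, fun σ _ Y Z _ => b1_sub_inst σ Y Z, fun _ _ _ h => h, fun _ _ _ _ _ h => h,
    fun Δ _ z _ hΔ _ hz hφ => hφ Δ z (Ext.refl hΔ.1) hz, fun _ _ _ _ _ _ _ => Iff.rfl⟩

/-- `i' K x = lam (Dd a) (lift (i K x))`, `o' K z y = o K (app z (dd a)) y` -/
theorem IsFS.pos {p : Bool} {l a b : Set S} {A : FS S} (h : IsFS M p l b A) (ha : Lev P a) (hb : Lev P b)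
    (hn : (ot P a b).Nonempty) : ∃ A', IsFS M p l (ot P a b) A' ∧ ∀ K, A'.F K = arr (M.Dd a) (A.F K) := by
  have d0 := mdla_nat0 (M.Dd_ty a ha) ha
  have d1 := (M.dd_ty a ha).nat0
  refine ⟨⟨fun K => arr (M.Dd a) (A.F K), fun K x => lam (M.Dd a) (lift (A.i K x)),
    fun K z y => A.o K (app z (M.dd a)) y⟩, ?_, fun _ => rfl⟩
  cases p
  · have h : IsE M l b A := h
    have tF := fun Δ K hΔ hK => powa_arr M ha hΔ (h.tF Δ K hΔ hK)
    have ti := fun Δ K N hΔ hK hN => powa_lam (tF Δ K hΔ hK) hn (h.ti Δ K N hΔ hK hN)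
    change IsE M l (ot P a b) _
    refine ⟨fun σ X hσ => ?_, fun σ X Y hσ => ?_, fun σ X Y Z hσ => ?_, tF, ti,
      fun Δ K z φ hΔ hK hz hφ => h.to' Δ K _ φ hΔ hK (powa_app M ha hΔ hz) hφ, fun n K N φ hK hN hφ => ?_⟩
    · simp only [sub_arr, d0 σ hσ, h.nF σ X hσ]
    · simp only [sub, d0 σ hσ, sub_up_lift, h.ni σ X Y hσ]
    · simp only [h.no σ _ _ _ hσ, sub, d1 σ hσ]
    · have hΔ := Mdl.ex_n (M := M) n
      exact (Mdl.tr_cv (h.to' _ K _ φ hΔ hK (powa_app M ha hΔ (ti _ K N hΔ hK hN)) hφ)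
        (h.to' _ K _ φ hΔ hK (h.ti _ K N hΔ hK hN) hφ) (h.no.cv K (powa_beta _ _ _) φ)).trans (h.tr n K N φ hK hN hφ)
  · have h : IsO M l b A := h
    have tF := fun Δ K hΔ hK => powa_arr M ha hΔ (h.tF Δ K hΔ hK)
    have ti := fun Δ K φ hΔ hK hφ => powa_lam (tF Δ K hΔ hK) hn (h.ti Δ K φ hΔ hK hφ)
    change IsO M l (ot P a b) _
    refine ⟨fun σ X hσ => ?_, fun σ X Y hσ => ?_, fun σ X Y Z hσ => ?_, tF, ti,
      fun Δ K z N hΔ hK hz hN => h.to' Δ K _ N hΔ hK (powa_app M ha hΔ hz) hN, fun n K N φ hK hN hφ => ?_⟩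
    · simp only [sub_arr, d0 σ hσ, h.nF σ X hσ]
    · simp only [sub, d0 σ hσ, sub_up_lift, h.ni σ X Y hσ]
    · simp only [h.no σ _ _ _ hσ, sub, d1 σ hσ]
    · have hΔ := Mdl.ex_n (M := M) n
      exact (Mdl.tr_cv (h.to' _ K _ N hΔ hK (powa_app M ha hΔ (ti _ K φ hΔ hK hφ)) hN)
        (h.to' _ K _ N hΔ hK (h.ti _ K φ hΔ hK hφ) hN)
        (h.no.cv (.refl _) (powa_beta _ _ _) (.refl _))).trans (h.tr n K N φ hK hN hφ)

theorem IsFS.cum {p : Bool} {l a b : Set S} {A : FS S} (h : IsFS M p l a A) (hb : b ⊆ a) : IsFS M p l b A := by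
  cases p
  · have h : IsE M l a A := h
    exact (⟨h.nF, h.ni, h.no, fun Δ K hΔ hK s hs => h.tF Δ K hΔ hK s (hb hs), h.ti, h.to', h.tr⟩ : IsE M l b A)
  · have h : IsO M l a A := h
    exact (⟨h.nF, h.ni, h.no, fun Δ K hΔ hK s hs => h.tF Δ K hΔ hK s (hb hs), h.ti, h.to', h.tr⟩ : IsO M l b A)

/-! ### part b -/

theorem powb_lam {a b : Set S} (hn : (ot P a b).Nonempty) {Kb : CT S} {enc dec : CT S → CT S} (h1 : Nat1 enc)
    (h3 : ∀ Δ, M.Ex Δ → HL P 0 Δ Kb b ∧ (∀ X, M.Pr Δ X → Ty (colP P) Δ (enc X) Kb) ∧ ∀ z, Ty (colP P) Δ z Kb → M.Pr Δ (dec z))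
    {Δ : CCtx S} {T ψ : CT S} (hΔ : M.Ex Δ) (hT : HL P 0 Δ T a) (hψ : M.PB Δ T ψ) :
    Ty (colP P) Δ (lam T (enc ψ)) (arr T Kb) := by
  obtain ⟨s, hs⟩ := hn
  refine ty_lam ((hT.arr (h3 Δ hΔ).1 (by decide)) s hs) fun Δ' N h4 h5 => ?_
  rw [inst_lift, show inst N (enc ψ) = enc (inst N ψ) from h1 _ _ (bs_vcons N)]
  exact (h3 Δ' (hΔ.trans h4)).2.1 _ (hψ Δ' N h4 h5)

theorem powb_tr {a b : Set S} (hn : (ot P a b).Nonempty) {Kb : CT S} {enc dec : CT S → CT S} (h1 : Nat1 enc) (h2 : Nat1 dec)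
    (h3 : ∀ Δ, M.Ex Δ → HL P 0 Δ Kb b ∧ (∀ X, M.Pr Δ X → Ty (colP P) Δ (enc X) Kb) ∧ ∀ z, Ty (colP P) Δ z Kb → M.Pr Δ (dec z))
    (h4 : ∀ n X, M.Pr (M.Γ n) X → (M.Tr (dec (enc X)) ↔ M.Tr X))
    {n : ℕ} {T ψ z : CT S} (hT : HL P 0 (M.Γ n) T a) (hψ : M.PB (M.Γ n) T ψ) (hz : Ty (colP P) (M.Γ n) z T) :
    M.Tr (dec (app (lam T (enc ψ)) z)) ↔ M.Tr (inst z ψ) := by
  have hX : M.Pr (M.Γ n) (inst z ψ) := hψ _ z (Ext.refl hz.ok) hz
  have k := (h3 _ (Mdl.ex_n n)).2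
  refine (Mdl.tr_cv (k.2 _ ((powb_lam hn h1 h3 (Mdl.ex_n n) hT hψ).arr_elim hz)) (k.2 _ (k.1 _ hX))
    (h2.cv ?_)).trans (h4 n _ hX)
  rw [← show inst z (enc ψ) = enc (inst z ψ) from h1 _ _ (bs_vcons z)]
  exact .rel _ _ (.redex _ _ _)

/-- `i' K φ = lam (F K) (enc (o (lift K) (bv 0) (sub (up fun x => lift (vr x)) φ)))`, `o' K z N = dec (app z (i K N))` -/
theorem IsE.neg {l a b : Set S} {A : FS S} (h : IsE M l a A) (hn : (ot P a b).Nonempty) {Kb : CT S} {enc dec : CT S → CT S}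
    (h0 : Nat0 Kb) (h1 : Nat1 enc) (h2 : Nat1 dec)
    (h3 : ∀ Δ, M.Ex Δ → HL P 0 Δ Kb b ∧ (∀ X, M.Pr Δ X → Ty (colP P) Δ (enc X) Kb) ∧ ∀ z, Ty (colP P) Δ z Kb → M.Pr Δ (dec z))
    (h4 : ∀ n X, M.Pr (M.Γ n) X → (M.Tr (dec (enc X)) ↔ M.Tr X)) :
    ∃ A', IsO M l (ot P a b) A' ∧ ∀ K, A'.F K = arr (A.F K) Kb := by
  have key : ∀ K z φ, inst z (A.o (lift K) (bv 0) (sub (up fun x => lift (vr x)) φ)) = A.o K z φ := fun K z φ => by
    rw [inst, h.no _ _ _ _ (bs_vcons z), sub_vcons_lift, sub_vr, sub_sub, sa_up_up]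
    simp only [sub_vcons_lift, sub_vr]
    rw [show (up fun x => vr x : Sb (S × Fin 3)) = vr from sa_up_vr, sub_vr]
    rfl
  have pb : ∀ {Δ K φ}, M.Ex Δ → HL P 0 Δ K l → M.PB Δ K φ →
      M.PB Δ (A.F K) (A.o (lift K) (bv 0) (sub (up fun x => lift (vr x)) φ)) := fun hΔ hK hφ Δ' z k1 k2 => by
    rw [key]
    exact h.to' Δ' _ z _ (hΔ.trans k1) (hK.ext k1) k2 (hφ.ext k1)
  refine ⟨⟨fun K => arr (A.F K) Kb, fun K φ => lam (A.F K) (enc (A.o (lift K) (bv 0) (sub (up fun x => lift (vr x)) φ))),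
    fun K z N => dec (app z (A.i K N))⟩, ⟨fun σ K hσ => ?_, fun σ K φ hσ => ?_, fun σ K z N hσ => ?_,
      fun Δ K hΔ hK => (h.tF Δ K hΔ hK).arr (h3 Δ hΔ).1 (by decide),
      fun Δ K φ hΔ hK hφ => powb_lam hn h1 h3 hΔ (h.tF Δ K hΔ hK) (pb hΔ hK hφ),
      fun Δ K z N hΔ hK hz hN => (h3 Δ hΔ).2.2 _ (hz.arr_elim (h.ti Δ K N hΔ hK hN)),
      fun n K N φ hK hN hφ => ?_⟩, fun _ => rfl⟩
  · simp only [sub_arr, h.nF σ K hσ, h0 σ hσ]
  · have e1 : ∀ x, sub σ (vr x) = σ x := fun x => by cases x <;> rfl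
    simp only [sub, h.nF σ K hσ, h1 _ _ hσ.up, h.no _ _ _ _ hσ.up, sub_up_lift, sub_sub, sa_up_up, e1, ← lift_eq_sub]
    rfl
  · simp only [sub, h2 σ _ hσ, h.ni σ _ _ hσ]
  · refine (powb_tr hn h1 h2 h3 h4 (h.tF _ K (Mdl.ex_n n) hK) (pb (Mdl.ex_n n) hK hφ)
      (h.ti _ K N (Mdl.ex_n n) hK hN)).trans ?_
    rw [key]
    exact h.tr n K N φ hK hN hφ

/-- `i' K N = lam (F K) (enc (o (lift K) (bv 0) (lift N)))`, `o' K z φ = dec (app z (i K φ))` -/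
theorem IsO.neg {l a b : Set S} {A : FS S} (h : IsO M l a A) (hn : (ot P a b).Nonempty) {Kb : CT S} {enc dec : CT S → CT S}
    (h0 : Nat0 Kb) (h1 : Nat1 enc) (h2 : Nat1 dec)
    (h3 : ∀ Δ, M.Ex Δ → HL P 0 Δ Kb b ∧ (∀ X, M.Pr Δ X → Ty (colP P) Δ (enc X) Kb) ∧ ∀ z, Ty (colP P) Δ z Kb → M.Pr Δ (dec z))
    (h4 : ∀ n X, M.Pr (M.Γ n) X → (M.Tr (dec (enc X)) ↔ M.Tr X)) :
    ∃ A', IsE M l (ot P a b) A' ∧ ∀ K, A'.F K = arr (A.F K) Kb := by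
  have key : ∀ K z N, inst z (A.o (lift K) (bv 0) (lift N)) = A.o K z N := fun K z N => by
    rw [inst, h.no _ _ _ _ (bs_vcons z), sub_vcons_lift, sub_vr, sub_vcons_lift, sub_vr]
    rfl
  have pb : ∀ {Δ K N}, M.Ex Δ → HL P 0 Δ K l → Ty (colP P) Δ N K →
      M.PB Δ (A.F K) (A.o (lift K) (bv 0) (lift N)) := fun hΔ hK hN Δ' z k1 k2 => by
    rw [key]
    exact h.to' Δ' _ z _ (hΔ.trans k1) (hK.ext k1) k2 (hN.ext k1)
  refine ⟨⟨fun K => arr (A.F K) Kb, fun K N => lam (A.F K) (enc (A.o (lift K) (bv 0) (lift N))),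
    fun K z φ => dec (app z (A.i K φ))⟩, ⟨fun σ K hσ => ?_, fun σ K N hσ => ?_, fun σ K z φ hσ => ?_,
      fun Δ K hΔ hK => (h.tF Δ K hΔ hK).arr (h3 Δ hΔ).1 (by decide),
      fun Δ K N hΔ hK hN => powb_lam hn h1 h3 hΔ (h.tF Δ K hΔ hK) (pb hΔ hK hN),
      fun Δ K z φ hΔ hK hz hφ => (h3 Δ hΔ).2.2 _ (hz.arr_elim (h.ti Δ K φ hΔ hK hφ)),
      fun n K N φ hK hN hφ => ?_⟩, fun _ => rfl⟩
  · simp only [sub_arr, h.nF σ K hσ, h0 σ hσ]
  · simp only [sub, h.nF σ K hσ, h1 _ _ hσ.up, h.no _ _ _ _ hσ.up, sub_up_lift]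
    rfl
  · simp only [sub, h2 σ _ hσ, h.ni σ _ _ hσ]
  · refine (powb_tr hn h1 h2 h3 h4 (h.tF _ K (Mdl.ex_n n) hK) (pb (Mdl.ex_n n) hK hN)
      (h.ti _ K φ (Mdl.ex_n n) hK hφ)).trans ?_
    rw [key]
    exact h.tr n K N φ hK hN hφ

/-- induction on the walk; the kind constructor `H` does not depend on the structure that is extended -/
theorem walk_ext (M : Mdl P d) {p : Bool} {m k : Set S} (h : WS P d p m k) : ∃ H : CT S → CT S, Nat1 H ∧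
    (∀ Δ K, M.Ex Δ → HL P 0 Δ K m → HL P 0 Δ (H K) k) ∧
    ∀ l q A, IsFS M q l m A → ∃ A', IsFS M (xor q p) l k A' ∧ ∀ K, A'.F K = H (A.F K) := by
  induction h with
  | refl => exact ⟨fun K => K, fun _ _ _ => rfl, fun _ _ _ h => h, fun l q A h => ⟨A, by simpa using h, fun _ => rfl⟩⟩
  | @step p p' a' b c hw hst ih =>
    obtain ⟨H, h1, h2, h3⟩ := ih
    cases hst with
    | @pos a b ha hb hne =>
      refine ⟨fun K => arr (M.Dd a) (H K), fun σ K hσ => ?_, fun Δ K hΔ hK =>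
        ((M.Dd_ty a ha).ext hΔ).arr (h2 Δ K hΔ hK) (by decide), fun l q A h => ?_⟩
      · simp only [sub_arr, h1 σ K hσ, mdla_nat0 (M.Dd_ty a ha) ha σ hσ]
      · obtain ⟨A', k1, k2⟩ := h3 l q A h
        obtain ⟨A'', k3, k4⟩ := k1.pos ha hb hne
        exact ⟨A'', by simpa using k3, fun K => by rw [k4, k2]⟩
    | @neg a e ha he hne hW =>
      obtain ⟨Kb, enc, dec, n0, n1, n2, n3, n4⟩ := prop_kind M hW
      refine ⟨fun K => arr (H K) Kb, fun σ K hσ => ?_, fun Δ K hΔ hK =>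
        (h2 Δ K hΔ hK).arr (n3 Δ hΔ).1 (by decide), fun l q A h => ?_⟩
      · simp only [sub_arr, h1 σ K hσ, n0 σ hσ]
      · obtain ⟨A', k1, k2⟩ := h3 l q A h
        rw [← Bool.xor_assoc]
        generalize xor q p = r at k1
        cases r
        · obtain ⟨A'', k3, k4⟩ := IsE.neg k1 hne n0 n1 n2 n3 n4
          exact ⟨A'', k3, fun K => by rw [k4, k2]⟩
        · obtain ⟨A'', k3, k4⟩ := IsO.neg k1 hne n0 n1 n2 n3 n4
          exact ⟨A'', k3, fun K => by rw [k4, k2]⟩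
    | cum ha hc hsub =>
      refine ⟨H, h1, fun Δ K hΔ hK s hs => h2 Δ K hΔ hK s (hsub hs), fun l q A h => ?_⟩
      obtain ⟨A', k1, k2⟩ := h3 l q A h
      exact ⟨A', by simpa using k1.cum hsub, k2⟩

theorem walk_odd (M : Mdl P d) {m k : Set S} (h : WS P d true m k) : ∃ A, IsO M m k A := by
  obtain ⟨H, -, -, h3⟩ := walk_ext M h
  exact (h3 m false _ (isE_id M m)).imp fun A h => h.1

/-- the data of the encoding -/
structure Kit (M : Mdl P d) where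
  s : S
  a : Set S
  b : Set S
  l1 : Set S
  l2 : Set S
  l3 : Set S
  l4 : Set S
  l5 : Set S
  q1 : Set S
  q2 : Set S
  q3 : Set S
  q5 : Set S
  qc : Set S
  Kt : CT S
  en : CT S → CT S
  de : CT S → CT S
  H0 : CT S → CT S
  G : CT S → CT S
  E : FS S
  P1 : FS S
  P2 : FS S
  P3 : FS S
  P4 : FS S
  P5 : FS S
  O1 : FS S
  O2 : FS S
  O3 : FS S
  O5 : FS S
  Oc : FS S
  c_ne : (ot P a b).Nonempty
  l1_ne : l1.Nonempty
  nKt : Nat0 Kt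
  nen : Nat1 en
  nde : Nat1 de
  nH0 : Nat1 H0
  nG : Nat1 G
  de_en : ∀ T, Cv (de (en T)) T
  tKt : ∀ Δ, M.Ex Δ → HL P 0 Δ Kt a
  ten : ∀ Δ T, M.Ex Δ → HL P 0 Δ T {s} → Ty (colP P) Δ (en T) Kt
  tde : ∀ Δ x, M.Ex Δ → Ty (colP P) Δ x Kt → HL P 0 Δ (de x) {s}
  tH0 : ∀ Δ K, M.Ex Δ → HL P 0 Δ K {s} → HL P 0 Δ (H0 K) l1
  tG : ∀ Δ K, M.Ex Δ → HL P 0 Δ K (ot P a b) → HL P 0 Δ (G K) {s}
  hE : IsE M (ot P a b) l1 E
  EF : ∀ K, E.F K = H0 (G K)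
  hP1 : IsO M l1 l2 P1
  hP2 : IsO M l2 l3 P2
  hP3 : IsO M l3 l4 P3
  hP4 : IsO M l4 b P4
  hP5 : IsO M (ot P a b) l5 P5
  hO1 : IsO M l1 q1 O1
  hO2 : IsO M l2 q2 O2
  hO3 : IsO M l3 q3 O3
  hO5 : IsO M l5 q5 O5
  hOc : IsO M (ot P a b) qc Oc
  hq1 : Qn P d q1
  hq2 : Qn P d q2
  hq3 : Qn P d q3
  hq5 : Qn P d q5
  hqc : Qn P d qc

/-! ### part c -/

/-- Let `e` be the structural component of `l`.  Every level of `e` has an odd walk to a `Qn` level (walk to `l`, then pick the parity),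
an odd walk from a level of `e` and an odd walk to a level of `e` (use the negative edge of `Imp2`: start/stop before or after it).
Choose `l4, l3, l2, l1` backwards from `b`, `l5` forwards from `c = ot a b`, walks `c → {s}` and `{s} → l1`; if their parities differ the
closed walk `c → {s} → l1 → l2 → l3 → l4 → b → c` is odd, put it in front of the first.  `H0` by `walk_ext`, `G` = the `F` of the extension
of `isE_id` along the first walk, `E` = its extension along the second.  `Kt`, `en`, `de`: `pos_walk` from `srt (s, 0)`. -/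
theorem exists_kit (M : Mdl P d) {l : Set S} (h : Imp P d l) (h0 : ToQ P d false l) (h1 : ToQ P d true l) :
    Nonempty (Kit M) := by
  obtain ⟨hL, ⟨s, a, b, hs, ha, hb, hne, hps, es, eb, ec⟩, ⟨a', b', ha', hb', hne', hLb', ea', ec'⟩⟩ := h
  have ng : WS P d true a' (ot P a' b') := Wk.single (Stp.neg ha' hb' hne' hLb')
  have into : ∀ m, SC P d l m → ∃ x, SC P d l x ∧ Lev P x ∧ WS P d true x m := by
    intro m hm
    obtain ⟨p, hp⟩ := ec'.2.trans hm.1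
    cases p
    · exact ⟨a', ea', ha', by simpa using ng.trans hp⟩
    · exact ⟨_, ec', Lev.ot ha' hb' hne', hp⟩
  have outof : ∀ m, SC P d l m → ∃ x, SC P d l x ∧ WS P d true m x := by
    intro m hm
    obtain ⟨p, hp⟩ := hm.2.trans ea'.1
    cases p
    · exact ⟨_, ec', by simpa using hp.trans ng⟩
    · exact ⟨a', ea', hp⟩
  have toq : ∀ m, SC P d l m → ∃ q A, Qn P d q ∧ IsO M m q A := by
    intro m hm
    obtain ⟨p, hp⟩ := hm.2
    cases p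
    · obtain ⟨q, hq, hw⟩ := h1
      obtain ⟨A, hA⟩ := walk_odd M (show WS P d true m q by simpa using hp.trans hw)
      exact ⟨q, A, hq, hA⟩
    · obtain ⟨q, hq, hw⟩ := h0
      obtain ⟨A, hA⟩ := walk_odd M (show WS P d true m q by simpa using hp.trans hw)
      exact ⟨q, A, hq, hA⟩
  obtain ⟨l4, e4, -, w4⟩ := into b eb
  obtain ⟨l3, e3, -, w3⟩ := into l4 e4
  obtain ⟨l2, e2, -, w2⟩ := into l3 e3
  obtain ⟨l1, e1, hl1, w1⟩ := into l2 e2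
  obtain ⟨l5, e5, w5⟩ := outof _ ec
  obtain ⟨g', wg'⟩ := es.2.trans e1.1
  have wg : WS P d g' (ot P a b) {s} := by
    obtain ⟨g, wg⟩ := ec.2.trans es.1
    by_cases hg : g = g'
    · exact hg ▸ wg
    · have wb : WS P d false b (ot P a b) := Wk.single (Stp.pos ha hb hne)
      have := (((((((wg.trans wg').trans w1).trans w2).trans w3).trans w4).trans wb).trans wg)
      revert this hg
      cases g <;> cases g' <;> simp
  obtain ⟨G, nG, tG, xG⟩ := walk_ext M wg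
  obtain ⟨H0, nH0, tH0, xH⟩ := walk_ext M wg'
  obtain ⟨AG, hAG, FG⟩ := xG _ false _ (isE_id M _)
  obtain ⟨E, hE, FE⟩ := xH _ _ _ hAG
  have hE' : IsE M (ot P a b) l1 E := by
    revert hE
    cases g' <;> exact fun h => h
  obtain ⟨P1, hP1⟩ := walk_odd M w1
  obtain ⟨P2, hP2⟩ := walk_odd M w2
  obtain ⟨P3, hP3⟩ := walk_odd M w3
  obtain ⟨P4, hP4⟩ := walk_odd M w4
  obtain ⟨P5, hP5⟩ := walk_odd M w5
  obtain ⟨q1, O1, hq1, hO1⟩ := toq _ e1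
  obtain ⟨q2, O2, hq2, hO2⟩ := toq _ e2
  obtain ⟨q3, O3, hq3, hO3⟩ := toq _ e3
  obtain ⟨q5, O5, hq5, hO5⟩ := toq _ e5
  obtain ⟨qc, Oc, hqc, hOc⟩ := toq _ ec
  obtain ⟨H, en, de, nH, nen, nde, cv, ty⟩ := pos_walk M hps
  have hsrt : ∀ Δ, M.Ex Δ → HL P 0 Δ (srt (s, 0)) (axs P s) := fun Δ hΔ t ht => hΔ.1.ax ⟨ht, rfl⟩
  exact ⟨{ s := s, a := a, b := b, l1 := l1, l2 := l2, l3 := l3, l4 := l4, l5 := l5, q1 := q1, q2 := q2, q3 := q3, q5 := q5,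
           qc := qc, Kt := H (srt (s, 0)), en := en, de := de, H0 := H0, G := G, E := E, P1 := P1, P2 := P2, P3 := P3,
           P4 := P4, P5 := P5, O1 := O1, O2 := O2, O3 := O3, O5 := O5, Oc := Oc, c_ne := hne, l1_ne := hl1.nonempty,
           nKt := fun σ h => nH σ _ h, nen := nen, nde := nde, nH0 := nH0, nG := nG, de_en := cv,
           tKt := fun Δ hΔ => (ty Δ _ hΔ (hsrt Δ hΔ)).1,
           ten := fun Δ T hΔ hT => (ty Δ _ hΔ (hsrt Δ hΔ)).2.1 T (hT s rfl),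
           tde := fun Δ x hΔ hx t ht => by
             rw [Set.mem_singleton_iff.1 ht]; exact (ty Δ _ hΔ (hsrt Δ hΔ)).2.2 x hx,
           tH0 := tH0, tG := tG, hE := hE', EF := fun K => by rw [FE, FG], hP1 := hP1, hP2 := hP2, hP3 := hP3, hP4 := hP4,
           hP5 := hP5, hO1 := hO1, hO2 := hO2, hO3 := hO3, hO5 := hO5, hOc := hOc, hq1 := hq1, hq2 := hq2, hq3 := hq3,
           hq5 := hq5, hqc := hqc }⟩

end Crest.Agent.R298
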